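import Vale.Agent.P159.T1.H315.MidC
import Vale.Agent.P159.H873.Mono
import Vale.Agent.P159.H170.Final

/-!
# Row D.mid: `StmtMid` from `StmtU`, `StmtUV`, `StmtV`
-/

open Filter Topology

namespace Vale.Agent.P159.T1.H315

open Vale.Agent.P159.T1.D (Z2 Bnd bs bt rt lf sides bd Ht dh dr gs wt pr ch Z Zρ ZB Vr IsDiv sh osc
  SB mir bump StmtU StmtUV StmtV StmtMid iso Dir)

/-- oscillation of the test field -/
lemma osc_r2 {x y w : ℝ} (hw : 0 < w) (M0 K0 l : ℕ) (hK : 1 ≤ K0) : ∃ C : ℝ, 0 ≤ C ∧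
    ∀ r : ℕ, 1 ≤ r → osc l (SK (K0 * r)) (vf (M0 * r) (r2 r x y w)) ≤ C / r := by
  refine ⟨(2 * l + 1) ^ 2 * (2 * (2 * (9 * (K0 : ℝ) ^ 2)) * (M0 * l + l * w) ^ 2 +
      2 * (2 * (3 * K0 * (2 * l + 2))) * (2 * (M0 * w)) ^ 2), by positivity, fun r hr => ?_⟩
  have hr0 : (0 : ℝ) < r := by exact_mod_cast hr
  have hr1 : (1 : ℝ) ≤ r := by exact_mod_cast hr
  have hK1 : (1 : ℝ) ≤ K0 := by exact_mod_cast hK
  have h1 := osc_vf (M := M0 * r) (K := K0 * r) (l := l) (ρ := r2 r x y w) (δ := l / (r : ℝ) ^ 3)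
    (c := w / (r : ℝ) ^ 2) (by positivity) (r2_le hw) (fun u hu f => by
      refine (r2_lip hr f u).trans ?_
      have : |(u : ℝ)| ≤ l := by exact_mod_cast hu
      gcongr)
  refine h1.trans ?_
  have e1 : (((M0 * r : ℕ) : ℝ) * (l / (r : ℝ) ^ 3) + l * (w / (r : ℝ) ^ 2)) =
      (M0 * l + l * w) / (r : ℝ) ^ 2 := by
    push_cast
    field_simp
  have e2 : 2 * (((M0 * r : ℕ) : ℝ) * (w / (r : ℝ) ^ 2)) = 2 * (M0 * w) / r := by
    push_cast
    field_simp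
  have hKr : (1 : ℝ) ≤ (K0 : ℝ) * r := by nlinarith
  have e3 : 2 * ((K0 * r : ℕ) : ℝ) + 1 ≤ 3 * K0 * r := by
    push_cast
    linarith
  have e4 : (2 * ((K0 * r : ℕ) : ℝ) + 1) ^ 2 ≤ (3 * K0 * r) ^ 2 :=
    pow_le_pow_left₀ (by positivity) e3 2
  rw [e1, e2]
  have hrr : 1 / (r : ℝ) ^ 2 ≤ 1 / r := one_div_le_one_div_of_le hr0 (by nlinarith)
  refine le_of_le_of_eq (mul_le_mul_of_nonneg_left ?_
    (by positivity : (0 : ℝ) ≤ (2 * l + 1) ^ 2)) (mul_div_assoc _ _ _).symm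
  have b1 : 2 * (2 * (2 * ((K0 * r : ℕ) : ℝ) + 1) ^ 2) * ((M0 * l + l * w) / (r : ℝ) ^ 2) ^ 2 ≤
      2 * (2 * (9 * (K0 : ℝ) ^ 2)) * (M0 * l + l * w) ^ 2 * (1 / r) := by
    calc 2 * (2 * (2 * ((K0 * r : ℕ) : ℝ) + 1) ^ 2) * ((M0 * l + l * w) / (r : ℝ) ^ 2) ^ 2
        ≤ 2 * (2 * (3 * K0 * r) ^ 2) * ((M0 * l + l * w) / (r : ℝ) ^ 2) ^ 2 := by gcongr
      _ = 2 * (2 * (9 * (K0 : ℝ) ^ 2)) * (M0 * l + l * w) ^ 2 * (1 / (r : ℝ) ^ 2) := by
        field_simp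
        ring
      _ ≤ _ := mul_le_mul_of_nonneg_left hrr (by positivity)
  have b2 : 2 * (2 * ((2 * ((K0 * r : ℕ) : ℝ) + 1) * (2 * l + 2))) * (2 * (M0 * w) / r) ^ 2 ≤
      2 * (2 * (3 * K0 * (2 * l + 2))) * (2 * (M0 * w)) ^ 2 * (1 / r) := by
    calc 2 * (2 * ((2 * ((K0 * r : ℕ) : ℝ) + 1) * (2 * l + 2))) * (2 * (M0 * w) / r) ^ 2
        ≤ 2 * (2 * ((3 * K0 * r) * (2 * l + 2))) * (2 * (M0 * w) / r) ^ 2 := by gcongr
      _ = _ := by
        field_simp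
  calc _ ≤ 2 * (2 * (9 * (K0 : ℝ) ^ 2)) * (M0 * l + l * w) ^ 2 * (1 / r) +
        2 * (2 * (3 * K0 * (2 * l + 2))) * (2 * (M0 * w)) ^ 2 * (1 / r) := add_le_add b1 b2
    _ = _ := by ring

/-- oscillation of the gradient of the test function -/
lemma osc_tf {x0 y w L : ℝ} (hw : 0 < w) (K0 l : ℕ) (hK : 1 ≤ K0) : ∃ C : ℝ, 0 ≤ C ∧
    ∀ (r : ℕ) (u1 : ℤ), 1 ≤ r → osc l (SK (K0 * r)) (dr (gg (tf x0 y w L) r u1)) ≤ C / r := by
  obtain ⟨C, hC, h⟩ := osc_gg (contDiff_tf (x0 := x0) (y := y) (w := w) (L := L)) (compact_tf hw)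
  refine ⟨18 * (K0 : ℝ) ^ 2 * ((2 * l + 1) ^ 2 * (C * l) ^ 2), by positivity, fun r u1 hr => ?_⟩
  have hr0 : (0 : ℝ) < r := by exact_mod_cast hr
  have hr1 : (1 : ℝ) ≤ r := by exact_mod_cast hr
  refine (h r l (K0 * r) u1 hr).trans ?_
  have h1 := card_SK_le hK hr
  have hrr : 1 / (r : ℝ) ^ 2 ≤ 1 / r := one_div_le_one_div_of_le hr0 (by nlinarith)
  calc ((SK (K0 * r)).card : ℝ) * ((2 * l + 1) ^ 2 * (C * l / (r : ℝ) ^ 2) ^ 2)
      ≤ (18 * (K0 : ℝ) ^ 2 * (r : ℝ) ^ 2) * ((2 * l + 1) ^ 2 * (C * l / (r : ℝ) ^ 2) ^ 2) :=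
        mul_le_mul_of_nonneg_right h1 (by positivity)
    _ = 18 * (K0 : ℝ) ^ 2 * ((2 * l + 1) ^ 2 * (C * l) ^ 2) * (1 / (r : ℝ) ^ 2) := by
      field_simp
    _ ≤ 18 * (K0 : ℝ) ^ 2 * ((2 * l + 1) ^ 2 * (C * l) ^ 2) * (1 / r) :=
      mul_le_mul_of_nonneg_left hrr (by positivity)
    _ = _ := by ring

/-- a choice of the size of the quadrant -/
lemma exists_R {C c D δ : ℝ} (hc : 0 < c) (hδ : 0 < δ) (a : ℕ) :
    ∃ R : ℕ, a ≤ R ∧ D * (C * ((a : ℝ) / R) ^ c) ≤ δ := by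
  have h1 : Tendsto (fun R : ℕ => (a : ℝ) / R) atTop (𝓝 0) :=
    tendsto_const_div_atTop_nhds_zero_nat _
  have h2 : Tendsto (fun R : ℕ => ((a : ℝ) / R) ^ c) atTop (𝓝 0) := by
    have := h1.rpow_const (p := c) (Or.inr hc.le)
    rwa [Real.zero_rpow hc.ne'] at this
  have h3 : Tendsto (fun R : ℕ => D * (C * ((a : ℝ) / R) ^ c)) atTop (𝓝 0) := by
    have := (h2.const_mul C).const_mul D
    simpa using this
  obtain ⟨R, hR⟩ := ((h3.eventually (eventually_le_nhds hδ)).and (eventually_ge_atTop a)).exists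
  exact ⟨R, hR.2, hR.1⟩

/-- the arithmetic of `cov_mid` -/
lemma arith_mid {Y c1 t κ2 δ ε ε1 D q V S1 S12 S2 O1 O2 C W : ℝ} (hY : 0 < Y) (hc1 : 0 < c1)
    (ht : 0 < t) (hκ2 : 0 ≤ κ2) (hε0 : 0 < ε) (hε1 : ε ≤ 1) (hε10 : 0 < ε1)
    (ht1 : t * ((Y + 1) * κ2) ≤ Y * c1 / 4) (hδ : t * (Y * c1) = 16 * δ)
    (hεD : ε * D ≤ δ) (hε11 : ε1 * (Y + 2) = δ)
    (hR : Y * D * q ≤ δ) (hvar : Y * D * (1 - q) - ε1 ≤ V) (hen : S1 ≤ D + ε1)
    (hpair : c1 ≤ S12) (hS20 : 0 ≤ S2) (hS2 : S2 ≤ κ2) (hO : 2 * C * O1 + 2 * t ^ 2 * C * O2 ≤ δ)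
    (hdef : V - (Y + ε) * S1 + 2 * t * (Y + ε) * S12 - t ^ 2 * (Y + ε) * S2 -
      2 * C * O1 - 2 * t ^ 2 * C * O2 ≤ 2 * t * W) : Y * c1 / 2 ≤ W := by
  have a2 : (Y + ε) * S1 ≤ (Y + ε) * (D + ε1) := mul_le_mul_of_nonneg_left hen (by linarith)
  have a3 : t ^ 2 * (Y + ε) * S2 ≤ t * (Y * c1 / 4) := by
    calc t ^ 2 * (Y + ε) * S2 ≤ t ^ 2 * (Y + 1) * κ2 :=
          mul_le_mul (mul_le_mul_of_nonneg_left (by linarith) (by positivity)) hS2 hS20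
            (by positivity)
      _ = t * (t * ((Y + 1) * κ2)) := by ring
      _ ≤ _ := mul_le_mul_of_nonneg_left ht1 ht.le
  have a4 : 2 * t * Y * c1 ≤ 2 * t * (Y + ε) * S12 :=
    mul_le_mul (mul_le_mul_of_nonneg_left (by linarith) (by positivity)) hpair hc1.le
      (by positivity)
  have a5 : (Y + ε) * (D + ε1) + ε1 ≤ Y * D + 2 * δ := by
    have k1 : ε * ε1 ≤ 1 * ε1 := mul_le_mul_of_nonneg_right hε1 hε10.le
    nlinarith
  have a7 : 2 * t * (Y * c1 / 2) ≤ 2 * t * W := by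
    have k1 : Y * D * (1 - q) = Y * D - Y * D * q := by ring
    have k2 : 2 * t * (Y * c1 / 2) = t * (Y * c1) := by ring
    have k3 : t * (Y * c1 / 4) = t * (Y * c1) / 4 := by ring
    have k4 : 2 * t * Y * c1 = 2 * (t * (Y * c1)) := by ring
    rw [k1] at hvar
    rw [k2]
    rw [k3] at a3
    rw [k4] at a4
    have hT : 0 < t * (Y * c1) := by positivity
    linarith
  exact le_of_mul_le_mul_left a7 (by positivity)

/-- the support of the test function lies in the domain -/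
lemma gg_mem {x y s x' : ℝ} {A r : ℕ} {U : Finset Z2} (hs : 0 < s) (hr : 1 ≤ r)
    (hmem : ∀ f : Z2, -(x' * r) < (f.1 : ℝ) → (f.1 : ℝ) < r + A * r → f.2 ≤ -2 →
      -((A : ℝ) * r) ≤ (f.2 : ℝ) → f ∈ U) (hx0 : 0 ≤ x' - x - s / 4) (hy : 0 ≤ y - s / 4)
    (hA1 : 2 + x + s ≤ A) (hA2 : 2 + y + s ≤ A) {f : Z2}
    (hf : gg (tf (x' - x) y (s / 4) (x' + 1 + x + s)) r (uc x' r) f ≠ 0) : f ∈ U := by
  have hr1 : (1 : ℝ) ≤ r := by exact_mod_cast hr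
  have hr0 : (0 : ℝ) < r := by linarith
  obtain ⟨a1, a2, a3, a4⟩ := gg_supp (by positivity) hr hf
  have b1 := mul_nonneg hx0 hr0.le
  have b2 := mul_nonneg hy hr0.le
  have b3 := mul_le_mul_of_nonneg_right hA1 hr0.le
  have b4 := mul_le_mul_of_nonneg_right hA2 hr0.le
  have b5 := mul_pos hs hr0
  refine hmem f ?_ ?_ ?_ ?_
  · linarith
  · have e : (x' + 1 + x + s - x') * (r : ℝ) = (1 + x + s) * r := by ring
    rw [e] at a2
    nlinarith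
  · have : (f.2 : ℝ) ≤ -2 := by linarith
    exact_mod_cast this
  · nlinarith

/-- the support of the test charge lies in the domain -/
lemma r2_mem {x y s x' : ℝ} {A r : ℕ} {U : Finset Z2} (hsx : s < x) (hr : 1 ≤ r)
    (hr2 : 2 ≤ (y - s) * r) (hx' : 0 < x')
    (hmem : ∀ f : Z2, -(x' * r) < (f.1 : ℝ) → (f.1 : ℝ) < r + A * r → f.2 ≤ -2 →
      -((A : ℝ) * r) ≤ (f.2 : ℝ) → f ∈ U)
    (hA1 : 2 + x + s ≤ A) (hA2 : 2 + y + s ≤ A) {f : Z2}
    (a1 : |(((mir r f).1 : ℤ) : ℝ) / r + x| ≤ s) (a2 : |(f.2 : ℝ) / r + y| ≤ s) : f ∈ U := by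
  have hr1 : (1 : ℝ) ≤ r := by exact_mod_cast hr
  have hr0 : (0 : ℝ) < r := by linarith
  have b1 := abs_le.1 a1
  have b2 := abs_le.1 a2
  unfold mir at b1
  simp only at b1
  push_cast at b1
  have e3 : ((r : ℝ) - 1 - f.1) = ((r : ℝ) - 1 - f.1) / r * r := by field_simp
  have e4 : (f.2 : ℝ) = (f.2 : ℝ) / r * r := by field_simp
  have b3 := mul_le_mul_of_nonneg_right (show ((r : ℝ) - 1 - f.1) / r ≤ -(x - s) by linarith)
    hr0.le
  have b4 := mul_le_mul_of_nonneg_right (show -(x + s) ≤ ((r : ℝ) - 1 - f.1) / r by linarith)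
    hr0.le
  have b5 := mul_le_mul_of_nonneg_right (show (f.2 : ℝ) / r ≤ -(y - s) by linarith) hr0.le
  have b6 := mul_le_mul_of_nonneg_right (show -(y + s) ≤ (f.2 : ℝ) / r by linarith) hr0.le
  rw [← e3] at b3 b4
  rw [← e4] at b5 b6
  have c1 := mul_le_mul_of_nonneg_right hA1 hr0.le
  have c2 := mul_le_mul_of_nonneg_right hA2 hr0.le
  have c3 : 0 < (x - s) * r := mul_pos (by linarith) hr0
  have c4 : 0 < x' * r := mul_pos hx' hr0
  refine hmem f ?_ ?_ ?_ ?_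
  · linarith
  · nlinarith
  · have : (f.2 : ℝ) ≤ -2 := by linarith
    exact_mod_cast this
  · nlinarith

/-- the divergence of the test field -/
lemma r2_div {x y s : ℝ} {A r M0 : ℕ} {Q : Finset Z2} (hs : 0 < s) (hsx : s < x) (hr : 1 ≤ r)
    (hr2 : 2 ≤ (y - s) * r) (hM0 : y + s ≤ M0) :
    IsDiv (SB (A * r) r \ Q) (vf (M0 * r) (r2 r x y (s / 4))) (r2 r x y (s / 4)) := by
  have hr0 : (0 : ℝ) ≤ r := Nat.cast_nonneg r
  refine vf_div (fun f hf => ?_) fun i j hij => ?_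
  · obtain ⟨a1, a2⟩ := r2_rows hs hr hr2 hf
    refine ⟨?_, a2⟩
    have : -((M0 * r : ℕ) : ℝ) ≤ (f.2 : ℝ) := by
      push_cast
      nlinarith [mul_le_mul_of_nonneg_right hM0 hr0]
    exact_mod_cast this
  · exact slit_not_mem (Or.inr (r2_cols (f := (i, j)) hs hsx hr hij).1)

/-- pairing of the gradient of a function supported in `U` with a field -/
lemma pair_eq {U : Finset Z2} {S : Finset Bnd} {g : Z2 → ℝ} {B2 : Bnd → ℝ} {ρ : Z2 → ℝ}
    (hgU : ∀ f, f ∉ U → g f = 0) (hs2 : ∀ e, e ∉ S → B2 e = 0) (hdiv : IsDiv U B2 ρ) :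
    ∑ e ∈ S, dr g e * B2 e = ∑ f ∈ U, ρ f * g f := by
  have k3 : ∀ e, dr g e * B2 e = B2 e * (g (lf e) - g (rt e)) := fun e => by
    unfold dr
    ring
  have k1 : ∑ e ∈ S, dr g e * B2 e = ∑ e ∈ S ∩ bd U, dr g e * B2 e := by
    refine (Finset.sum_subset Finset.inter_subset_left fun e he hne => ?_).symm
    have h7 : e ∉ bd U := fun h => hne (Finset.mem_inter.2 ⟨he, h⟩)
    rw [mem_bd, not_or] at h7
    unfold dr
    rw [hgU _ h7.1, hgU _ h7.2]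
    ring
  have k2 : ∑ e ∈ bd U, B2 e * (g (lf e) - g (rt e)) = ∑ e ∈ S ∩ bd U, dr g e * B2 e := by
    rw [Finset.sum_congr rfl fun e _ => (k3 e).symm]
    refine (Finset.sum_subset Finset.inter_subset_right fun e he hne => ?_).symm
    have h7 : e ∉ S := fun h => hne (Finset.mem_inter.2 ⟨h, he⟩)
    rw [hs2 e h7, mul_zero]
  rw [k1, ← k2, sum_parts B2 hgU]
  exact Finset.sum_congr rfl fun f hf => by rw [show dv B2 f = ρ f from hdiv f hf]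

/-- the variance of the test field from below -/
lemma var_low {b Y ε1 q : ℝ} {φ : ℝ × ℝ → ℝ} {x y w L x' : ℝ} {A R r : ℕ} {U : Finset Z2}
    (hw : 0 < w) (hr : 1 ≤ r) (hφ : φ = tf (x' - x) y w L) (hx'0 : 0 < x')
    (hx0 : 0 < x' - x - w) (hy : 0 < y - w) (hAR : (R : ℝ) + 2 ≤ A)
    (hmem : ∀ f : Z2, -(x' * r) < (f.1 : ℝ) → (f.1 : ℝ) < r + A * r → f.2 ≤ -2 →
      -((A : ℝ) * r) ≤ (f.2 : ℝ) → f ∈ U)
    (h3 : ∀ (u : Z2) (x y z : Bool) (U : Finset Z2),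
        (∀ f : Z2, 0 ≤ f.1 → f.1 < r * R → 0 ≤ f.2 → f.2 < r * R → iso u x y z f ∈ U) →
        ∀ g : Z2 → ℝ, (∀ f : Z2, 0 ≤ f.1 → 0 ≤ f.2 → g (iso u x y z f) =
          φ ((f.1 : ℝ) / r, (f.2 : ℝ) / r)) →
        (∀ f : Z2, (∀ f', 0 ≤ f'.1 → 0 ≤ f'.2 → f ≠ iso u x y z f') → g f = 0) →
        Y * Dir φ * (1 - q) - ε1 ≤ Vr b U (dr g)) :
    Y * Dir φ * (1 - q) - ε1 ≤ Vr b U (dr (gg φ r (uc x' r))) := by
  have hr1 : (1 : ℝ) ≤ r := by exact_mod_cast hr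
  have hr0 : (0 : ℝ) < r := by linarith
  have c4 : 0 < x' * r := mul_pos hx'0 hr0
  have c5 := mul_le_mul_of_nonneg_right hAR hr0.le
  refine h3 (uc x' r, -1) true false false U (fun f a1 a2 a3 a4 => ?_) _
    (fun f _ _ => ?_) fun f hf => ?_
  · have u1 := uc_gt x' r
    have u2 := uc_le x' r
    have a1' : (0 : ℝ) ≤ f.1 := by exact_mod_cast a1
    have a3' : (0 : ℝ) ≤ f.2 := by exact_mod_cast a3
    have a2' : (f.1 : ℝ) < r * R := by exact_mod_cast a2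
    have a4' : (f.2 : ℝ) < r * R := by exact_mod_cast a4
    refine hmem _ ?_ ?_ ?_ ?_
    · show -(x' * r) < (((uc x' r) + f.1 : ℤ) : ℝ)
      push_cast
      linarith
    · show (((uc x' r) + f.1 : ℤ) : ℝ) < _
      push_cast
      linarith
    · show (-1 : ℤ) + (-1 - f.2) ≤ -2
      omega
    · show _ ≤ (((-1 : ℤ) + (-1 - f.2) : ℤ) : ℝ)
      push_cast
      linarith
  · unfold gg
    show φ (((((uc x' r) + f.1 : ℤ) : ℝ) - uc x' r) / r,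
      (-2 - (((-1 : ℤ) + (-1 - f.2) : ℤ) : ℝ)) / r) = _
    push_cast
    congr 2
    · congr 1
      ring
    · congr 1
      ring
  · by_contra hn
    rw [hφ] at hn
    obtain ⟨⟨a1, _⟩, a2, _⟩ := tf_supp hw hn
    simp only at a1 a2
    rw [le_div_iff₀ hr0] at a1 a2
    have a3 : 0 < (x' - x - w) * (r : ℝ) := mul_pos hx0 hr0
    have a4 : 0 < (y - w) * (r : ℝ) := mul_pos hy hr0
    have a5 : ((uc x' r : ℤ) : ℝ) < (f.1 : ℝ) := by linarith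
    have a6 : (f.2 : ℝ) < -2 := by linarith
    have a5' : uc x' r < f.1 := by exact_mod_cast a5
    have a6' : f.2 < -2 := by exact_mod_cast a6
    refine hf (f.1 - uc x' r, -2 - f.2) (by simp only; omega) (by simp only; omega) ?_
    unfold iso
    ext
    · simp
    · simp only [Bool.false_eq_true, if_false]
      ring

/-- comparison of the charges -/
lemma cmp_mid {b κ x y s C1 : ℝ} {r : ℕ} {U : Finset Z2} {B1 B2 : Bnd → ℝ} (hb0 : 0 ≤ b)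
    (hκ : 0 < κ) (hs : 0 < s) (hC1 : 0 ≤ C1) (hdiv : IsDiv U B2 (r2 r x y (s / 4)))
    (h1 : ∀ f, dv B1 f ≤ C1 * bump r κ x y s f) :
    Cv b U (dv B1) (dv B2) ≤ (C1 + 1) * ((s / 4) / (κ * (s ^ 2 / 2) ^ 4)) *
      Cv b U (bump r κ x y s) (fun f => bump r κ x y s (mir r f)) := by
  set C4 : ℝ := (s / 4) / (κ * (s ^ 2 / 2) ^ 4) with hC4
  have k0 : ∀ f ∈ U, dv B2 f = r2 r x y (s / 4) f := fun f hf => hdiv f hf
  have k1 : Cv b U (dv B1) (dv B2) = Cv b U (r2 r x y (s / 4)) (dv B1) := by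
    rw [Cv_comm]
    exact Cv_congr k0 fun _ _ => rfl
  have k2 : Cv b U (r2 r x y (s / 4)) (dv B1) ≤
      Cv b U (r2 r x y (s / 4)) fun f => (C1 + 1) * bump r κ x y s f := by
    refine Cv_mono hb0 (fun f _ => r2_nonneg f) fun f _ => ?_
    refine (h1 f).trans ?_
    have := bump_nonneg (r := r) (x := x) (y := y) (s := s) hκ.le f
    linarith
  have k3 : Cv b U (bump r κ x y s) (r2 r x y (s / 4)) ≤
      Cv b U (bump r κ x y s) fun f => C4 * bump r κ x y s (mir r f) :=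
    Cv_mono hb0 (fun f _ => bump_nonneg hκ.le f) fun f _ => r2_le_bump hκ hs f
  rw [Cv_smul b C4 (bump r κ x y s) fun f => bump r κ x y s (mir r f)] at k3
  rw [Cv_smul b (C1 + 1) (r2 r x y (s / 4)) (bump r κ x y s), Cv_comm b U _ (bump r κ x y s)] at k2
  rw [k1]
  refine k2.trans ?_
  have k4 := mul_le_mul_of_nonneg_left k3 (by linarith : 0 ≤ C1 + 1)
  linarith

/-- the energy of the test field -/
lemma B2_le {x y s : ℝ} {r M0 K0 : ℕ} (hs : 0 < s) (hr : 1 ≤ r) (hK : 1 ≤ K0) :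
    ∑ e ∈ SK (K0 * r), vf (M0 * r) (r2 r x y (s / 4)) e ^ 2 ≤
      18 * (K0 : ℝ) ^ 2 * (M0 * (s / 4)) ^ 2 := by
  have hr0 : (0 : ℝ) < r := by exact_mod_cast hr
  have h7 := sum_sq_le (S := SK (K0 * r)) (B := vf (M0 * r) (r2 r x y (s / 4)))
    (vf_le (M := M0 * r) (r2_le (r := r) (x := x) (y := y) (by positivity)))
  refine h7.trans ?_
  have hcard := card_SK_le hK hr
  calc ((SK (K0 * r)).card : ℝ) * (((M0 * r : ℕ) : ℝ) * (s / 4 / (r : ℝ) ^ 2)) ^ 2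
      ≤ (18 * (K0 : ℝ) ^ 2 * (r : ℝ) ^ 2) *
        (((M0 * r : ℕ) : ℝ) * (s / 4 / (r : ℝ) ^ 2)) ^ 2 :=
        mul_le_mul_of_nonneg_right hcard (sq_nonneg _)
    _ = _ := by
      push_cast
      field_simp

/-- **the covariance of the two bumps is bounded from below** -/
theorem cov_mid (hUV : StmtUV) (hV : StmtV) {b κ x y s x' : ℝ} (hb : bCrit ≤ b) (hκ : 0 < κ)
    (hs : 0 < s) (hsy : s < y) (hsx : s < x) (hx' : x + s < x') :
    ∃ (c : ℝ) (n1 A0 : ℕ), 0 < c ∧ ∀ (A r : ℕ), A0 ≤ A → n1 ≤ r →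
      ∀ Q : Finset Z2, (∀ f ∈ Q, x' * (r : ℝ) ≤ -(f.1 : ℝ)) →
        c ≤ Cv b (SB (A * r) r \ Q) (bump r κ x y s) (fun f => bump r κ x y s (mir r f)) := by
  have hb0 : 0 < b := H170.bCrit_pos.trans_le hb
  set Y := helicity b with hY
  have hY0 : 0 < Y := by
    obtain ⟨h1, h2⟩ := H873.hel_lower H170.bCrit_pos hb
    exact lt_of_lt_of_le (by positivity) h2
  have hw0 : 0 < s / 4 := by positivity
  have hx'0 : 0 < x' := by linarith
  set L := x' + 1 + x + s with hL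
  set φ := tf (x' - x) y (s / 4) L with hφ
  have hφ2 : ContDiff ℝ 2 φ := contDiff_tf
  have hφc : HasCompactSupport φ := compact_tf hw0
  have hD0 : 0 ≤ Dir φ := by
    unfold Dir
    exact MeasureTheory.integral_nonneg fun z => by positivity
  obtain ⟨C1, n1, hC1, h1⟩ := lap_bump (κ := κ) (x := x) (y := y) (s := s) (x' := x') (L := L) hκ hs
  obtain ⟨c1, n2, hc1, h2⟩ := pair_ge (x := x) (y := y) (s := s) (x' := x') hs hsx
  obtain ⟨Cq, cq, hCq, hcq, hVq⟩ := hV b hb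
  -- constants
  obtain ⟨M0, hM0⟩ := exists_nat_ge (y + s + 1)
  obtain ⟨K0, hK0⟩ := exists_nat_ge (x' + |L - x'| + y + s + x + 5)
  have habs := abs_nonneg (L - x')
  have hK1 : (1 : ℝ) ≤ K0 := by linarith
  have hK1' : 1 ≤ K0 := by exact_mod_cast hK1
  set κ2 : ℝ := 18 * (K0 : ℝ) ^ 2 * (M0 * (s / 4)) ^ 2 with hκ2
  have hκ20 : 0 ≤ κ2 := by positivity
  set t : ℝ := Y * c1 / (4 * ((Y + 1) * (κ2 + 1))) with ht
  have ht0 : 0 < t := by positivity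
  have ht1 : t * ((Y + 1) * κ2) ≤ Y * c1 / 4 := by
    have e : t * ((Y + 1) * (κ2 + 1)) = Y * c1 / 4 := by
      rw [ht]
      field_simp
    have : t * ((Y + 1) * κ2) ≤ t * ((Y + 1) * (κ2 + 1)) := by
      refine mul_le_mul_of_nonneg_left (mul_le_mul_of_nonneg_left (by linarith) (by linarith))
        ht0.le
    linarith
  set δ : ℝ := t * (Y * c1) / 16 with hδ
  have hδ0 : 0 < δ := by positivity
  have hδ16 : t * (Y * c1) = 16 * δ := by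
    rw [hδ]
    ring
  set ε : ℝ := min 1 (δ / (Dir φ + 1)) with hε
  have hε0 : 0 < ε := lt_min one_pos (by positivity)
  have hε1 : ε ≤ 1 := min_le_left _ _
  have hεD : ε * Dir φ ≤ δ := by
    have h3 : ε ≤ δ / (Dir φ + 1) := min_le_right _ _
    rw [le_div_iff₀ (by linarith)] at h3
    linarith
  obtain ⟨l, C, hC, hUV1⟩ := hUV b ε hb0 hε0
  set ε1 : ℝ := δ / (Y + 2) with hε1'
  have hε10 : 0 < ε1 := by positivity
  have hε11 : ε1 * (Y + 2) = δ := by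
    rw [hε1']
    field_simp
  -- the quadrant
  obtain ⟨a, ha⟩ := exists_nat_ge (max 1 (max L (y + s)))
  have ha1 : (1 : ℝ) ≤ a := (le_max_left _ _).trans ha
  have haL : L ≤ a := (le_max_left _ _).trans ((le_max_right _ _).trans ha)
  have hay : y + s ≤ a := (le_max_right _ _).trans ((le_max_right _ _).trans ha)
  obtain ⟨R, haR, hR⟩ := exists_R (C := Cq) (c := cq) (D := Y * Dir φ) (δ := δ) hcq hδ0 a
  have hsupp : ∀ z ∈ tsupport φ, 0 < z.1 ∧ 0 < z.2 := by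
    intro z hz
    obtain ⟨⟨a1, _⟩, a2, _⟩ := tsupp_tf hw0 hz
    exact ⟨by linarith, by linarith⟩
  have hsupp' : ∀ z ∈ tsupport φ, z.1 ≤ a ∧ z.2 ≤ a := by
    intro z hz
    obtain ⟨⟨_, a1⟩, _, a2⟩ := tsupp_tf hw0 hz
    exact ⟨by linarith, by linarith⟩
  obtain ⟨n3, h3⟩ := hVq φ hφ2 hφc hsupp a R (by exact_mod_cast ha1) haR hsupp' ε1 hε10
  obtain ⟨n4, h4⟩ := energy_le hφ2 hφc hε10
  obtain ⟨C2, hC2, h5⟩ := osc_r2 (x := x) (y := y) hw0 M0 K0 l hK1'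
  obtain ⟨C3, hC3, h6⟩ := osc_tf (x0 := x' - x) (y := y) (L := L) hw0 K0 l hK1'
  obtain ⟨n5, hn5⟩ := exists_nat_ge (max 1 (max (2 / (y - s))
    ((2 * C * C3 + 2 * t ^ 2 * C * C2) / δ)))
  obtain ⟨A0, hA0⟩ := exists_nat_ge ((R : ℝ) + x' + x + y + s + 5)
  set C4 : ℝ := (s / 4) / (κ * (s ^ 2 / 2) ^ 4) with hC4
  have hC40 : 0 < C4 := by positivity
  refine ⟨Y * c1 / 2 / ((C1 + 1) * C4), max n1 (max n2 (max n3 (max n4 n5))), A0, by positivity,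
    fun A r hA hr Q hQ => ?_⟩
  simp only [max_le_iff] at hr
  obtain ⟨hr1, hr2, hr3, hr4, hr5⟩ := hr
  have hrr : (max 1 (max (2 / (y - s)) ((2 * C * C3 + 2 * t ^ 2 * C * C2) / δ)) : ℝ) ≤ r :=
    hn5.trans (by exact_mod_cast hr5)
  have hr1r : (1 : ℝ) ≤ r := (le_max_left _ _).trans hrr
  have hr0 : (0 : ℝ) < r := by linarith
  have hr1' : 1 ≤ r := by exact_mod_cast hr1r
  have hr2' : 2 ≤ (y - s) * r := by
    have h7 : 2 / (y - s) ≤ r := (le_max_left _ _).trans ((le_max_right _ _).trans hrr)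
    rw [div_le_iff₀ (by linarith)] at h7
    linarith
  have hosc : (2 * C * C3 + 2 * t ^ 2 * C * C2) / r ≤ δ := by
    have h7 : (2 * C * C3 + 2 * t ^ 2 * C * C2) / δ ≤ r :=
      (le_max_right _ _).trans ((le_max_right _ _).trans hrr)
    rw [div_le_iff₀ hδ0] at h7
    rw [div_le_iff₀ hr0]
    linarith
  have hAR : (R : ℝ) + x' + x + y + s + 5 ≤ A := hA0.trans (by exact_mod_cast hA)
  have hRn : (0 : ℝ) ≤ R := Nat.cast_nonneg R
  have hmem : ∀ f : Z2, -(x' * r) < (f.1 : ℝ) → (f.1 : ℝ) < r + A * r → f.2 ≤ -2 →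
      -((A : ℝ) * r) ≤ (f.2 : ℝ) → f ∈ SB (A * r) r \ Q := fun f a1 a2 a3 a4 =>
    mem_U (by linarith) hQ a1 a2 a3 a4
  -- supports
  have hs1 : ∀ e, e ∉ SK (K0 * r) → dr (gg φ r (uc x' r)) e = 0 := fun e he =>
    dr_gg_supp hw0 hr1' (by linarith) (by linarith) (by linarith) (by linarith) he
  have hs2 : ∀ e, e ∉ SK (K0 * r) → vf (M0 * r) (r2 r x y (s / 4)) e = 0 := by
    intro e he
    refine vf_supp (C1 := (x + s + 1) * r) (C2 := (y + s) * r)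
      (fun f hf => (r2_cols hs hsx hr1' hf).2) (fun f hf => (r2_rows hs hr1' hr2' hf).1) ?_ ?_ he
    · push_cast
      exact mul_le_mul_of_nonneg_right (by linarith) hr0.le
    · push_cast
      exact mul_le_mul_of_nonneg_right (by linarith) hr0.le
  have hdiv := r2_div (A := A) (Q := Q) (M0 := M0) hs hsx hr1' hr2' (by linarith)
  have hgU : ∀ f, f ∉ SB (A * r) r \ Q → gg φ r (uc x' r) f = 0 := by
    intro f hf
    by_contra hn
    exact hf (gg_mem hs hr1' hmem (by linarith) (by linarith) (by linarith) (by linarith) hn)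
  have hpair : c1 ≤ ∑ e ∈ SK (K0 * r), dr (gg φ r (uc x' r)) e *
      vf (M0 * r) (r2 r x y (s / 4)) e := by
    rw [pair_eq hgU hs2 hdiv]
    exact h2 r hr2 _ fun f a1 a2 => r2_mem hsx hr1' hr2' hx'0 hmem (by linarith) (by linarith) a1 a2
  have hvar := var_low hw0 hr1' hφ hx'0 (by linarith) (by linarith) (by linarith) hmem (h3 r hr3)
  have hdef := cov_defect (Y := Y + ε) hb0.le hC.le
    (fun B hB => hUV1 (SB (A * r) r \ Q) (SK (K0 * r)) B hB) hs1 hs2 t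
  have hO : 2 * C * osc l (SK (K0 * r)) (dr (gg φ r (uc x' r))) +
      2 * t ^ 2 * C * osc l (SK (K0 * r)) (vf (M0 * r) (r2 r x y (s / 4))) ≤ δ := by
    have k1 := mul_le_mul_of_nonneg_left (h6 r (uc x' r) hr1') (by positivity : 0 ≤ 2 * C)
    have k2 := mul_le_mul_of_nonneg_left (h5 r hr1') (by positivity : 0 ≤ 2 * t ^ 2 * C)
    have k3 : 2 * C * (C3 / r) + 2 * t ^ 2 * C * (C2 / r) =
        (2 * C * C3 + 2 * t ^ 2 * C * C2) / r := by ring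
    linarith
  have hcov := arith_mid hY0 hc1 ht0 hκ20 hε0 hε1 hε10 ht1 hδ16 hεD hε11 hR hvar
    (h4 r hr4 (uc x' r) (K0 * r)) hpair (Finset.sum_nonneg fun _ _ => sq_nonneg _)
    (B2_le hs hr1' hK1') hO hdef
  have hcmp := cmp_mid (b := b) (C1 := C1) hb0.le hκ hs hC1 hdiv (h1 r hr1)
  rw [div_le_iff₀ (by positivity)]
  linarith

/-- **row D.mid** -/
theorem stmtMid (hU : StmtU) (hUV : StmtUV) (hV : StmtV) : StmtMid := by
  intro b κ x y s x' hb hκ hs hsy hsx hx'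
  have hb0 : 0 < b := H170.bCrit_pos.trans_le hb
  obtain ⟨K, n1, hK, h1⟩ := upper_mid hU hb0 hκ hs hsy hsx
  obtain ⟨c, n2, A0, hc, h2⟩ := cov_mid hUV hV hb hκ hs hsy hsx hx'
  refine ⟨1 - 2 * c / K, max n1 n2, A0, by
    have : 0 < 2 * c / K := by positivity
    linarith, fun A r hA hr Q hQ => ?_⟩
  simp only [max_le_iff] at hr
  have h3 := h1 A r hr.1 Q
  have h4 := h2 A r hA hr.2 Q hQ
  have h5 := mid_ratio (U := SB (A * r) r \ Q) hb0.le (f := bump r κ x y s)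
    (g := fun f => bump r κ x y s (mir r f)) (fun f _ => bump_nonneg hκ.le f)
    (fun f _ => bump_nonneg hκ.le _)
  have hZ := Z_pos hb0.le (SB (A * r) r \ Q)
  set P := Zρ b (SB (A * r) r \ Q) (fun f => bump r κ x y s f + bump r κ x y s (mir r f)) with hP
  have h6 : 2 * c / K * P ≤ 2 * c * Z b (SB (A * r) r \ Q) := by
    calc 2 * c / K * P ≤ 2 * c / K * (K * Z b (SB (A * r) r \ Q)) :=
          mul_le_mul_of_nonneg_left h3 (by positivity)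
      _ = _ := by
        field_simp
  have h7 : 2 * c * Z b (SB (A * r) r \ Q) ≤ 2 * Cv b (SB (A * r) r \ Q) (bump r κ x y s)
      (fun f => bump r κ x y s (mir r f)) * Z b (SB (A * r) r \ Q) :=
    mul_le_mul_of_nonneg_right (by linarith) hZ.le
  have e : (1 - 2 * c / K) * P = P - 2 * c / K * P := by ring
  rw [e]
  linarith

end Vale.Agent.P159.T1.H315
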