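import Vale.Agent.P159.T1.H897.LogC
import Vale.Agent.P159.T1.H532.Flux

/-!
# Second moments of the heights: positivity and the subharmonic comparison (row T1.A.Cov)

`Hs P` = heights which vanish on `P`, weight `Wt s t J`. `M2 s t J P f g` is the (unnormalised)
second moment of the linear forms `∑ f v h v`, `∑ g v h v`.

* `M2_nonneg` : nonnegative charges are positively correlated (height FKG);
* `sub_trick` : if `φ` vanishes on `P` and its charge `lap φ` is at most `C f' + err` off `P`, then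
  `M2 f (lap φ) ≤ C M2 f f' + M2 f err` for every `f ≥ 0`;
* `cross_lim` : a nearly positive form with vanishing defect at `φ` has vanishing cross defect.
-/

open Filter Topology

namespace Vale.Agent.P159.T1.H315

open Vale.Agent.P159 Vale.Agent.P159.H353 Vale.Agent.P159.T1.H532 Vale.Agent.P159.T1.H897

section defs

variable {V E : Type} [Fintype V] [Fintype E]

/-- linear form of the heights -/
def ln (ρ : V → ℝ) (h : V → ℤ) : ℝ := ∑ v, ρ v * (h v : ℝ)

/-- second moment -/
noncomputable def M2 (s t : E → V) (J : E → ℝ) (P : Set V) (f g : V → ℝ) : ℝ :=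
  ∑' h : Hs P, ln f h.1 * ln g h.1 * Wt s t J h.1

/-- partition function -/
noncomputable def Z0 (s t : E → V) (J : E → ℝ) (P : Set V) : ℝ := ∑' h : Hs P, Wt s t J h.1

open Classical in
/-- the charge (graph Laplacian) of `φ` -/
noncomputable def lap (s t : E → V) (φ : V → ℝ) (v : V) : ℝ :=
  ∑ e, ((if t e = v then φ (t e) - φ (s e) else 0) - (if s e = v then φ (t e) - φ (s e) else 0))

end defs

variable {V E : Type} [Fintype V] [Fintype E] {s t : E → V} {P : Set V} {J : E → ℝ}

omit [Fintype E] in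
lemma ln_add (f g : V → ℝ) (h : V → ℤ) : ln (fun v => f v + g v) h = ln f h + ln g h := by
  unfold ln
  rw [← Finset.sum_add_distrib]
  exact Finset.sum_congr rfl fun v _ => by ring

omit [Fintype E] in
lemma ln_sub (f g : V → ℝ) (h : V → ℤ) : ln (fun v => f v - g v) h = ln f h - ln g h := by
  unfold ln
  rw [← Finset.sum_sub_distrib]
  exact Finset.sum_congr rfl fun v _ => by ring

omit [Fintype E] in
lemma ln_smul (c : ℝ) (f : V → ℝ) (h : V → ℤ) : ln (fun v => c * f v) h = c * ln f h := by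
  unfold ln
  rw [Finset.mul_sum]
  exact Finset.sum_congr rfl fun v _ => by ring

omit [Fintype E] in
lemma ln_neg_h (f : V → ℝ) (h : V → ℤ) : ln f (-h) = -ln f h := by
  unfold ln
  rw [← Finset.sum_neg_distrib]
  refine Finset.sum_congr rfl fun v _ => ?_
  rw [Pi.neg_apply]
  push_cast
  ring

omit [Fintype E] in
lemma ln_mono {f : V → ℝ} (hf : ∀ v, 0 ≤ f v) : Monotone (ln f) := by
  intro a b hab
  refine Finset.sum_le_sum fun v _ => mul_le_mul_of_nonneg_left ?_ (hf v)
  exact_mod_cast hab v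

/-- the linear form of a charge which is a Laplacian -/
lemma ln_lap (φ : V → ℝ) (h : V → ℤ) :
    ln (lap s t φ) h = Xh s t (fun e => φ (t e) - φ (s e)) h := by
  classical
  unfold ln lap Xh
  simp only [Finset.sum_mul]
  rw [Finset.sum_comm]
  refine Finset.sum_congr rfl fun e _ => ?_
  have h1 : ∀ v, ((if t e = v then φ (t e) - φ (s e) else 0) -
      (if s e = v then φ (t e) - φ (s e) else 0)) * (h v : ℝ) =
      (if t e = v then (φ (t e) - φ (s e)) * (h v : ℝ) else 0) -
      (if s e = v then (φ (t e) - φ (s e)) * (h v : ℝ) else 0) := by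
    intro v
    split_ifs <;> ring
  simp only [h1, Finset.sum_sub_distrib, Finset.sum_ite_eq, Finset.mem_univ, if_true]
  push_cast
  ring

omit [Fintype V] in
/-- a height is a linear form of the height differences -/
lemma exists_path (hc : Conn s t P) (v : V) :
    ∃ η : E → ℝ, ∀ h : Hs P, Xh s t η h.1 = (h.1 v : ℝ) := by
  classical
  obtain ⟨p, hp, hpv⟩ := hc v
  induction hpv with
  | refl =>
    refine ⟨0, fun h => ?_⟩
    rw [h.2 p hp]
    simp [Xh]
  | @tail x y _ hxy ih =>
    obtain ⟨η, hη⟩ := ih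
    obtain ⟨e, he⟩ := hxy
    rcases he with ⟨h2, h3⟩ | ⟨h2, h3⟩
    · refine ⟨fun e' => η e' + if e' = e then 1 else 0, fun h => ?_⟩
      have h4 := hη h
      unfold Xh at h4 ⊢
      simp only [add_mul, ite_mul, one_mul, zero_mul, Finset.sum_add_distrib, Finset.sum_ite_eq',
        Finset.mem_univ, if_true]
      rw [h4, h2, h3]
      push_cast
      ring
    · refine ⟨fun e' => η e' - if e' = e then 1 else 0, fun h => ?_⟩
      have h4 := hη h
      unfold Xh at h4 ⊢
      simp only [sub_mul, ite_mul, one_mul, zero_mul, Finset.sum_sub_distrib, Finset.sum_ite_eq',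
        Finset.mem_univ, if_true]
      rw [h4, h2, h3]
      push_cast
      ring

/-- every linear form of the heights is a linear form of the height differences -/
lemma exists_eta (hc : Conn s t P) (ρ : V → ℝ) :
    ∃ η : E → ℝ, ∀ h : Hs P, Xh s t η h.1 = ln ρ h.1 := by
  choose η hη using exists_path (s := s) (t := t) (P := P) hc
  refine ⟨fun e => ∑ v, ρ v * η v e, fun h => ?_⟩
  unfold ln
  simp only [← hη _ h]
  unfold Xh
  simp only [Finset.mul_sum, Finset.sum_mul]
  rw [Finset.sum_comm]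
  refine Finset.sum_congr rfl fun v _ => Finset.sum_congr rfl fun e _ => by ring

omit [Fintype V] in
lemma summable_Z (hc : Conn s t P) (hJ : ∀ e, 0 ≤ J e) :
    Summable fun h : Hs P => Wt s t J h.1 := (heights_var hc hJ 0).1

lemma summable_sq (hc : Conn s t P) (hJ : ∀ e, 0 ≤ J e) (f : V → ℝ) :
    Summable fun h : Hs P => ln f h.1 * ln f h.1 * Wt s t J h.1 := by
  obtain ⟨η, hη⟩ := exists_eta hc f
  refine (heights_var hc hJ η).2.1.congr fun h => ?_
  rw [hη]
  ring

lemma summable_mul (hc : Conn s t P) (hJ : ∀ e, 0 ≤ J e) (f g : V → ℝ) :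
    Summable fun h : Hs P => ln f h.1 * ln g h.1 * Wt s t J h.1 := by
  have h1 := summable_sq hc hJ fun v => f v + g v
  have h2 := summable_sq hc hJ fun v => f v - g v
  refine ((h1.sub h2).mul_left (1 / 4)).congr fun h => ?_
  rw [ln_add, ln_sub]
  ring

lemma summable_one (hc : Conn s t P) (hJ : ∀ e, 0 ≤ J e) (f : V → ℝ) :
    Summable fun h : Hs P => ln f h.1 * Wt s t J h.1 := by
  refine Summable.of_norm_bounded ((summable_sq hc hJ f).add (summable_Z hc hJ)) fun h => ?_
  have h0 := Wt_nonneg (s := s) (t := t) hJ h.1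
  rw [Real.norm_eq_abs, abs_mul, abs_of_nonneg h0]
  have h1 : |ln f h.1| ≤ ln f h.1 * ln f h.1 + 1 := by
    rw [abs_le]
    constructor <;> nlinarith [sq_nonneg (ln f h.1 - 1), sq_nonneg (ln f h.1 + 1)]
  nlinarith [mul_le_mul_of_nonneg_right h1 h0]

omit [Fintype V] in
lemma Z0_nonneg (hJ : ∀ e, 0 ≤ J e) : 0 ≤ Z0 s t J P :=
  tsum_nonneg fun h => Wt_nonneg hJ h.1

/-! ### bilinearity -/

lemma M2_add (hc : Conn s t P) (hJ : ∀ e, 0 ≤ J e) (f g k : V → ℝ) :
    M2 s t J P f (fun v => g v + k v) = M2 s t J P f g + M2 s t J P f k := by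
  unfold M2
  rw [← (summable_mul hc hJ f g).tsum_add (summable_mul hc hJ f k)]
  exact tsum_congr fun h => by rw [ln_add]; ring

lemma M2_sub (hc : Conn s t P) (hJ : ∀ e, 0 ≤ J e) (f g k : V → ℝ) :
    M2 s t J P f (fun v => g v - k v) = M2 s t J P f g - M2 s t J P f k := by
  unfold M2
  rw [← (summable_mul hc hJ f g).tsum_sub (summable_mul hc hJ f k)]
  exact tsum_congr fun h => by rw [ln_sub]; ring

lemma M2_smul (c : ℝ) (f g : V → ℝ) :
    M2 s t J P f (fun v => c * g v) = c * M2 s t J P f g := by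
  unfold M2
  rw [← tsum_mul_left]
  exact tsum_congr fun h => by rw [ln_smul]; ring

lemma M2_comm (f g : V → ℝ) : M2 s t J P f g = M2 s t J P g f := by
  unfold M2
  exact tsum_congr fun h => by ring

lemma M2_self_nonneg (hJ : ∀ e, 0 ≤ J e) (f : V → ℝ) : 0 ≤ M2 s t J P f f :=
  tsum_nonneg fun h => mul_nonneg (mul_self_nonneg _) (Wt_nonneg hJ h.1)

/-- `M2` depends only on the charges off `P` -/
lemma M2_congr {f g g' : V → ℝ} (h : ∀ v, v ∉ P → g v = g' v) :
    M2 s t J P f g = M2 s t J P f g' := by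
  unfold M2
  refine tsum_congr fun x => ?_
  congr 2
  unfold ln
  refine Finset.sum_congr rfl fun v _ => ?_
  by_cases hv : v ∈ P
  · rw [x.2 v hv]
    simp
  · rw [h v hv]

/-- Cauchy-Schwarz -/
lemma M2_cs (hc : Conn s t P) (hJ : ∀ e, 0 ≤ J e) (f g : V → ℝ) :
    M2 s t J P f g ^ 2 ≤ M2 s t J P f f * M2 s t J P g g := by
  have key : ∀ r : ℝ, 0 ≤ M2 s t J P g g * (r * r) + (2 * M2 s t J P f g) * r +
      M2 s t J P f f := by
    intro r
    have h1 := M2_self_nonneg (s := s) (t := t) (P := P) hJ fun v => f v + r * g v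
    have e1 : M2 s t J P (fun v => f v + r * g v) (fun v => f v + r * g v) =
        M2 s t J P f f + 2 * r * M2 s t J P f g + r * r * M2 s t J P g g := by
      rw [M2_add hc hJ, M2_comm, M2_add hc hJ, M2_smul, M2_smul, M2_comm (fun v => f v + r * g v) g,
        M2_add hc hJ, M2_smul, M2_comm g f]
      ring
    rw [e1] at h1
    linarith
  have h := discrim_le_zero key
  unfold discrim at h
  nlinarith

/-- crude bound of the second moment -/
lemma M2_le (hc : Conn s t P) (hJ : ∀ e, 0 ≤ J e) {f : V → ℝ} {η : E → ℝ}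
    (hη : ∀ h : Hs P, Xh s t η h.1 = ln f h.1) :
    M2 s t J P f f ≤ (∑ e, J e * η e ^ 2) * Z0 s t J P := by
  refine le_trans (le_of_eq ?_) (heights_var hc hJ η).2.2
  unfold M2
  exact tsum_congr fun h => by rw [hη]; ring

/-- the heights which vanish on `P`, as a set of the module `Fkg` -/
def ePin (P : Set V) : Hs P ≃ pin P (0 : V → ℤ) where
  toFun h := ⟨h.1, fun v hv => by rw [h.2 v hv]; rfl⟩
  invFun h := ⟨h.1, fun v hv => by rw [h.2 v hv]; rfl⟩
  left_inv h := rfl
  right_inv h := rfl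

omit [Fintype V] in
lemma tsum_ePin (P : Set V) (F : (V → ℤ) → ℝ) :
    ∑' h : pin P (0 : V → ℤ), F h = ∑' h : Hs P, F h.1 :=
  ((ePin P).tsum_eq fun h : pin P (0 : V → ℤ) => F h).symm

omit [Fintype V] in
lemma summable_ePin (P : Set V) (F : (V → ℤ) → ℝ) (h : Summable fun h : Hs P => F h.1) :
    Summable fun h : pin P (0 : V → ℤ) => F h :=
  (ePin P).summable_iff.1 h

lemma Wt_eq (J : E → ℝ) (h : V → ℤ) :
    Wk s t (fun e => wI (J e)) h * ex (fun _ => (0 : ℝ)) h = Wt s t J h := by
  rw [ex_zero, mul_one]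
  rfl

/-- height FKG in the language of `Hs P`, `Wt` -/
theorem fkg_Hs (hJ : ∀ e, 0 ≤ J e) {f g : (V → ℤ) → ℝ} (hf : Monotone f) (hg : Monotone g)
    (s1 : Summable fun h : Hs P => Wt s t J h.1)
    (s2 : Summable fun h : Hs P => Wt s t J h.1 * f h.1)
    (s3 : Summable fun h : Hs P => Wt s t J h.1 * g h.1)
    (s4 : Summable fun h : Hs P => Wt s t J h.1 * (f h.1 * g h.1)) :
    (∑' h : Hs P, Wt s t J h.1 * f h.1) * (∑' h : Hs P, Wt s t J h.1 * g h.1) ≤
      (∑' h : Hs P, Wt s t J h.1) * ∑' h : Hs P, Wt s t J h.1 * (f h.1 * g h.1) := by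
  have key := fkg_pin (s := s) (t := t) (w := fun e => wI (J e)) (P := P) (b := 0)
    (ρ := fun _ => (0 : ℝ)) (f := f) (g := g) (fun e n => wI_nonneg (hJ e) n)
    (fun e => logC_wI (hJ e)) hf hg
    (by simp only [Wt_eq]; exact summable_ePin P (fun h => Wt s t J h) s1)
    (by simp only [Wt_eq]; exact summable_ePin P (fun h => Wt s t J h * f h) s2)
    (by simp only [Wt_eq]; exact summable_ePin P (fun h => Wt s t J h * g h) s3)
    (by simp only [Wt_eq]; exact summable_ePin P (fun h => Wt s t J h * (f h * g h)) s4)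
  simp only [Wt_eq] at key
  rw [tsum_ePin P (fun h => Wt s t J h), tsum_ePin P (fun h => Wt s t J h * f h),
    tsum_ePin P (fun h => Wt s t J h * g h), tsum_ePin P (fun h => Wt s t J h * (f h * g h))] at key
  exact key

omit [Fintype V] in
lemma Wt_neg (J : E → ℝ) (h : V → ℤ) : Wt s t J (-h) = Wt s t J h :=
  Wk_neg (w := fun e => wI (J e)) (fun e n => wI_neg (J e) n) h

omit [Fintype V] [Fintype E] in
/-- reflection of the heights -/
def eNeg (P : Set V) : Hs P ≃ Hs P where
  toFun h := ⟨-h.1, fun v hv => by rw [Pi.neg_apply, h.2 v hv, neg_zero]⟩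
  invFun h := ⟨-h.1, fun v hv => by rw [Pi.neg_apply, h.2 v hv, neg_zero]⟩
  left_inv h := Subtype.ext (neg_neg h.1)
  right_inv h := Subtype.ext (neg_neg h.1)

omit [Fintype V] in
/-- odd functions have mean zero -/
lemma tsum_odd {f : (V → ℤ) → ℝ} (hf : ∀ h, f (-h) = -f h) :
    ∑' h : Hs P, Wt s t J h.1 * f h.1 = 0 := by
  have h1 := (eNeg P).tsum_eq fun h : Hs P => Wt s t J h.1 * f h.1
  have h2 : ∀ h : Hs P, Wt s t J (eNeg P h).1 * f (eNeg P h).1 = -(Wt s t J h.1 * f h.1) := by
    intro h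
    show Wt s t J (-h.1) * f (-h.1) = _
    rw [Wt_neg, hf]
    ring
  simp only [h2, tsum_neg] at h1
  linarith

omit [Fintype V] in
lemma Wt_zero_pos (hJ : ∀ e, 0 ≤ J e) : 0 < Wt s t J (0 : V → ℤ) :=
  Finset.prod_pos fun e _ => by simpa using wI_zero_pos (hJ e)

omit [Fintype V] in
lemma Z0_pos (hc : Conn s t P) (hJ : ∀ e, 0 ≤ J e) : 0 < Z0 s t J P :=
  (summable_Z hc hJ).tsum_pos (fun h => Wt_nonneg hJ h.1) ⟨0, fun _ _ => rfl⟩ (Wt_zero_pos hJ)

/-- increasing odd functions are positively correlated -/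
theorem odd_nonneg (hc : Conn s t P) (hJ : ∀ e, 0 ≤ J e) {f g : (V → ℤ) → ℝ} (hf : Monotone f)
    (hg : Monotone g) (of : ∀ h, f (-h) = -f h) (og : ∀ h, g (-h) = -g h)
    (s2 : Summable fun h : Hs P => Wt s t J h.1 * f h.1)
    (s3 : Summable fun h : Hs P => Wt s t J h.1 * g h.1)
    (s4 : Summable fun h : Hs P => Wt s t J h.1 * (f h.1 * g h.1)) :
    0 ≤ ∑' h : Hs P, Wt s t J h.1 * (f h.1 * g h.1) := by
  have key := fkg_Hs (s := s) (t := t) (P := P) hJ hf hg (summable_Z hc hJ) s2 s3 s4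
  rw [tsum_odd of, tsum_odd og, zero_mul] at key
  exact nonneg_of_mul_nonneg_right key (Z0_pos hc hJ)

/-- **nonnegative charges are positively correlated** -/
theorem M2_nonneg (hc : Conn s t P) (hJ : ∀ e, 0 ≤ J e) {f g : V → ℝ} (hf : ∀ v, 0 ≤ f v)
    (hg : ∀ v, 0 ≤ g v) : 0 ≤ M2 s t J P f g := by
  have h := odd_nonneg (s := s) (t := t) (P := P) hc hJ (ln_mono hf) (ln_mono hg) (ln_neg_h f)
    (ln_neg_h g) ((summable_one hc hJ f).congr fun h => by ring)
    ((summable_one hc hJ g).congr fun h => by ring)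
    ((summable_mul hc hJ f g).congr fun h => by ring)
  refine h.trans (le_of_eq ?_)
  unfold M2
  exact tsum_congr fun h => by ring

/-- **the subharmonic comparison** -/
theorem sub_trick (hc : Conn s t P) (hJ : ∀ e, 0 ≤ J e) {f f' err φ : V → ℝ} {C : ℝ}
    (hf : ∀ v, 0 ≤ f v) (hμ : ∀ v, v ∉ P → lap s t φ v ≤ C * f' v + err v) :
    M2 s t J P f (lap s t φ) ≤ C * M2 s t J P f f' + M2 s t J P f err := by
  classical
  have h1 : M2 s t J P f (lap s t φ) =
      M2 s t J P f fun v => if v ∈ P then C * f' v + err v else lap s t φ v :=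
    M2_congr fun v hv => by rw [if_neg hv]
  have h2 := M2_nonneg (s := s) (t := t) hc hJ (f := f)
    (g := fun v => (C * f' v + err v) - if v ∈ P then C * f' v + err v else lap s t φ v) hf
    (fun v => by
      by_cases hv : v ∈ P
      · simp [hv]
      · rw [if_neg hv]
        linarith [hμ v hv])
  rw [M2_sub hc hJ, M2_add hc hJ, M2_smul] at h2
  linarith

end Vale.Agent.P159.T1.H315
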