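import Vale.Agent.P159.T1.H315.Mid
import Vale.Agent.P159.T1.D.Defs

/-!
# The heights of `T1/D` as heights on the graph `Option U` (row D.mid)

* `Z_pos`, `summable_ch` : the sums over `Ht U` converge;
* `pr_eq` : `B.∇h = (div B).h`;
* `Cv b U f g` : covariance of `f.h` and `g.h`, bilinear, nonnegative for `f, g ≥ 0`;
* `mid_ratio` : `2 Cv f g * Z ≤ Zρ (f + g) - Zρ (f - g)` for `f, g ≥ 0`.
-/

open Filter Topology

namespace Vale.Agent.P159.T1.H315

open Vale.Agent.P159 Vale.Agent.P159.T1.H532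
open Vale.Agent.P159.T1.D (Z2 Bnd bs bt rt lf sides bd Ht dh dr gs wt pr ch Z Zρ ZB Vr IsDiv sh osc)

/-! ### the graph -/

/-- faces of `U` and the outer face -/
abbrev VV (U : Finset Z2) : Type := Option {f : Z2 // f ∈ U}

/-- bonds of `U` -/
abbrev EE (U : Finset Z2) : Type := {e : Bnd // e ∈ bd U}

open Classical in
/-- vertex of a face -/
noncomputable def vt (U : Finset Z2) (f : Z2) : VV U := if h : f ∈ U then some ⟨f, h⟩ else none

/-- source -/
noncomputable def ss (U : Finset Z2) (e : EE U) : VV U := vt U (rt e.1)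

/-- target -/
noncomputable def tt (U : Finset Z2) (e : EE U) : VV U := vt U (lf e.1)

variable {U : Finset Z2}

lemma vt_mem {f : Z2} (h : f ∈ U) : vt U f = some ⟨f, h⟩ := dif_pos h

lemma vt_not {f : Z2} (h : f ∉ U) : vt U f = none := dif_neg h

/-- the heights -/
noncomputable def eHt (U : Finset Z2) : Ht U ≃ Hs ({none} : Set (VV U)) where
  toFun h := ⟨fun v => v.elim 0 fun f => h.1 f.1, fun v hv => by
    rw [Set.mem_singleton_iff.1 hv]; rfl⟩
  invFun H := ⟨fun f => H.1 (vt U f), fun f hf => by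
    show H.1 (vt U f) = 0
    rw [vt_not hf]
    exact H.2 none rfl⟩
  left_inv h := by
    apply Subtype.ext
    funext f
    by_cases hf : f ∈ U
    · simp only [vt_mem hf]
      rfl
    · simp only [vt_not hf]
      exact (h.2 f hf).symm
  right_inv H := by
    apply Subtype.ext
    funext v
    cases v with
    | none => exact (H.2 none rfl).symm
    | some f =>
      show H.1 (vt U f.1) = _
      rw [vt_mem f.2]

lemma eHt_vt (h : Ht U) (f : Z2) : (eHt U h).1 (vt U f) = h.1 f := by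
  by_cases hf : f ∈ U
  · rw [vt_mem hf]
    rfl
  · rw [vt_not hf]
    exact (h.2 f hf).symm

/-- charges on the graph -/
def cg (U : Finset Z2) (ρ : Z2 → ℝ) (v : VV U) : ℝ := v.elim 0 fun f => ρ f.1

lemma wt_eq (b : ℝ) (h : Ht U) : wt b U 0 h.1 = Wt (ss U) (tt U) (fun _ => b) (eHt U h).1 := by
  unfold wt Wt ss tt
  rw [← Finset.prod_coe_sort]
  refine Finset.prod_congr rfl fun e _ => ?_
  rw [eHt_vt, eHt_vt]
  simp [dh]

lemma ch_eq (ρ : Z2 → ℝ) (h : Ht U) : ch U ρ h.1 = ln (cg U ρ) (eHt U h).1 := by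
  unfold ch ln cg
  rw [Fintype.sum_option, ← Finset.sum_coe_sort]
  simp only [Option.elim_none, zero_mul, zero_add, Option.elim_some]
  rfl

lemma exists_out (U : Finset Z2) (f : Z2) : ∃ n : ℕ, (f.1 - n, f.2) ∉ U := by
  by_contra hn
  push Not at hn
  have hi : Function.Injective fun n : ℕ => (f.1 - (n : ℤ), f.2) := by
    intro a b hab
    have := (Prod.ext_iff.1 hab).1
    simp only at this
    omega
  exact Set.infinite_of_injective_forall_mem hi (s := (U : Set Z2)) (fun n => hn n) U.finite_toSet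

lemma conn_U (U : Finset Z2) : Conn (ss U) (tt U) ({none} : Set (VV U)) := by
  have key : ∀ (n : ℕ) (f : Z2), (f.1 - n, f.2) ∉ U →
      Relation.ReflTransGen (adjE (ss U) (tt U)) none (vt U f) := by
    intro n
    induction n with
    | zero =>
      intro f hf
      have : f ∉ U := by simpa using hf
      rw [vt_not this]
    | succ n ih =>
      intro f hf
      by_cases hU : f ∈ U
      · have h1 := ih (f.1 - 1, f.2) (by
          have e : (f.1 - 1, f.2).1 - (n : ℤ) = f.1 - ((n + 1 : ℕ) : ℤ) := by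
            push_cast
            ring
          rw [e]
          exact hf)
        refine h1.tail ⟨⟨(f, true), ?_⟩, ?_⟩
        · unfold bd
          rw [Finset.mem_biUnion]
          exact ⟨f, hU, by simp [sides]⟩
        · right
          constructor
          · show vt U (rt (f, true)) = _
            simp [rt]
          · show vt U (lf (f, true)) = _
            simp [lf]
      · rw [vt_not hU]
  intro v
  refine ⟨none, rfl, ?_⟩
  cases v with
  | none => exact Relation.ReflTransGen.refl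
  | some f =>
    obtain ⟨n, hn⟩ := exists_out U f.1
    have := key n f.1 hn
    rwa [vt_mem f.2] at this

/-! ### sums -/

lemma tsum_Ht (F : (Z2 → ℤ) → ℝ) (G : (VV U → ℤ) → ℝ) (h : ∀ x : Ht U, F x.1 = G (eHt U x).1) :
    ∑' x : Ht U, F x.1 = ∑' y : Hs ({none} : Set (VV U)), G y.1 := by
  rw [← (eHt U).tsum_eq fun y : Hs ({none} : Set (VV U)) => G y.1]
  exact tsum_congr h

lemma Z_eq (b : ℝ) (U : Finset Z2) : Z b U = Z0 (ss U) (tt U) (fun _ => b) {none} := by
  unfold Z Z0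
  exact tsum_Ht (fun h => wt b U 0 h) (fun h => Wt (ss U) (tt U) (fun _ => b) h) fun x => wt_eq b x

theorem Z_pos {b : ℝ} (hb : 0 ≤ b) (U : Finset Z2) : 0 < Z b U := by
  rw [Z_eq]
  exact Z0_pos (conn_U U) fun _ => hb

lemma Zρ_eq (b : ℝ) (U : Finset Z2) (ρ : Z2 → ℝ) : Zρ b U ρ =
    ∑' h : Hs ({none} : Set (VV U)), Wt (ss U) (tt U) (fun _ => b) h.1 *
      Real.exp (ln (cg U ρ) h.1) := by
  unfold Zρ
  exact tsum_Ht (fun h => wt b U 0 h * Real.exp (ch U ρ h))
    (fun h => Wt (ss U) (tt U) (fun _ => b) h * Real.exp (ln (cg U ρ) h))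
    fun x => by rw [wt_eq, ch_eq]

/-- covariance of the charges -/
noncomputable def Cv (b : ℝ) (U : Finset Z2) (f g : Z2 → ℝ) : ℝ :=
  D.E b U fun h => ch U f h * ch U g h

lemma Cv_eq (b : ℝ) (U : Finset Z2) (f g : Z2 → ℝ) :
    Cv b U f g = M2 (ss U) (tt U) (fun _ => b) {none} (cg U f) (cg U g) / Z b U := by
  unfold Cv D.E M2
  congr 1
  exact tsum_Ht (fun h => wt b U 0 h * (ch U f h * ch U g h))
    (fun h => ln (cg U f) h * ln (cg U g) h * Wt (ss U) (tt U) (fun _ => b) h)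
    fun x => by rw [wt_eq, ch_eq, ch_eq]; ring

lemma cg_add (f g : Z2 → ℝ) : cg U (fun x => f x + g x) = fun v => cg U f v + cg U g v := by
  funext v
  cases v with
  | none => exact (add_zero _).symm
  | some x => rfl

lemma cg_sub (f g : Z2 → ℝ) : cg U (fun x => f x - g x) = fun v => cg U f v - cg U g v := by
  funext v
  cases v with
  | none => exact (sub_zero _).symm
  | some x => rfl

lemma cg_smul (c : ℝ) (f : Z2 → ℝ) : cg U (fun x => c * f x) = fun v => c * cg U f v := by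
  funext v
  cases v with
  | none => exact (mul_zero _).symm
  | some x => rfl

lemma cg_nonneg {f : Z2 → ℝ} (hf : ∀ x ∈ U, 0 ≤ f x) (v : VV U) : 0 ≤ cg U f v := by
  cases v with
  | none => exact le_rfl
  | some x => exact hf x.1 x.2

lemma cg_congr {f g : Z2 → ℝ} (h : ∀ x ∈ U, f x = g x) : cg U f = cg U g := by
  funext v
  cases v with
  | none => rfl
  | some x => exact h x.1 x.2

lemma Cv_congr {b : ℝ} {f f' g g' : Z2 → ℝ} (hf : ∀ x ∈ U, f x = f' x) (hg : ∀ x ∈ U, g x = g' x) :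
    Cv b U f g = Cv b U f' g' := by
  rw [Cv_eq, Cv_eq, cg_congr hf, cg_congr hg]

lemma Cv_comm (b : ℝ) (U : Finset Z2) (f g : Z2 → ℝ) : Cv b U f g = Cv b U g f := by
  rw [Cv_eq, Cv_eq, M2_comm]

lemma Cv_add {b : ℝ} (hb : 0 ≤ b) (f g k : Z2 → ℝ) :
    Cv b U f (fun x => g x + k x) = Cv b U f g + Cv b U f k := by
  rw [Cv_eq, Cv_eq, Cv_eq, cg_add, M2_add (conn_U U) fun _ => hb]
  ring

lemma Cv_sub {b : ℝ} (hb : 0 ≤ b) (f g k : Z2 → ℝ) :
    Cv b U f (fun x => g x - k x) = Cv b U f g - Cv b U f k := by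
  rw [Cv_eq, Cv_eq, Cv_eq, cg_sub, M2_sub (conn_U U) fun _ => hb]
  ring

lemma Cv_smul (b : ℝ) (c : ℝ) (f g : Z2 → ℝ) :
    Cv b U f (fun x => c * g x) = c * Cv b U f g := by
  rw [Cv_eq, Cv_eq, cg_smul, M2_smul]
  ring

lemma Cv_self_nonneg {b : ℝ} (hb : 0 ≤ b) (f : Z2 → ℝ) : 0 ≤ Cv b U f f := by
  rw [Cv_eq]
  exact div_nonneg (M2_self_nonneg (fun _ => hb) _) (Z_pos hb U).le

theorem Cv_nonneg {b : ℝ} (hb : 0 ≤ b) {f g : Z2 → ℝ} (hf : ∀ x ∈ U, 0 ≤ f x)
    (hg : ∀ x ∈ U, 0 ≤ g x) : 0 ≤ Cv b U f g := by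
  rw [Cv_eq]
  exact div_nonneg (M2_nonneg (conn_U U) (fun _ => hb) (cg_nonneg hf) (cg_nonneg hg))
    (Z_pos hb U).le

/-- monotonicity of the covariance in the second charge -/
theorem Cv_mono {b : ℝ} (hb : 0 ≤ b) {f g g' : Z2 → ℝ} (hf : ∀ x ∈ U, 0 ≤ f x)
    (hg : ∀ x ∈ U, g x ≤ g' x) : Cv b U f g ≤ Cv b U f g' := by
  have h := Cv_nonneg (U := U) hb hf (g := fun x => g' x - g x) fun x hx => sub_nonneg.2 (hg x hx)
  rw [Cv_sub hb] at h
  linarith

/-- two nonnegative charges: exponential moments against the covariance -/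
theorem mid_ratio {b : ℝ} (hb : 0 ≤ b) {f g : Z2 → ℝ} (hf : ∀ x ∈ U, 0 ≤ f x)
    (hg : ∀ x ∈ U, 0 ≤ g x) :
    Zρ b U (fun x => f x - g x) + 2 * Cv b U f g * Z b U ≤ Zρ b U fun x => f x + g x := by
  have h := mid_moment (s := ss U) (t := tt U) (P := {none}) (conn_U U) (J := fun _ => b)
    (fun _ => hb) (cg_nonneg hf) (cg_nonneg hg)
  have h1 : 2 * Cv b U f g * Z b U =
      2 * M2 (ss U) (tt U) (fun _ => b) {none} (cg U f) (cg U g) := by
    rw [Cv_eq, mul_assoc, div_mul_cancel₀ _ (Z_pos hb U).ne']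
  rw [h1, Zρ_eq, Zρ_eq, cg_add, cg_sub]
  simp only [ln_add, ln_sub]
  linarith

/-! ### divergence -/

/-- the charge of a field -/
def dv (B : Bnd → ℝ) (f : Z2) : ℝ :=
  B (f, false) - B ((f.1, f.2 + 1), false) + B ((f.1 + 1, f.2), true) - B (f, true)

lemma mem_bd {e : Bnd} : e ∈ bd U ↔ rt e ∈ U ∨ lf e ∈ U := by
  obtain ⟨⟨i, j⟩, c⟩ := e
  unfold bd
  rw [Finset.mem_biUnion]
  constructor
  · rintro ⟨⟨p, q⟩, hf, he⟩
    cases c
    · simp only [sides, Finset.mem_insert, Finset.mem_singleton, Prod.mk.injEq] at he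
      simp only [rt, lf, if_false, Bool.false_eq_true]
      rcases he with ⟨⟨h1, h2⟩, _⟩ | ⟨⟨h1, h2⟩, _⟩ | ⟨_, h⟩ | ⟨_, h⟩
      · right
        rwa [h1, h2]
      · left
        rw [h1, h2, add_sub_cancel_right]
        exact hf
      · exact absurd h (by simp)
      · exact absurd h (by simp)
    · simp only [sides, Finset.mem_insert, Finset.mem_singleton, Prod.mk.injEq] at he
      simp only [rt, lf, if_true]
      rcases he with ⟨_, h⟩ | ⟨_, h⟩ | ⟨⟨h1, h2⟩, _⟩ | ⟨⟨h1, h2⟩, _⟩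
      · exact absurd h (by simp)
      · exact absurd h (by simp)
      · left
        rwa [h1, h2]
      · right
        rw [h1, h2, add_sub_cancel_right]
        exact hf
  · cases c
    · simp only [rt, lf, if_false, Bool.false_eq_true]
      rintro (h | h)
      · exact ⟨_, h, by simp [sides]⟩
      · exact ⟨_, h, by simp [sides]⟩
    · simp only [rt, lf, if_true]
      rintro (h | h)
      · exact ⟨_, h, by simp [sides]⟩
      · exact ⟨_, h, by simp [sides]⟩

lemma lf_eq {e : Bnd} {f : Z2} : lf e = f ↔ e = (f, false) ∨ e = ((f.1 + 1, f.2), true) := by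
  obtain ⟨⟨i, j⟩, c⟩ := e
  obtain ⟨p, q⟩ := f
  cases c
  · simp [lf]
  · simp only [lf, if_true, Prod.mk.injEq]
    constructor
    · rintro ⟨h1, h2⟩
      right
      exact ⟨⟨by omega, h2⟩, trivial⟩
    · rintro (⟨_, h⟩ | ⟨⟨h1, h2⟩, _⟩)
      · exact absurd h (by simp)
      · exact ⟨by omega, h2⟩

lemma rt_eq {e : Bnd} {f : Z2} : rt e = f ↔ e = ((f.1, f.2 + 1), false) ∨ e = (f, true) := by
  obtain ⟨⟨i, j⟩, c⟩ := e
  obtain ⟨p, q⟩ := f
  cases c
  · simp only [rt, if_false, Bool.false_eq_true, Prod.mk.injEq]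
    constructor
    · rintro ⟨h1, h2⟩
      left
      exact ⟨⟨h1, by omega⟩, trivial⟩
    · rintro (⟨⟨h1, h2⟩, _⟩ | ⟨_, h⟩)
      · exact ⟨h1, by omega⟩
      · exact absurd h (by simp)
  · simp [rt]

/-- summation by parts -/
theorem sum_parts (B : Bnd → ℝ) {g : Z2 → ℝ} (hg : ∀ f, f ∉ U → g f = 0) :
    ∑ e ∈ bd U, B e * (g (lf e) - g (rt e)) = ∑ f ∈ U, dv B f * g f := by
  classical
  have h1 : ∀ (k : Bnd → Z2) (e : Bnd), B e * g (k e) =
      ∑ f ∈ U, if k e = f then B e * g f else 0 := by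
    intro k e
    rw [Finset.sum_ite_eq]
    split_ifs with h
    · rfl
    · rw [hg _ h, mul_zero]
  have h2 : ∑ e ∈ bd U, B e * g (lf e) =
      ∑ f ∈ U, (B (f, false) + B ((f.1 + 1, f.2), true)) * g f := by
    rw [Finset.sum_congr rfl fun e _ => h1 lf e, Finset.sum_comm]
    refine Finset.sum_congr rfl fun f hf => ?_
    rw [← Finset.sum_filter]
    have h3 : (bd U).filter (fun e => lf e = f) = {(f, false), ((f.1 + 1, f.2), true)} := by
      ext e
      rw [Finset.mem_filter, Finset.mem_insert, Finset.mem_singleton, lf_eq]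
      refine ⟨fun h => h.2, fun h => ⟨?_, h⟩⟩
      rw [mem_bd]
      right
      rwa [lf_eq.2 h]
    rw [h3, Finset.sum_pair (by simp)]
    ring
  have h4 : ∑ e ∈ bd U, B e * g (rt e) =
      ∑ f ∈ U, (B ((f.1, f.2 + 1), false) + B (f, true)) * g f := by
    rw [Finset.sum_congr rfl fun e _ => h1 rt e, Finset.sum_comm]
    refine Finset.sum_congr rfl fun f hf => ?_
    rw [← Finset.sum_filter]
    have h3 : (bd U).filter (fun e => rt e = f) = {((f.1, f.2 + 1), false), (f, true)} := by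
      ext e
      rw [Finset.mem_filter, Finset.mem_insert, Finset.mem_singleton, rt_eq]
      refine ⟨fun h => h.2, fun h => ⟨?_, h⟩⟩
      rw [mem_bd]
      left
      rwa [rt_eq.2 h]
    rw [h3, Finset.sum_pair (by simp)]
    ring
  simp only [mul_sub]
  rw [Finset.sum_sub_distrib, h2, h4, ← Finset.sum_sub_distrib]
  refine Finset.sum_congr rfl fun f _ => ?_
  unfold dv
  ring

/-- the pairing of a field with the heights is the pairing of its charges -/
theorem pr_eq (B : Bnd → ℝ) (h : Ht U) : pr U B 0 h.1 = ch U (dv B) h.1 := by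
  have h1 := sum_parts (U := U) B (g := fun f => (h.1 f : ℝ)) fun f hf => by simp [h.2 f hf]
  unfold pr ch
  rw [← h1]
  refine Finset.sum_congr rfl fun e _ => ?_
  simp [dh]

lemma Vr_eq (b : ℝ) (U : Finset Z2) (B : Bnd → ℝ) : Vr b U B = Cv b U (dv B) (dv B) := by
  unfold Vr Cv D.E
  congr 1
  refine tsum_congr fun h => ?_
  show wt b U 0 h.1 * pr U B 0 h.1 ^ 2 = wt b U 0 h.1 * (ch U (dv B) h.1 * ch U (dv B) h.1)
  rw [pr_eq]
  ring

lemma ch_congr {f g : Z2 → ℝ} (h : ∀ x ∈ U, f x = g x) (k : Z2 → ℤ) : ch U f k = ch U g k :=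
  Finset.sum_congr rfl fun x hx => by rw [h x hx]

/-- the exponential moment of a field in the sector `0` -/
theorem ZB_eq (b : ℝ) {B : Bnd → ℝ} {ρ : Z2 → ℝ} (h : IsDiv U B ρ) : ZB b U 0 B = Zρ b U ρ := by
  unfold ZB Zρ
  refine tsum_congr fun x => ?_
  rw [pr_eq, ch_congr (f := dv B) (g := ρ) h]

end Vale.Agent.P159.T1.H315
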