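import Vale.Agent.P159.T1.D.Defs

/-!
# Vertical fields below the lower lips (row D.mid)

`vf M ρ` is the vertical field which transports the charges `ρ` (rows `-M ≤ j ≤ -2`) up to the
row `-1`.
-/

open Filter Topology

namespace Vale.Agent.P159.T1.H315

open Vale.Agent.P159.T1.D (Z2 Bnd bs bt rt lf sides bd Ht dh dr gs IsDiv sh osc)

/-- partial column sums -/
def vs (M : ℕ) (ρ : Z2 → ℝ) (i j : ℤ) : ℝ :=
  ∑ k ∈ Finset.range (j + M).toNat, ρ (i, -(M : ℤ) + k)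

/-- vertical field -/
def vf (M : ℕ) (ρ : Z2 → ℝ) (e : Bnd) : ℝ :=
  if e.2 = false ∧ e.1.2 ≤ -1 then -vs M ρ e.1.1 e.1.2 else 0

variable {M : ℕ} {ρ : Z2 → ℝ} {c : ℝ}

lemma vs_succ (i : ℤ) {j : ℤ} (hj : -(M : ℤ) ≤ j) : vs M ρ i (j + 1) = vs M ρ i j + ρ (i, j) := by
  unfold vs
  have h1 : (j + 1 + M).toNat = (j + M).toNat + 1 := by omega
  have h2 : (-(M : ℤ) + ((j + M).toNat : ℤ)) = j := by omega
  rw [h1, Finset.sum_range_succ, h2]

lemma vs_zero (i : ℤ) {j : ℤ} (hj : j ≤ -(M : ℤ)) : vs M ρ i j = 0 := by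
  unfold vs
  have h1 : (j + M).toNat = 0 := by omega
  rw [h1, Finset.sum_range_zero]

lemma vs_col_zero {i : ℤ} (h : ∀ j, ρ (i, j) = 0) (j : ℤ) : vs M ρ i j = 0 :=
  Finset.sum_eq_zero fun _ _ => h _

lemma vf_false {p : Z2} (hp : p.2 ≤ -1) : vf M ρ (p, false) = -vs M ρ p.1 p.2 :=
  if_pos ⟨rfl, hp⟩

lemma vf_up {p : Z2} (hp : ¬ p.2 ≤ -1) : vf M ρ (p, false) = 0 := if_neg fun h => hp h.2

lemma vf_true (p : Z2) : vf M ρ (p, true) = 0 := if_neg fun h => absurd h.1 (by simp)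

/-- the divergence of the vertical field -/
theorem vf_div {U : Finset Z2} (h1 : ∀ f, ρ f ≠ 0 → -(M : ℤ) ≤ f.2 ∧ f.2 ≤ -2)
    (h2 : ∀ i j, ρ (i, j) ≠ 0 → (i, (-1 : ℤ)) ∉ U) : IsDiv U (vf M ρ) ρ := by
  rintro ⟨i, j⟩ hf
  simp only [vf_true, add_zero, sub_zero]
  rcases lt_trichotomy j (-1) with hj | hj | hj
  · rw [vf_false (by show j ≤ -1; omega), vf_false (by show j + 1 ≤ -1; omega)]
    rcases le_or_gt (-(M : ℤ)) j with hM | hM
    · rw [show ((i, j + 1) : Z2).2 = j + 1 from rfl, show ((i, j + 1) : Z2).1 = i from rfl,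
        vs_succ i hM]
      ring
    · rw [show ((i, j + 1) : Z2).2 = j + 1 from rfl, show ((i, j + 1) : Z2).1 = i from rfl,
        vs_zero i (show j + 1 ≤ -(M : ℤ) by omega), vs_zero i (show j ≤ -(M : ℤ) by omega)]
      by_contra hn
      have := (h1 (i, j) fun h => hn (by rw [h]; ring)).1
      simp only at this
      omega
  · subst hj
    have hc : ∀ j, ρ (i, j) = 0 := by
      intro j
      by_contra hn
      exact h2 i j hn hf
    rw [vf_false (by show (-1 : ℤ) ≤ -1; omega), vf_up (by show ¬ (-1 : ℤ) + 1 ≤ -1; omega),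
      vs_col_zero hc, hc]
    ring
  · rw [vf_up (by show ¬ j ≤ -1; omega), vf_up (by show ¬ j + 1 ≤ -1; omega)]
    by_contra hn
    have := (h1 (i, j) fun h => hn (by rw [h]; ring)).2
    simp only at this
    omega

lemma vs_le (h : ∀ f, |ρ f| ≤ c) (i : ℤ) {j : ℤ} (hj : j ≤ 0) : |vs M ρ i j| ≤ M * c := by
  have hc : 0 ≤ c := (abs_nonneg _).trans (h (0, 0))
  calc |vs M ρ i j| ≤ ∑ k ∈ Finset.range (j + M).toNat, |ρ (i, -(M : ℤ) + k)| :=
        Finset.abs_sum_le_sum_abs _ _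
    _ ≤ ∑ k ∈ Finset.range (j + M).toNat, c := Finset.sum_le_sum fun k _ => h _
    _ = ((j + M).toNat : ℝ) * c := by rw [Finset.sum_const, Finset.card_range, nsmul_eq_mul]
    _ ≤ M * c := by
      refine mul_le_mul_of_nonneg_right ?_ hc
      have : (j + M).toNat ≤ M := by omega
      exact_mod_cast this

lemma vf_le (h : ∀ f, |ρ f| ≤ c) (e : Bnd) : |vf M ρ e| ≤ M * c := by
  have hc : 0 ≤ c := (abs_nonneg _).trans (h (0, 0))
  unfold vf
  split_ifs with h1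
  · rw [abs_neg]
    exact vs_le h _ (by omega)
  · rw [abs_zero]
    positivity

lemma vs_row_aux (h : ∀ f, |ρ f| ≤ c) (i : ℤ) {j : ℤ} (n : ℕ) :
    |vs M ρ i (j + n) - vs M ρ i j| ≤ n * c := by
  have hc : 0 ≤ c := (abs_nonneg _).trans (h (0, 0))
  induction n with
  | zero => simp
  | succ n ih =>
    have h1 : |vs M ρ i (j + ((n + 1 : ℕ) : ℤ)) - vs M ρ i (j + n)| ≤ c := by
      have e : j + ((n + 1 : ℕ) : ℤ) = j + n + 1 := by push_cast; ring
      rw [e]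
      rcases le_or_gt (-(M : ℤ)) (j + n) with hM | hM
      · rw [vs_succ i hM, add_sub_cancel_left]
        exact h _
      · rw [vs_zero i (show j + n + 1 ≤ -(M : ℤ) by omega),
          vs_zero i (show j + n ≤ -(M : ℤ) by omega)]
        simpa using hc
    have h2 := abs_sub_le (vs M ρ i (j + ((n + 1 : ℕ) : ℤ))) (vs M ρ i (j + n)) (vs M ρ i j)
    push_cast at h1 h2 ⊢
    linarith

lemma vs_row (h : ∀ f, |ρ f| ≤ c) (i j u : ℤ) : |vs M ρ i (j + u) - vs M ρ i j| ≤ |(u : ℝ)| * c := by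
  rcases le_total 0 u with hu | hu
  · obtain ⟨n, rfl⟩ := Int.eq_ofNat_of_zero_le hu
    have := vs_row_aux (M := M) h i (j := j) n
    simpa using this
  · obtain ⟨n, hn⟩ := Int.eq_ofNat_of_zero_le (neg_nonneg.2 hu)
    have hu' : u = -(n : ℤ) := by omega
    have := vs_row_aux (M := M) h i (j := j + u) n
    rw [show j + u + (n : ℤ) = j by omega, abs_sub_comm] at this
    refine this.trans (le_of_eq ?_)
    rw [hu']
    simp

lemma vs_col {δ : ℝ} {u : ℤ} (h : ∀ f : Z2, |ρ (f.1 + u, f.2) - ρ f| ≤ δ) (i : ℤ) {j : ℤ}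
    (hj : j ≤ 0) : |vs M ρ (i + u) j - vs M ρ i j| ≤ M * δ := by
  have hδ : 0 ≤ δ := (abs_nonneg _).trans (h (0, 0))
  unfold vs
  rw [← Finset.sum_sub_distrib]
  calc |∑ k ∈ Finset.range (j + M).toNat, (ρ (i + u, -(M : ℤ) + k) - ρ (i, -(M : ℤ) + k))|
      ≤ ∑ k ∈ Finset.range (j + M).toNat, |ρ (i + u, -(M : ℤ) + k) - ρ (i, -(M : ℤ) + k)| :=
        Finset.abs_sum_le_sum_abs _ _
    _ ≤ ∑ k ∈ Finset.range (j + M).toNat, δ :=
        Finset.sum_le_sum fun k _ => h (i, -(M : ℤ) + k)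
    _ = ((j + M).toNat : ℝ) * δ := by rw [Finset.sum_const, Finset.card_range, nsmul_eq_mul]
    _ ≤ M * δ := by
      refine mul_le_mul_of_nonneg_right ?_ hδ
      have : (j + M).toNat ≤ M := by omega
      exact_mod_cast this

/-- differences of the vertical field -/
lemma vf_diff {l : ℕ} {δ : ℝ} (hδ : 0 ≤ δ) (h : ∀ f, |ρ f| ≤ c)
    (h' : ∀ (u : ℤ), |u| ≤ l → ∀ f : Z2, |ρ (f.1 + u, f.2) - ρ f| ≤ δ) (e : Bnd) {u : Z2}
    (hu : u ∈ Finset.Icc (-(l : ℤ), -(l : ℤ)) ((l : ℤ), (l : ℤ))) :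
    |vf M ρ (sh u e) - vf M ρ e| ≤ (M * δ + l * c) +
      if -((l : ℤ) + 1) ≤ e.1.2 ∧ e.1.2 ≤ l then 2 * (M * c) else 0 := by
  have hc : 0 ≤ c := (abs_nonneg _).trans (h (0, 0))
  have hA : 0 ≤ M * δ + l * c := by positivity
  obtain ⟨⟨i, j⟩, s⟩ := e
  obtain ⟨u1, u2⟩ := u
  rw [Finset.mem_Icc, Prod.le_def, Prod.le_def] at hu
  obtain ⟨⟨a1, a2⟩, a3, a4⟩ := hu
  simp only at a1 a2 a3 a4
  by_cases hrow : -((l : ℤ) + 1) ≤ j ∧ j ≤ l
  · rw [if_pos hrow]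
    have h1 := vf_le (M := M) h (sh (u1, u2) ((i, j), s))
    have h2 := vf_le (M := M) h ((i, j), s)
    have h3 := abs_sub (vf M ρ (sh (u1, u2) ((i, j), s))) (vf M ρ ((i, j), s))
    linarith
  · rw [if_neg hrow, add_zero]
    cases s with
    | true =>
      have e1 : sh (u1, u2) ((i, j), true) = ((i + u1, j + u2), true) := rfl
      rw [e1, vf_true, vf_true]
      simpa using hA
    | false =>
      have e1 : sh (u1, u2) ((i, j), false) = ((i + u1, j + u2), false) := rfl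
      rw [e1]
      rcases lt_or_ge j (-((l : ℤ) + 1)) with hj | hj
      · rw [vf_false (by show j + u2 ≤ -1; omega), vf_false (by show j ≤ -1; omega)]
        have b1 := vs_col (M := M) (δ := δ) (u := u1) (h' u1 (abs_le.2 ⟨by omega, by omega⟩)) i
          (j := j + u2) (by omega)
        have b2 := vs_row (M := M) h i j u2
        have b3 := abs_sub_le (vs M ρ (i + u1) (j + u2)) (vs M ρ i (j + u2)) (vs M ρ i j)
        have b4 : |(u2 : ℝ)| * c ≤ l * c := by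
          refine mul_le_mul_of_nonneg_right ?_ hc
          have : |u2| ≤ l := abs_le.2 ⟨by omega, by omega⟩
          exact_mod_cast this
        show |-vs M ρ (i + u1) (j + u2) - -vs M ρ i j| ≤ _
        have b5 : |-vs M ρ (i + u1) (j + u2) - -vs M ρ i j| =
            |vs M ρ (i + u1) (j + u2) - vs M ρ i j| := by
          rw [← abs_neg]
          congr 1
          ring
        rw [b5]
        linarith
      · have hj2 : (l : ℤ) < j := by
          by_contra hn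
          exact hrow ⟨hj, not_lt.1 hn⟩
        rw [vf_up (by show ¬ j + u2 ≤ -1; omega), vf_up (by show ¬ j ≤ -1; omega)]
        simpa using hA

/-! ### boxes of bonds -/

/-- the bonds with first end point in the box of radius `K` -/
noncomputable def SK (K : ℕ) : Finset Bnd :=
  (Finset.Icc (-(K : ℤ)) K ×ˢ Finset.Icc (-(K : ℤ)) K) ×ˢ (Finset.univ : Finset Bool)

lemma mem_SK {K : ℕ} {e : Bnd} : e ∈ SK K ↔ |e.1.1| ≤ K ∧ |e.1.2| ≤ K := by
  unfold SK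
  rw [Finset.mem_product, Finset.mem_product, Finset.mem_Icc, Finset.mem_Icc, abs_le, abs_le]
  simp

lemma card_SK (K : ℕ) : ((SK K).card : ℝ) = 2 * (2 * K + 1) ^ 2 := by
  unfold SK
  rw [Finset.card_product, Finset.card_product, Int.card_Icc]
  have : ((K : ℤ) + 1 - -(K : ℤ)).toNat = 2 * K + 1 := by omega
  rw [this, Finset.card_univ, Fintype.card_bool]
  push_cast
  ring

lemma card_row (K l : ℕ) :
    (((SK K).filter fun e : Bnd => -((l : ℤ) + 1) ≤ e.1.2 ∧ e.1.2 ≤ (l : ℤ)).card : ℝ) ≤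
      2 * ((2 * K + 1) * (2 * l + 2)) := by
  have h1 : (SK K).filter (fun e : Bnd => -((l : ℤ) + 1) ≤ e.1.2 ∧ e.1.2 ≤ (l : ℤ)) ⊆
      (Finset.Icc (-(K : ℤ)) K ×ˢ Finset.Icc (-((l : ℤ) + 1)) l) ×ˢ (Finset.univ : Finset Bool) := by
    intro e he
    rw [Finset.mem_filter, mem_SK, abs_le] at he
    rw [Finset.mem_product, Finset.mem_product, Finset.mem_Icc, Finset.mem_Icc]
    exact ⟨⟨he.1.1, he.2⟩, Finset.mem_univ _⟩
  have h2 := Finset.card_le_card h1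
  rw [Finset.card_product, Finset.card_product, Int.card_Icc, Int.card_Icc, Finset.card_univ,
    Fintype.card_bool] at h2
  have e1 : ((K : ℤ) + 1 - -(K : ℤ)).toNat = 2 * K + 1 := by omega
  have e2 : ((l : ℤ) + 1 - -((l : ℤ) + 1)).toNat = 2 * l + 2 := by omega
  rw [e1, e2] at h2
  have h3 : (((SK K).filter fun e : Bnd => -((l : ℤ) + 1) ≤ e.1.2 ∧ e.1.2 ≤ (l : ℤ)).card : ℝ) ≤
      (((2 * K + 1) * (2 * l + 2) * 2 : ℕ) : ℝ) := by exact_mod_cast h2
  refine h3.trans (le_of_eq ?_)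
  push_cast
  ring

lemma card_Icc_u (l : ℕ) :
    ((Finset.Icc (-(l : ℤ), -(l : ℤ)) ((l : ℤ), (l : ℤ))).card : ℝ) = (2 * l + 1) ^ 2 := by
  rw [← Finset.Icc_product_Icc, Finset.card_product, Int.card_Icc]
  have : ((l : ℤ) + 1 - -(l : ℤ)).toNat = 2 * l + 1 := by omega
  rw [this]
  push_cast
  ring

lemma sum_sq_le {S : Finset Bnd} {B : Bnd → ℝ} (h : ∀ e, |B e| ≤ c) :
    ∑ e ∈ S, B e ^ 2 ≤ S.card * c ^ 2 := by
  rw [← nsmul_eq_mul]
  refine Finset.sum_le_card_nsmul _ _ _ fun e _ => ?_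
  rw [← sq_abs]
  exact pow_le_pow_left₀ (abs_nonneg _) (h e) 2

lemma osc_le {l : ℕ} {S : Finset Bnd} {B : Bnd → ℝ}
    (h : ∀ e ∈ S, ∀ u ∈ Finset.Icc (-(l : ℤ), -(l : ℤ)) ((l : ℤ), (l : ℤ)), |B (sh u e) - B e| ≤ c) :
    osc l S B ≤ S.card * ((2 * l + 1) ^ 2 * c ^ 2) := by
  unfold osc
  rw [← nsmul_eq_mul]
  refine Finset.sum_le_card_nsmul _ _ _ fun e he => ?_
  rw [← card_Icc_u, ← nsmul_eq_mul]
  refine Finset.sum_le_card_nsmul _ _ _ fun u hu => ?_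
  rw [← sq_abs]
  exact pow_le_pow_left₀ (abs_nonneg _) (h e he u hu) 2

/-- oscillation of the vertical field -/
theorem osc_vf {l K : ℕ} {δ : ℝ} (hδ : 0 ≤ δ) (h : ∀ f, |ρ f| ≤ c)
    (h' : ∀ (u : ℤ), |u| ≤ l → ∀ f : Z2, |ρ (f.1 + u, f.2) - ρ f| ≤ δ) :
    osc l (SK K) (vf M ρ) ≤ (2 * l + 1) ^ 2 * (2 * (2 * (2 * K + 1) ^ 2) * (M * δ + l * c) ^ 2 +
      2 * (2 * ((2 * K + 1) * (2 * l + 2))) * (2 * (M * c)) ^ 2) := by
  have h1 : osc l (SK K) (vf M ρ) ≤ ∑ e ∈ SK K, ((2 * l + 1) ^ 2 * (2 * (M * δ + l * c) ^ 2 +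
      if -((l : ℤ) + 1) ≤ e.1.2 ∧ e.1.2 ≤ l then 2 * (2 * (M * c)) ^ 2 else 0)) := by
    unfold osc
    refine Finset.sum_le_sum fun e _ => ?_
    rw [← card_Icc_u, ← nsmul_eq_mul]
    refine Finset.sum_le_card_nsmul _ _ _ fun u hu => ?_
    have h2 := vf_diff (M := M) hδ h h' e hu
    rw [← sq_abs]
    refine (pow_le_pow_left₀ (abs_nonneg _) h2 2).trans ?_
    split_ifs
    · nlinarith [sq_nonneg ((M * δ + l * c) - 2 * (M * c))]
    · nlinarith [sq_nonneg (M * δ + l * c)]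
  refine h1.trans ?_
  rw [← Finset.mul_sum, Finset.sum_add_distrib, Finset.sum_const, nsmul_eq_mul, card_SK,
    ← Finset.sum_filter, Finset.sum_const, nsmul_eq_mul]
  refine mul_le_mul_of_nonneg_left ?_ (by positivity)
  have h3 := card_row K l
  have h4 : 0 ≤ 2 * (2 * ((M : ℝ) * c)) ^ 2 := by positivity
  nlinarith [mul_le_mul_of_nonneg_right h3 h4]

end Vale.Agent.P159.T1.H315
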