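import Vale.Agent.P159.T1.H407.Riemann
import Vale.Agent.P159.T1.H315.Field
import Vale.Agent.P159.T1.D.Stmts

/-!
# The lattice test function: energy and oscillation (row D.mid)

`gg φ n u1 f = φ ((f.1 - u1) / n, (-2 - f.2) / n)`.
-/

open Filter Topology MeasureTheory

namespace Vale.Agent.P159.T1.H315

open Vale.Agent.P159.T1.D (Z2 Bnd bs bt rt lf sides bd Ht dh dr gs IsDiv sh osc Dir)
open Vale.Agent.P159.T1.H407 (riemann diff_quot)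

/-- lattice test function -/
noncomputable def gg (φ : ℝ × ℝ → ℝ) (n : ℕ) (u1 : ℤ) (f : Z2) : ℝ :=
  φ (((f.1 : ℝ) - u1) / n, (-2 - (f.2 : ℝ)) / n)

/-- energy density -/
noncomputable def FF (φ : ℝ × ℝ → ℝ) (n : ℕ) (P : ℤ × ℤ) : ℝ :=
  (φ ((P.1 : ℝ) / n, (P.2 : ℝ) / n) - φ ((P.1 : ℝ) / n, ((P.2 : ℝ) + 1) / n)) ^ 2 +
    (φ (((P.1 : ℝ) - 1) / n, (P.2 : ℝ) / n) - φ ((P.1 : ℝ) / n, (P.2 : ℝ) / n)) ^ 2

variable {φ : ℝ × ℝ → ℝ}

lemma FF_nonneg (n : ℕ) (P : ℤ × ℤ) : 0 ≤ FF φ n P := by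
  unfold FF
  positivity

lemma dr_gg_false (n : ℕ) (u1 : ℤ) (p : Z2) : dr (gg φ n u1) (p, false) =
    φ (((p.1 : ℝ) - u1) / n, (-2 - (p.2 : ℝ)) / n) -
      φ (((p.1 : ℝ) - u1) / n, (-2 - (p.2 : ℝ) + 1) / n) := by
  unfold dr gg
  simp only [lf, rt, Bool.false_eq_true, if_false]
  push_cast
  congr 4
  ring

lemma dr_gg_true (n : ℕ) (u1 : ℤ) (p : Z2) : dr (gg φ n u1) (p, true) =
    φ (((p.1 : ℝ) - u1 - 1) / n, (-2 - (p.2 : ℝ)) / n) -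
      φ (((p.1 : ℝ) - u1) / n, (-2 - (p.2 : ℝ)) / n) := by
  unfold dr gg
  simp only [lf, rt, if_true]
  push_cast
  congr 4
  ring

lemma dr_gg_sq (n : ℕ) (u1 : ℤ) (p : Z2) :
    dr (gg φ n u1) (p, false) ^ 2 + dr (gg φ n u1) (p, true) ^ 2 =
      FF φ n (p.1 - u1, -2 - p.2) := by
  rw [dr_gg_false, dr_gg_true]
  unfold FF
  push_cast
  rfl

lemma exists_supp (hc : HasCompactSupport φ) : ∃ R : ℕ, ∀ z, φ z ≠ 0 → |z.1| ≤ R ∧ |z.2| ≤ R := by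
  obtain ⟨r, hr⟩ := hc.isCompact.isBounded.exists_norm_le
  obtain ⟨R, hR⟩ := exists_nat_ge r
  refine ⟨R, fun z hz => ?_⟩
  have h1 := (hr z (subset_tsupport _ hz)).trans hR
  exact ⟨(norm_fst_le z).trans h1, (norm_snd_le z).trans h1⟩

lemma exists_lip (h2 : ContDiff ℝ 2 φ) (hc : HasCompactSupport φ) :
    ∃ K : ℝ, 0 ≤ K ∧ ∀ z z' : ℝ × ℝ, |φ z - φ z'| ≤ K * ‖z - z'‖ := by
  obtain ⟨K, hK⟩ := (h2.of_le (by norm_num : (1 : WithTop ℕ∞) ≤ 2)).lipschitzWith_of_hasCompactSupport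
    hc (by norm_num)
  refine ⟨K, K.2, fun z z' => ?_⟩
  have := hK.dist_le_mul z z'
  rwa [Real.dist_eq, dist_eq_norm] at this

/-- second differences -/
lemma exists_lip2 (h2 : ContDiff ℝ 2 φ) (hc : HasCompactSupport φ) :
    ∃ K : ℝ, 0 ≤ K ∧ ∀ a b v : ℝ × ℝ, |φ (a + v) - φ a - (φ (b + v) - φ b)| ≤
      K * ‖v‖ * ‖a - b‖ := by
  have hd : Differentiable ℝ φ := h2.differentiable (by norm_num)
  have h1 : ContDiff ℝ 1 (fderiv ℝ φ) := h2.fderiv_right (by norm_num)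
  obtain ⟨K, hK⟩ := h1.lipschitzWith_of_hasCompactSupport (hc.fderiv ℝ) (by norm_num)
  refine ⟨K, K.2, fun a b v => ?_⟩
  have hψ : ∀ z, HasFDerivAt (fun z => φ (z + v) - φ z) (fderiv ℝ φ (z + v) - fderiv ℝ φ z) z := by
    intro z
    refine HasFDerivAt.sub ?_ (hd z).hasFDerivAt
    exact (hasFDerivAt_comp_add_right v).2 (hd (z + v)).hasFDerivAt
  have h3 := (convex_univ (𝕜 := ℝ) (E := ℝ × ℝ)).norm_image_sub_le_of_norm_hasFDerivWithin_le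
    (f := fun z => φ (z + v) - φ z) (f' := fun z => fderiv ℝ φ (z + v) - fderiv ℝ φ z)
    (C := K * ‖v‖) (fun z _ => (hψ z).hasFDerivWithinAt) (fun z _ => by
      have := hK.dist_le_mul (z + v) z
      rw [dist_eq_norm, dist_eq_norm, add_sub_cancel_left] at this
      exact this) (Set.mem_univ b) (Set.mem_univ a)
  exact h3

/-- convergence of the energy -/
theorem tendsto_FF (h2 : ContDiff ℝ 2 φ) {R : ℕ} (hR : ∀ z, φ z ≠ 0 → |z.1| ≤ R ∧ |z.2| ≤ R)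
    (hc : HasCompactSupport φ) :
    Tendsto (fun n : ℕ => ∑ P ∈ Finset.Icc (-(((R + 1) * n : ℕ) : ℤ)) (((R + 1) * n : ℕ) : ℤ) ×ˢ
      Finset.Icc (-(((R + 1) * n : ℕ) : ℤ)) (((R + 1) * n : ℕ) : ℤ), FF φ n P) atTop
      (𝓝 (Dir φ)) := by
  obtain ⟨K, hK0, hK⟩ := exists_lip h2 hc
  have hd : Differentiable ℝ φ := h2.differentiable (by norm_num)
  have ev : ∀ᶠ n : ℕ in atTop, (1 : ℝ) ≤ n := by
    filter_upwards [eventually_ge_atTop 1] with n hn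
    exact_mod_cast hn
  -- support
  have hS : ∀ n : ℕ, (1 : ℝ) ≤ n → ∀ P, FF φ n P ≠ 0 →
      |(P.1 : ℝ)| ≤ ((R : ℝ) + 1) * n ∧ |(P.2 : ℝ)| ≤ ((R : ℝ) + 1) * n := by
    intro n hn P hP
    have hn0 : (0 : ℝ) < n := by linarith
    have key : ∀ a c : ℝ, |a| ≤ 1 → |(c + a) / n| ≤ R → |c| ≤ ((R : ℝ) + 1) * n := by
      intro a c ha h
      rw [abs_div, abs_of_pos hn0, div_le_iff₀ hn0] at h
      have h3 := abs_sub_abs_le_abs_sub c (-a)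
      rw [sub_neg_eq_add, abs_neg] at h3
      nlinarith
    have h3 : φ ((P.1 : ℝ) / n, (P.2 : ℝ) / n) ≠ 0 ∨ φ ((P.1 : ℝ) / n, ((P.2 : ℝ) + 1) / n) ≠ 0 ∨
        φ (((P.1 : ℝ) - 1) / n, (P.2 : ℝ) / n) ≠ 0 := by
      by_contra hn'
      push Not at hn'
      refine hP ?_
      unfold FF
      rw [hn'.1, hn'.2.1, hn'.2.2]
      norm_num
    rcases h3 with h3 | h3 | h3
    · obtain ⟨h4, h5⟩ := hR _ h3
      exact ⟨key 0 _ (by simp) (by simpa using h4), key 0 _ (by simp) (by simpa using h5)⟩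
    · obtain ⟨h4, h5⟩ := hR _ h3
      exact ⟨key 0 _ (by simp) (by simpa using h4), key 1 _ (by simp) h5⟩
    · obtain ⟨h4, h5⟩ := hR _ h3
      exact ⟨key (-1) _ (by simp) (by simpa [sub_eq_add_neg] using h4),
        key 0 _ (by simp) (by simpa using h5)⟩
  have main := riemann (t := fun n : ℕ => (n : ℝ)) tendsto_natCast_atTop_atTop
    (F := fun n P => FF φ n P)
    (S := fun n => Finset.Icc (-(((R + 1) * n : ℕ) : ℤ)) (((R + 1) * n : ℕ) : ℤ) ×ˢ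
      Finset.Icc (-(((R + 1) * n : ℕ) : ℤ)) (((R + 1) * n : ℕ) : ℤ))
    (M := 2 * K ^ 2) (R := (R : ℝ) + 1)
    (f := fun z => (fderiv ℝ φ z (1, 0)) ^ 2 + (fderiv ℝ φ z (0, 1)) ^ 2) ?_ ?_ ?_ ?_
  · exact main
  · filter_upwards [ev] with n hn P
    have hn0 : (0 : ℝ) < n := by linarith
    rw [abs_of_nonneg (FF_nonneg _ _)]
    have a1 := hK ((P.1 : ℝ) / n, (P.2 : ℝ) / n) ((P.1 : ℝ) / n, ((P.2 : ℝ) + 1) / n)
    have a2 := hK (((P.1 : ℝ) - 1) / n, (P.2 : ℝ) / n) ((P.1 : ℝ) / n, (P.2 : ℝ) / n)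
    have e1 : ‖(((P.1 : ℝ) / n, (P.2 : ℝ) / n) : ℝ × ℝ) - ((P.1 : ℝ) / n, ((P.2 : ℝ) + 1) / n)‖ =
        1 / n := by
      rw [Prod.mk_sub_mk, sub_self, Prod.norm_mk, norm_zero, Real.norm_eq_abs, ← sub_div,
        abs_div, abs_of_pos hn0]
      rw [show (P.2 : ℝ) - (P.2 + 1) = -1 by ring, abs_neg, abs_one]
      exact max_eq_right (by positivity)
    have e2 : ‖((((P.1 : ℝ) - 1) / n, (P.2 : ℝ) / n) : ℝ × ℝ) - ((P.1 : ℝ) / n, (P.2 : ℝ) / n)‖ =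
        1 / n := by
      rw [Prod.mk_sub_mk, sub_self, Prod.norm_mk, norm_zero, Real.norm_eq_abs, ← sub_div,
        abs_div, abs_of_pos hn0]
      rw [show (P.1 : ℝ) - 1 - P.1 = -1 by ring, abs_neg, abs_one]
      exact max_eq_left (by positivity)
    rw [e1] at a1
    rw [e2] at a2
    have b1 := pow_le_pow_left₀ (abs_nonneg _) a1 2
    have b2 := pow_le_pow_left₀ (abs_nonneg _) a2 2
    rw [sq_abs] at b1 b2
    unfold FF
    calc _ ≤ (K * (1 / n)) ^ 2 + (K * (1 / n)) ^ 2 := add_le_add b1 b2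
      _ = 2 * K ^ 2 / (n : ℝ) ^ 2 := by ring
  · filter_upwards [ev] with n hn P hP
    obtain ⟨h3, h4⟩ := hS n hn P hP
    rw [Finset.mem_product, Finset.mem_Icc, Finset.mem_Icc, ← abs_le, ← abs_le]
    have e : (((R + 1) * n : ℕ) : ℝ) = ((R : ℝ) + 1) * n := by push_cast; ring
    rw [← e] at h3 h4
    exact ⟨by exact_mod_cast h3, by exact_mod_cast h4⟩
  · filter_upwards [ev] with n hn P hP
    exact hS n hn P hP
  · refine Eventually.of_forall fun z => ?_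
    have d1 := diff_quot (t := fun n : ℕ => (n : ℝ)) tendsto_natCast_atTop_atTop
      (hd z).hasFDerivAt ((0 : ℝ), (0 : ℝ)) ((0 : ℝ), (1 : ℝ))
    have d2 := diff_quot (t := fun n : ℕ => (n : ℝ)) tendsto_natCast_atTop_atTop
      (hd z).hasFDerivAt ((-1 : ℝ), (0 : ℝ)) ((0 : ℝ), (0 : ℝ))
    have d3 := (d2.pow 2).add (d1.pow 2)
    have e1 : fderiv ℝ φ z (((-1 : ℝ), (0 : ℝ)) - ((0 : ℝ), (0 : ℝ))) = -fderiv ℝ φ z (1, 0) := by
      rw [← map_neg]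
      congr 1
      simp
    have e2 : fderiv ℝ φ z (((0 : ℝ), (0 : ℝ)) - ((0 : ℝ), (1 : ℝ))) = -fderiv ℝ φ z (0, 1) := by
      rw [← map_neg]
      congr 1
      simp
    rw [e1, e2, neg_sq, neg_sq] at d3
    refine d3.congr fun n => ?_
    unfold FF
    simp only [add_zero, ← sub_eq_add_neg]
    ring

/-- **the energy of the lattice test function** -/
theorem energy_le (h2 : ContDiff ℝ 2 φ) (hc : HasCompactSupport φ) {ε : ℝ} (hε : 0 < ε) :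
    ∃ n0 : ℕ, ∀ n ≥ n0, ∀ (u1 : ℤ) (K : ℕ), ∑ e ∈ SK K, dr (gg φ n u1) e ^ 2 ≤ Dir φ + ε := by
  classical
  obtain ⟨R, hR⟩ := exists_supp hc
  have h3 := (tendsto_FF h2 hR hc).eventually (eventually_lt_nhds (lt_add_of_pos_right (Dir φ) hε))
  obtain ⟨n0, hn0⟩ := eventually_atTop.1 (h3.and (eventually_ge_atTop 1))
  refine ⟨n0, fun n hn u1 K => ?_⟩
  obtain ⟨h4, h5⟩ := hn0 n hn
  refine le_trans ?_ h4.le
  have e1 : ∑ e ∈ SK K, dr (gg φ n u1) e ^ 2 =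
      ∑ p ∈ Finset.Icc (-(K : ℤ)) K ×ˢ Finset.Icc (-(K : ℤ)) K, FF φ n (p.1 - u1, -2 - p.2) := by
    unfold SK
    rw [Finset.sum_product]
    refine Finset.sum_congr rfl fun p _ => ?_
    rw [Fintype.sum_bool, ← dr_gg_sq, add_comm]
  rw [e1]
  set T := Finset.Icc (-(K : ℤ)) K ×ˢ Finset.Icc (-(K : ℤ)) K
  set ι : ℤ × ℤ → ℤ × ℤ := fun p => (p.1 - u1, -2 - p.2) with hι
  have hinj : Set.InjOn ι T := by
    rintro ⟨a, b⟩ _ ⟨c, d⟩ _ h
    simp only [hι, Prod.mk.injEq] at h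
    exact Prod.ext (by simp only; omega) (by simp only; omega)
  have e2 : ∑ p ∈ T, FF φ n (p.1 - u1, -2 - p.2) = ∑ P ∈ T.image ι, FF φ n P :=
    (Finset.sum_image (f := FF φ n) hinj).symm
  rw [e2, ← Finset.sum_filter_ne_zero]
  refine Finset.sum_le_sum_of_subset_of_nonneg ?_ fun P _ _ => FF_nonneg _ _
  intro P hP
  rw [Finset.mem_filter] at hP
  -- the support lies in the box
  have hn1 : (1 : ℝ) ≤ n := by exact_mod_cast h5
  have hn' : (0 : ℝ) < n := by linarith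
  have key : ∀ a c : ℝ, |a| ≤ 1 → |(c + a) / n| ≤ R → |c| ≤ ((R : ℝ) + 1) * n := by
    intro a c ha h
    rw [abs_div, abs_of_pos hn', div_le_iff₀ hn'] at h
    have h3 := abs_sub_abs_le_abs_sub c (-a)
    rw [sub_neg_eq_add, abs_neg] at h3
    nlinarith
  have h6 : φ ((P.1 : ℝ) / n, (P.2 : ℝ) / n) ≠ 0 ∨ φ ((P.1 : ℝ) / n, ((P.2 : ℝ) + 1) / n) ≠ 0 ∨
      φ (((P.1 : ℝ) - 1) / n, (P.2 : ℝ) / n) ≠ 0 := by
    by_contra hn''
    push Not at hn''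
    refine hP.2 ?_
    unfold FF
    rw [hn''.1, hn''.2.1, hn''.2.2]
    norm_num
  have h7 : |(P.1 : ℝ)| ≤ ((R : ℝ) + 1) * n ∧ |(P.2 : ℝ)| ≤ ((R : ℝ) + 1) * n := by
    rcases h6 with h6 | h6 | h6
    · obtain ⟨h4, h5⟩ := hR _ h6
      exact ⟨key 0 _ (by simp) (by simpa using h4), key 0 _ (by simp) (by simpa using h5)⟩
    · obtain ⟨h4, h5⟩ := hR _ h6
      exact ⟨key 0 _ (by simp) (by simpa using h4), key 1 _ (by simp) h5⟩
    · obtain ⟨h4, h5⟩ := hR _ h6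
      exact ⟨key (-1) _ (by simp) (by simpa [sub_eq_add_neg] using h4),
        key 0 _ (by simp) (by simpa using h5)⟩
  rw [Finset.mem_product, Finset.mem_Icc, Finset.mem_Icc, ← abs_le, ← abs_le]
  have e : (((R + 1) * n : ℕ) : ℝ) = ((R : ℝ) + 1) * n := by push_cast; ring
  rw [← e] at h7
  exact ⟨by exact_mod_cast h7.1, by exact_mod_cast h7.2⟩

/-- **the oscillation of the lattice test function** -/
theorem osc_gg (h2 : ContDiff ℝ 2 φ) (hc : HasCompactSupport φ) : ∃ C : ℝ, 0 ≤ C ∧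
    ∀ (n l K : ℕ) (u1 : ℤ), 1 ≤ n → osc l (SK K) (dr (gg φ n u1)) ≤
      (SK K).card * ((2 * l + 1) ^ 2 * (C * l / (n : ℝ) ^ 2) ^ 2) := by
  obtain ⟨C, hC0, hC⟩ := exists_lip2 h2 hc
  refine ⟨C, hC0, fun n l K u1 hn => osc_le fun e _ u hu => ?_⟩
  have hn0 : (0 : ℝ) < n := by exact_mod_cast hn
  obtain ⟨⟨i, j⟩, s⟩ := e
  obtain ⟨a, b⟩ := u
  rw [Finset.mem_Icc, Prod.le_def, Prod.le_def] at hu
  obtain ⟨⟨a1, a2⟩, a3, a4⟩ := hu
  simp only at a1 a2 a3 a4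
  have ha : |(a : ℝ)| ≤ l := by
    have : |a| ≤ l := abs_le.2 ⟨a1, a3⟩
    exact_mod_cast this
  have hb : |(b : ℝ)| ≤ l := by
    have : |b| ≤ l := abs_le.2 ⟨a2, a4⟩
    exact_mod_cast this
  have hab : ‖(((a : ℝ) / n, -(b : ℝ) / n) : ℝ × ℝ)‖ ≤ l / n := by
    rw [Prod.norm_mk, Real.norm_eq_abs, Real.norm_eq_abs, abs_div, abs_div, abs_neg,
      abs_of_pos hn0]
    exact max_le (by gcongr) (by gcongr)
  cases s with
  | false =>
    have e0 : sh (a, b) ((i, j), false) = ((i + a, j + b), false) := rfl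
    rw [e0, dr_gg_false, dr_gg_false]
    have h3 := hC ((((i : ℝ) + a) - u1) / n, (-2 - ((j : ℝ) + b)) / n)
      (((i : ℝ) - u1) / n, (-2 - (j : ℝ)) / n) ((0 : ℝ), 1 / (n : ℝ))
    have e1 : ((((((i : ℝ) + a) - u1) / n, (-2 - ((j : ℝ) + b)) / n) : ℝ × ℝ) -
        (((i : ℝ) - u1) / n, (-2 - (j : ℝ)) / n)) = ((a : ℝ) / n, -(b : ℝ) / n) := by
      rw [Prod.mk_sub_mk]
      congr 1 <;> ring
    have e2 : ‖((0 : ℝ), 1 / (n : ℝ))‖ = 1 / n := by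
      rw [Prod.norm_mk, norm_zero, Real.norm_eq_abs, abs_of_pos (by positivity)]
      exact max_eq_right (by positivity)
    rw [e1, e2] at h3
    have e3 : ((((((i : ℝ) + a) - u1) / n, (-2 - ((j : ℝ) + b)) / n) : ℝ × ℝ) + ((0 : ℝ), 1 / (n : ℝ))) =
        ((((i : ℝ) + a) - u1) / n, (-2 - ((j : ℝ) + b) + 1) / n) := by
      rw [Prod.mk_add_mk]
      congr 1 <;> ring
    have e4 : (((((i : ℝ) - u1) / n, (-2 - (j : ℝ)) / n) : ℝ × ℝ) + ((0 : ℝ), 1 / (n : ℝ))) =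
        (((i : ℝ) - u1) / n, (-2 - (j : ℝ) + 1) / n) := by
      rw [Prod.mk_add_mk]
      congr 1 <;> ring
    rw [e3, e4] at h3
    push_cast
    rw [← abs_neg]
    calc _ ≤ C * (1 / n) * ‖(((a : ℝ) / n, -(b : ℝ) / n) : ℝ × ℝ)‖ := by
          refine le_trans (le_of_eq ?_) h3
          congr 1
          ring
      _ ≤ C * (1 / n) * (l / n) := by gcongr
      _ = _ := by ring
  | true =>
    have e0 : sh (a, b) ((i, j), true) = ((i + a, j + b), true) := rfl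
    rw [e0, dr_gg_true, dr_gg_true]
    have h3 := hC ((((i : ℝ) + a) - u1) / n, (-2 - ((j : ℝ) + b)) / n)
      (((i : ℝ) - u1) / n, (-2 - (j : ℝ)) / n) (-1 / (n : ℝ), (0 : ℝ))
    have e1 : ((((((i : ℝ) + a) - u1) / n, (-2 - ((j : ℝ) + b)) / n) : ℝ × ℝ) -
        (((i : ℝ) - u1) / n, (-2 - (j : ℝ)) / n)) = ((a : ℝ) / n, -(b : ℝ) / n) := by
      rw [Prod.mk_sub_mk]
      congr 1 <;> ring
    have e2 : ‖(-1 / (n : ℝ), (0 : ℝ))‖ = 1 / n := by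
      rw [Prod.norm_mk, norm_zero, Real.norm_eq_abs, abs_div, abs_neg, abs_one,
        abs_of_pos hn0]
      exact max_eq_left (by positivity)
    rw [e1, e2] at h3
    have e3 : ((((((i : ℝ) + a) - u1) / n, (-2 - ((j : ℝ) + b)) / n) : ℝ × ℝ) + (-1 / (n : ℝ), (0 : ℝ))) =
        ((((i : ℝ) + a) - u1 - 1) / n, (-2 - ((j : ℝ) + b)) / n) := by
      rw [Prod.mk_add_mk]
      congr 1 <;> ring
    have e4 : (((((i : ℝ) - u1) / n, (-2 - (j : ℝ)) / n) : ℝ × ℝ) + (-1 / (n : ℝ), (0 : ℝ))) =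
        (((i : ℝ) - u1 - 1) / n, (-2 - (j : ℝ)) / n) := by
      rw [Prod.mk_add_mk]
      congr 1 <;> ring
    rw [e3, e4] at h3
    push_cast
    calc _ ≤ C * (1 / n) * ‖(((a : ℝ) / n, -(b : ℝ) / n) : ℝ × ℝ)‖ := h3
      _ ≤ C * (1 / n) * (l / n) := by gcongr
      _ = _ := by ring

end Vale.Agent.P159.T1.H315
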