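import Vale.Agent.P159.T1.H315.Cov
import Vale.Agent.P159.T1.H934.Cosh
import Mathlib.Analysis.SpecialFunctions.Trigonometric.DerivHyp

/-!
# Exponential moments of the heights and two separated charges (row D.mid)

* `summable_expH` : exponential moments are finite;
* `mid_moment` : `E e^(X+X') - E e^(X-X') ≥ 2 E X X'` for `X = f.h`, `X' = f'.h`, `f, f' ≥ 0`.
-/

open Filter Topology

namespace Vale.Agent.P159.T1.H315

open Vale.Agent.P159 Vale.Agent.P159.H353 Vale.Agent.P159.T1.H532 Vale.Agent.P159.T1.H897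

variable {V E : Type} [Fintype V] [Fintype E] {s t : E → V} {P : Set V} {J : E → ℝ}

omit [Fintype V] in
lemma summable_expX (hc : Conn s t P) (hJ : ∀ e, 0 ≤ J e) (η : E → ℝ) :
    Summable fun h : Hs P => Wt s t J h.1 * Real.exp |Xh s t η h.1| := by
  have h1 := H934.summable_growth (gdH_inj hc) hJ η
    (f := fun h => Real.exp |H934.ln (gdH s t P) η h|) (C := 1)
    (fun h => by rw [abs_of_pos (Real.exp_pos _), one_mul])
  refine h1.congr fun h => ?_
  rw [abs_of_nonneg (mul_nonneg (H934.W_nonneg hJ h) (Real.exp_pos _).le)]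
  rfl

lemma summable_expH (hc : Conn s t P) (hJ : ∀ e, 0 ≤ J e) (f : V → ℝ) :
    Summable fun h : Hs P => Wt s t J h.1 * Real.exp |ln f h.1| := by
  obtain ⟨η, hη⟩ := exists_eta hc f
  refine (summable_expX hc hJ η).congr fun h => ?_
  rw [hη]

/-- functions of exponential growth are summable -/
lemma summable_gr (hc : Conn s t P) (hJ : ∀ e, 0 ≤ J e) (f g : V → ℝ) {F : (V → ℤ) → ℝ}
    (hF : ∀ h, |F h| ≤ Real.exp (|ln f h| + |ln g h|)) :
    Summable fun h : Hs P => Wt s t J h.1 * F h.1 := by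
  refine Summable.of_norm_bounded ((summable_expH hc hJ fun v => f v + g v).add
    (summable_expH hc hJ fun v => f v - g v)) fun h => ?_
  have h0 := Wt_nonneg (s := s) (t := t) hJ h.1
  rw [Real.norm_eq_abs, abs_mul, abs_of_nonneg h0, ← mul_add]
  refine mul_le_mul_of_nonneg_left ((hF h.1).trans ?_) h0
  rw [ln_add, ln_sub]
  have h1 := Real.exp_pos |ln f h.1 + ln g h.1|
  have h2 := Real.exp_pos |ln f h.1 - ln g h.1|
  rcases le_total 0 (ln f h.1 * ln g h.1) with h3 | h3
  · have h4 : |ln f h.1| + |ln g h.1| = |ln f h.1 + ln g h.1| := by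
      rcases mul_nonneg_iff.1 h3 with ⟨a, b⟩ | ⟨a, b⟩
      · rw [abs_of_nonneg a, abs_of_nonneg b, abs_of_nonneg (add_nonneg a b)]
      · rw [abs_of_nonpos a, abs_of_nonpos b, abs_of_nonpos (add_nonpos a b)]
        ring
    rw [h4]
    linarith
  · have h4 : |ln f h.1| + |ln g h.1| = |ln f h.1 - ln g h.1| := by
      rcases mul_nonpos_iff.1 h3 with ⟨a, b⟩ | ⟨a, b⟩
      · rw [abs_of_nonneg a, abs_of_nonpos b, abs_of_nonneg (sub_nonneg.2 (b.trans a))]
        ring
      · rw [abs_of_nonpos a, abs_of_nonneg b, abs_of_nonpos (sub_nonpos.2 (a.trans b))]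
        ring
    rw [h4]
    linarith

lemma abs_sinh_le (x : ℝ) : |Real.sinh x| ≤ Real.exp |x| := by
  rw [Real.abs_sinh, Real.sinh_eq]
  have h1 := Real.exp_pos (-|x|)
  have h2 := Real.exp_pos |x|
  linarith

lemma abs_le_exp_abs (x : ℝ) : |x| ≤ Real.exp |x| := by
  have := Real.add_one_le_exp |x|
  linarith

/-- **two nonnegative charges: exponential moments against the covariance** -/
theorem mid_moment (hc : Conn s t P) (hJ : ∀ e, 0 ≤ J e) {f g : V → ℝ} (hf : ∀ v, 0 ≤ f v)
    (hg : ∀ v, 0 ≤ g v) :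
    2 * M2 s t J P f g ≤ (∑' h : Hs P, Wt s t J h.1 * Real.exp (ln f h.1 + ln g h.1)) -
      ∑' h : Hs P, Wt s t J h.1 * Real.exp (ln f h.1 - ln g h.1) := by
  have sm : ∀ F : (V → ℤ) → ℝ, (∀ h, |F h| ≤ Real.exp (|ln f h| + |ln g h|)) →
      Summable fun h : Hs P => Wt s t J h.1 * F h.1 := fun F hF => summable_gr hc hJ f g hF
  have b1 : ∀ x : ℝ, 0 ≤ Real.exp |x| := fun x => (Real.exp_pos _).le
  have one : ∀ x : ℝ, 1 ≤ Real.exp |x| := fun x => Real.one_le_exp (abs_nonneg _)
  have sss : Summable fun h : Hs P => Wt s t J h.1 * (Real.sinh (ln f h.1) * Real.sinh (ln g h.1)) :=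
    sm (fun h => Real.sinh (ln f h) * Real.sinh (ln g h)) fun h => by
      rw [abs_mul, Real.exp_add]
      exact mul_le_mul (abs_sinh_le _) (abs_sinh_le _) (abs_nonneg _) (b1 _)
  have sxs : Summable fun h : Hs P => Wt s t J h.1 * (ln f h.1 * Real.sinh (ln g h.1)) :=
    sm (fun h => ln f h * Real.sinh (ln g h)) fun h => by
      rw [abs_mul, Real.exp_add]
      exact mul_le_mul (abs_le_exp_abs _) (abs_sinh_le _) (abs_nonneg _) (b1 _)
  have sxx : Summable fun h : Hs P => Wt s t J h.1 * (ln f h.1 * ln g h.1) :=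
    sm (fun h => ln f h * ln g h) fun h => by
      rw [abs_mul, Real.exp_add]
      exact mul_le_mul (abs_le_exp_abs _) (abs_le_exp_abs _) (abs_nonneg _) (b1 _)
  have scs : Summable fun h : Hs P => Wt s t J h.1 * (Real.cosh (ln f h.1) * Real.sinh (ln g h.1)) :=
    sm (fun h => Real.cosh (ln f h) * Real.sinh (ln g h)) fun h => by
      rw [abs_mul, Real.exp_add]
      refine mul_le_mul ?_ (abs_sinh_le _) (abs_nonneg _) (b1 _)
      rw [abs_of_pos (Real.cosh_pos _), ← Real.cosh_abs, Real.cosh_eq]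
      have : Real.exp (-|ln f h|) ≤ Real.exp |ln f h| :=
        Real.exp_le_exp.2 (by linarith [abs_nonneg (ln f h)])
      linarith
  have ss1 : Summable fun h : Hs P => Wt s t J h.1 * Real.sinh (ln g h.1) :=
    sm (fun h => Real.sinh (ln g h)) fun h => by
      rw [Real.exp_add]
      exact (abs_sinh_le _).trans (le_mul_of_one_le_left (b1 _) (one _))
  have ss2 : Summable fun h : Hs P => Wt s t J h.1 * Real.sinh (ln f h.1) :=
    sm (fun h => Real.sinh (ln f h)) fun h => by
      rw [Real.exp_add]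
      exact (abs_sinh_le _).trans (le_mul_of_one_le_right (b1 _) (one _))
  have sx1 : Summable fun h : Hs P => Wt s t J h.1 * ln f h.1 :=
    sm (fun h => ln f h) fun h => by
      rw [Real.exp_add]
      exact (abs_le_exp_abs _).trans (le_mul_of_one_le_right (b1 _) (one _))
  have sx2 : Summable fun h : Hs P => Wt s t J h.1 * ln g h.1 :=
    sm (fun h => ln g h) fun h => by
      rw [Real.exp_add]
      exact (abs_le_exp_abs _).trans (le_mul_of_one_le_left (b1 _) (one _))
  have sep : Summable fun h : Hs P => Wt s t J h.1 * Real.exp (ln f h.1 + ln g h.1) :=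
    sm (fun h => Real.exp (ln f h + ln g h)) fun h => by
      rw [abs_of_pos (Real.exp_pos _)]
      exact Real.exp_le_exp.2 (add_le_add (le_abs_self _) (le_abs_self _))
  have sem : Summable fun h : Hs P => Wt s t J h.1 * Real.exp (ln f h.1 - ln g h.1) :=
    sm (fun h => Real.exp (ln f h - ln g h)) fun h => by
      rw [abs_of_pos (Real.exp_pos _), sub_eq_add_neg]
      exact Real.exp_le_exp.2 (add_le_add (le_abs_self _) (neg_le_abs _))
  -- `E e^(X+X') - E e^(X-X') = 2 E sinh X sinh X'`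
  have e1 : (∑' h : Hs P, Wt s t J h.1 * Real.exp (ln f h.1 + ln g h.1)) -
      (∑' h : Hs P, Wt s t J h.1 * Real.exp (ln f h.1 - ln g h.1)) =
      2 * (∑' h : Hs P, Wt s t J h.1 * (Real.cosh (ln f h.1) * Real.sinh (ln g h.1))) +
      2 * (∑' h : Hs P, Wt s t J h.1 * (Real.sinh (ln f h.1) * Real.sinh (ln g h.1))) := by
    rw [← sep.tsum_sub sem, ← tsum_mul_left, ← tsum_mul_left,
      ← (scs.mul_left 2).tsum_add (sss.mul_left 2)]
    refine tsum_congr fun h => ?_
    rw [Real.exp_add, Real.exp_sub, div_eq_mul_inv, ← Real.exp_neg, Real.sinh_eq, Real.sinh_eq,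
      Real.cosh_eq]
    ring
  have e2 : ∑' h : Hs P, Wt s t J h.1 * (Real.cosh (ln f h.1) * Real.sinh (ln g h.1)) = 0 :=
    tsum_odd (f := fun h => Real.cosh (ln f h) * Real.sinh (ln g h)) fun h => by
      rw [ln_neg_h, ln_neg_h, Real.cosh_neg, Real.sinh_neg]
      ring
  -- monotone odd functions
  have m0 : Monotone fun x : ℝ => Real.sinh x - x := Real.sinh_sub_id_strictMono.monotone
  have a1 : 0 ≤ ∑' h : Hs P, Wt s t J h.1 *
      ((Real.sinh (ln f h.1) - ln f h.1) * Real.sinh (ln g h.1)) := by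
    refine odd_nonneg (f := fun h => Real.sinh (ln f h) - ln f h)
      (g := fun h => Real.sinh (ln g h)) hc hJ (m0.comp (ln_mono hf))
      (Real.sinh_strictMono.monotone.comp (ln_mono hg)) (fun h => ?_) (fun h => ?_) ?_ ss1 ?_
    · rw [ln_neg_h, Real.sinh_neg]
      ring
    · rw [ln_neg_h, Real.sinh_neg]
    · exact (ss2.sub sx1).congr fun h => by ring
    · exact (sss.sub sxs).congr fun h => by ring
  have a2 : 0 ≤ ∑' h : Hs P, Wt s t J h.1 *
      (ln f h.1 * (Real.sinh (ln g h.1) - ln g h.1)) := by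
    refine odd_nonneg (f := fun h => ln f h)
      (g := fun h => Real.sinh (ln g h) - ln g h) hc hJ (ln_mono hf)
      (m0.comp (ln_mono hg)) (fun h => ln_neg_h _ _) (fun h => ?_) sx1 ?_ ?_
    · rw [ln_neg_h, Real.sinh_neg]
      ring
    · exact (ss1.sub sx2).congr fun h => by ring
    · exact (sxs.sub sxx).congr fun h => by ring
  have a3 : M2 s t J P f g + (∑' h : Hs P, Wt s t J h.1 *
      ((Real.sinh (ln f h.1) - ln f h.1) * Real.sinh (ln g h.1))) +
      (∑' h : Hs P, Wt s t J h.1 * (ln f h.1 * (Real.sinh (ln g h.1) - ln g h.1))) =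
      ∑' h : Hs P, Wt s t J h.1 * (Real.sinh (ln f h.1) * Real.sinh (ln g h.1)) := by
    have u1 : Summable fun h : Hs P => Wt s t J h.1 *
        ((Real.sinh (ln f h.1) - ln f h.1) * Real.sinh (ln g h.1)) :=
      (sss.sub sxs).congr fun h => by ring
    have u2 : Summable fun h : Hs P => Wt s t J h.1 *
        (ln f h.1 * (Real.sinh (ln g h.1) - ln g h.1)) := (sxs.sub sxx).congr fun h => by ring
    have u0 : Summable fun h : Hs P => ln f h.1 * ln g h.1 * Wt s t J h.1 :=
      summable_mul hc hJ f g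
    unfold M2
    rw [← u0.tsum_add u1, ← (u0.add u1).tsum_add u2]
    exact tsum_congr fun h => by ring
  rw [e1, e2]
  linarith

end Vale.Agent.P159.T1.H315
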