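import Vale.Agent.P159.T1.H315.Poly

/-!
# The test function of row D.mid

`tf x0 w L y z = al z.1 * be z.2`, with `al` switched on in `[x0 - w, x0 + w]` and decreasing to
`0` at `L`, and `be` a bell on `[y - w, y + w]`.
-/

open Filter Topology

namespace Vale.Agent.P159.T1.H315

/-- horizontal profile -/
noncomputable def al (x0 w L X : ℝ) : ℝ :=
  Real.smoothTransition ((X - (x0 - w)) / (2 * w)) * pc (Real.exp (2 / w * (L - X)) - 1)

/-- vertical profile -/
noncomputable def be (y w T : ℝ) : ℝ := pc (1 - ((T - y) / w) ^ 2)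

/-- test function -/
noncomputable def tf (x0 y w L : ℝ) (z : ℝ × ℝ) : ℝ := al x0 w L z.1 * be y w z.2

variable {x0 y w L : ℝ}

lemma al_nonneg (X : ℝ) : 0 ≤ al x0 w L X :=
  mul_nonneg (Real.smoothTransition.nonneg _) (pc_nonneg _)

lemma be_nonneg (T : ℝ) : 0 ≤ be y w T := pc_nonneg _

lemma tf_nonneg (z : ℝ × ℝ) : 0 ≤ tf x0 y w L z := mul_nonneg (al_nonneg _) (be_nonneg _)

lemma contDiff_al : ContDiff ℝ 2 (al x0 w L) := by
  unfold al
  refine ContDiff.mul ?_ (contDiff_pc.comp ?_)
  · exact Real.smoothTransition.contDiff.comp (by fun_prop)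
  · fun_prop

lemma contDiff_be : ContDiff ℝ 2 (be y w) := by
  unfold be
  exact contDiff_pc.comp (by fun_prop)

lemma contDiff_tf : ContDiff ℝ 2 (tf x0 y w L) := by
  unfold tf
  exact (contDiff_al.comp contDiff_fst).mul (contDiff_be.comp contDiff_snd)

lemma al_left (hw : 0 < w) {X : ℝ} (h : X ≤ x0 - w) : al x0 w L X = 0 := by
  unfold al
  rw [Real.smoothTransition.zero_of_nonpos, zero_mul]
  exact div_nonpos_of_nonpos_of_nonneg (by linarith) (by linarith)

lemma al_right (hw : 0 < w) {X : ℝ} (h : L ≤ X) : al x0 w L X = 0 := by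
  unfold al
  rw [pc_of_nonpos, mul_zero]
  have : Real.exp (2 / w * (L - X)) ≤ 1 := by
    rw [Real.exp_le_one_iff]
    exact mul_nonpos_of_nonneg_of_nonpos (by positivity) (by linarith)
  linarith

lemma al_eq (hw : 0 < w) {X : ℝ} (h : x0 + w ≤ X) :
    al x0 w L X = pc (Real.exp (2 / w * (L - X)) - 1) := by
  unfold al
  rw [Real.smoothTransition.one_of_one_le, one_mul]
  rw [one_le_div (by linarith)]
  linarith

lemma al_le_pc (X : ℝ) : al x0 w L X ≤ pc (Real.exp (2 / w * (L - X)) - 1) :=
  mul_le_of_le_one_left (pc_nonneg _) (Real.smoothTransition.le_one _)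

lemma be_zero (hw : 0 < w) {T : ℝ} (h : w ≤ |T - y|) : be y w T = 0 := by
  unfold be
  apply pc_of_nonpos
  have h1 : 1 ≤ |(T - y) / w| := by
    rw [abs_div, abs_of_pos hw, one_le_div hw]
    exact h
  have h2 : (1 : ℝ) ^ 2 ≤ ((T - y) / w) ^ 2 := sq_le_sq.2 (by rwa [abs_one])
  linarith

lemma be_le_one (T : ℝ) : be y w T ≤ 1 := by
  unfold be pc
  refine pow_le_one₀ (le_max_left _ _) (max_le zero_le_one ?_)
  have := sq_nonneg ((T - y) / w)
  linarith

lemma tf_supp (hw : 0 < w) {z : ℝ × ℝ} (h : tf x0 y w L z ≠ 0) :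
    z ∈ Set.Icc (x0 - w) L ×ˢ Set.Icc (y - w) (y + w) := by
  have h1 : al x0 w L z.1 ≠ 0 := left_ne_zero_of_mul h
  have h2 : be y w z.2 ≠ 0 := right_ne_zero_of_mul h
  refine ⟨⟨?_, ?_⟩, ?_, ?_⟩
  · by_contra hn
    exact h1 (al_left hw (not_le.1 hn).le)
  · by_contra hn
    exact h1 (al_right hw (not_le.1 hn).le)
  · by_contra hn
    push Not at hn
    refine h2 (be_zero hw ?_)
    rw [abs_of_nonpos (by linarith)]
    linarith
  · by_contra hn
    push Not at hn
    refine h2 (be_zero hw ?_)
    rw [abs_of_nonneg (by linarith)]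
    linarith

lemma tsupp_tf (hw : 0 < w) :
    tsupport (tf x0 y w L) ⊆ Set.Icc (x0 - w) L ×ˢ Set.Icc (y - w) (y + w) :=
  closure_minimal (fun _ hz => tf_supp hw hz) (isClosed_Icc.prod isClosed_Icc)

lemma compact_tf (hw : 0 < w) : HasCompactSupport (tf x0 y w L) :=
  HasCompactSupport.of_support_subset_isCompact (isCompact_Icc.prod isCompact_Icc)
    fun _ hz => tf_supp hw hz

lemma compact_al (hw : 0 < w) : HasCompactSupport (al x0 w L) := by
  refine HasCompactSupport.of_support_subset_isCompact (K := Set.Icc (x0 - w) L) isCompact_Icc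
    fun X hX => ⟨?_, ?_⟩
  · by_contra hn
    exact hX (al_left hw (not_le.1 hn).le)
  · by_contra hn
    exact hX (al_right hw (not_le.1 hn).le)

lemma compact_be (hw : 0 < w) : HasCompactSupport (be y w) := by
  refine HasCompactSupport.of_support_subset_isCompact (K := Set.Icc (y - w) (y + w))
    isCompact_Icc fun X hX => ⟨?_, ?_⟩
  · by_contra hn
    push Not at hn
    refine hX (be_zero hw ?_)
    rw [abs_of_nonpos (by linarith)]
    linarith
  · by_contra hn
    push Not at hn
    refine hX (be_zero hw ?_)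
    rw [abs_of_nonneg (by linarith)]
    linarith

/-- second difference of the vertical profile -/
lemma be_diff (hw : 0 < w) {h : ℝ} (h0 : 0 ≤ h) (h1 : h ≤ w / 8) (T : ℝ) :
    -(12 * h ^ 2 / w ^ 2) * be y w T ≤ be y w (T + h) + be y w (T - h) - 2 * be y w T := by
  have h2 := be_conv (τ := (T - y) / w) (δ := h / w) (by positivity)
    (by rw [div_le_iff₀ hw]; linarith)
  unfold be
  have e1 : (T + h - y) / w = (T - y) / w + h / w := by ring
  have e2 : (T - h - y) / w = (T - y) / w - h / w := by ring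
  have e3 : (h / w) ^ 2 = h ^ 2 / w ^ 2 := div_pow _ _ _
  rw [e1, e2]
  rw [e3] at h2
  calc _ = -(12 * (h ^ 2 / w ^ 2)) * pc (1 - ((T - y) / w) ^ 2) := by ring
    _ ≤ _ := h2

/-- second difference of the horizontal profile, to the right of the switch -/
lemma al_diff (hw : 0 < w) {h X : ℝ} (h0 : 0 ≤ h) (h1 : x0 + w ≤ X - h) :
    12 * h ^ 2 / w ^ 2 * al x0 w L X ≤
      al x0 w L (X + h) + al x0 w L (X - h) - 2 * al x0 w L X := by
  rw [al_eq hw h1, al_eq hw (X := X) (by linarith), al_eq hw (X := X + h) (by linarith)]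
  have h2 := ga_conv (lam := 2 / w) (d := L - X) (h := h)
  have e1 : L - X + h = L - (X - h) := by ring
  have e2 : L - X - h = L - (X + h) := by ring
  rw [e1, e2] at h2
  have e3 : 3 * (2 / w * h) ^ 2 = 12 * h ^ 2 / w ^ 2 := by
    field_simp
    ring
  rw [e3] at h2
  linarith

/-- the lattice Laplacian of the test function is nonnegative off the first bump -/
theorem lap_tf (hw : 0 < w) : ∃ C : ℝ, 0 ≤ C ∧ ∀ (h : ℝ), 0 ≤ h → h ≤ w / 8 → ∀ X T : ℝ,
    -((al x0 w L (X + h) + al x0 w L (X - h) - 2 * al x0 w L X) * be y w T +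
      al x0 w L X * (be y w (T + h) + be y w (T - h) - 2 * be y w T)) ≤
      if |X - x0| ≤ w + h ∧ |T - y| ≤ w + h then C * h ^ 2 else 0 := by
  obtain ⟨C1, hC1, h1⟩ := second_diff (contDiff_al (x0 := x0) (w := w) (L := L)) (compact_al hw)
  obtain ⟨C2, hC2, h2⟩ := second_diff (contDiff_be (y := y) (w := w)) (compact_be hw)
  set A := pc (Real.exp (2 / w * (L - (x0 - w))) - 1) with hA
  have hA0 : 0 ≤ A := pc_nonneg _
  refine ⟨C1 + A * C2, by positivity, fun h hh0 hh1 X T => ?_⟩
  have bA : al x0 w L X ≤ A := by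
    rcases le_total X (x0 - w) with hX | hX
    · rw [al_left hw hX]
      exact hA0
    · refine (al_le_pc X).trans (pc_mono ?_)
      have : Real.exp (2 / w * (L - X)) ≤ Real.exp (2 / w * (L - (x0 - w))) :=
        Real.exp_le_exp.2 (mul_le_mul_of_nonneg_left (by linarith) (by positivity))
      linarith
  split_ifs with hc
  · have b1 := (abs_le.1 (h1 X h)).1
    have b2 := (abs_le.1 (h2 T h)).1
    have b3 := be_nonneg (y := y) (w := w) T
    have b4 := be_le_one (y := y) (w := w) T
    have b5 := al_nonneg (x0 := x0) (w := w) (L := L) X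
    have c1 : -(C1 * h ^ 2) ≤
        (al x0 w L (X + h) + al x0 w L (X - h) - 2 * al x0 w L X) * be y w T := by
      have : -(C1 * h ^ 2) * be y w T ≤
          (al x0 w L (X + h) + al x0 w L (X - h) - 2 * al x0 w L X) * be y w T :=
        mul_le_mul_of_nonneg_right b1 b3
      have h3 : 0 ≤ C1 * h ^ 2 := by positivity
      nlinarith
    have c2 : -(A * (C2 * h ^ 2)) ≤
        al x0 w L X * (be y w (T + h) + be y w (T - h) - 2 * be y w T) := by
      have h3 : 0 ≤ C2 * h ^ 2 := by positivity
      have : al x0 w L X * -(C2 * h ^ 2) ≤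
          al x0 w L X * (be y w (T + h) + be y w (T - h) - 2 * be y w T) :=
        mul_le_mul_of_nonneg_left b2 b5
      nlinarith [mul_le_mul_of_nonneg_right bA h3]
    nlinarith
  · rcases le_or_gt (w + h) |T - y| with hT | hT
    · -- both profiles of the bell vanish
      have hz : be y w T = 0 := be_zero hw (by linarith)
      have hz1 : be y w (T + h) = 0 := be_zero hw (by
        have := abs_sub_abs_le_abs_sub (T - y) (-h)
        rw [abs_neg, abs_of_nonneg hh0, sub_neg_eq_add] at this
        have e : T + h - y = T - y + h := by ring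
        rw [e]
        linarith)
      have hz2 : be y w (T - h) = 0 := be_zero hw (by
        have := abs_sub_abs_le_abs_sub (T - y) h
        rw [abs_of_nonneg hh0] at this
        have e : T - h - y = T - y - h := by ring
        rw [e]
        linarith)
      rw [hz, hz1, hz2]
      simp
    · have hX : w + h < |X - x0| := by
        by_contra hn
        exact hc ⟨not_lt.1 hn, hT.le⟩
      rcases lt_abs.1 hX with h3 | h3
      · -- right of the switch
        have d1 := al_diff (x0 := x0) (L := L) hw hh0 (X := X) (by linarith)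
        have d2 := be_diff (y := y) hw hh0 hh1 T
        have e1 := mul_le_mul_of_nonneg_right d1 (be_nonneg (y := y) (w := w) T)
        have e2 := mul_le_mul_of_nonneg_left d2 (al_nonneg (x0 := x0) (w := w) (L := L) X)
        linarith
      · -- left of the switch
        rw [al_left hw (X := X) (by linarith), al_left hw (X := X + h) (by linarith),
          al_left hw (X := X - h) (by linarith)]
        simp

/-- lower bound of the test function -/
theorem tf_ge (hw : 0 < w) {d : ℝ} (hd : 0 < d) {z : ℝ × ℝ} (h1 : x0 + w ≤ z.1)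
    (h2 : z.1 ≤ L - d) (h3 : |z.2 - y| ≤ 3 / 4 * w) :
    pc (Real.exp (2 / w * d) - 1) * (7 / 16) ^ 3 ≤ tf x0 y w L z := by
  unfold tf
  rw [al_eq hw h1]
  refine mul_le_mul (pc_mono ?_) ?_ (by positivity) (pc_nonneg _)
  · have : Real.exp (2 / w * d) ≤ Real.exp (2 / w * (L - z.1)) :=
      Real.exp_le_exp.2 (mul_le_mul_of_nonneg_left (by linarith) (by positivity))
    linarith
  · unfold be
    have h4 : ((z.2 - y) / w) ^ 2 ≤ (3 / 4) ^ 2 := by
      refine sq_le_sq.2 ?_
      rw [abs_div, abs_of_pos hw, div_le_iff₀ hw, abs_of_pos (by norm_num : (0 : ℝ) < 3 / 4)]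
      exact h3
    refine (pow_le_pow_left₀ (by norm_num) ?_ 3).trans (cube_le_pc _)
    linarith

end Vale.Agent.P159.T1.H315
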