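import Vale.Agent.P159.T1.H315.Dict
import Vale.Agent.P159.T1.H315.Prof
import Vale.Agent.P159.T1.H315.Energy

/-!
# The bumps of row D.mid

* `bump_*` : size, support and lower bound of the bumps;
* `upper_mid` : the exponential moment of the two bumps is bounded (from `StmtU`);
* `lap_bump` : the charge of the lattice test function is at most a multiple of the left bump.
-/

open Filter Topology

namespace Vale.Agent.P159.T1.H315

open Vale.Agent.P159.T1.D (Z2 Bnd bs bt rt lf sides bd Ht dh dr gs wt pr ch Z Zρ ZB Vr IsDiv sh osc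
  SB mir bump StmtU StmtUV StmtV)

/-! ### bumps -/

lemma bump_nonneg {r : ℕ} {κ x y s : ℝ} (hκ : 0 ≤ κ) (f : Z2) : 0 ≤ bump r κ x y s f := by
  unfold bump
  positivity

lemma bump_le {r : ℕ} {κ x y s : ℝ} (hκ : 0 ≤ κ) (f : Z2) :
    bump r κ x y s f ≤ κ * (s ^ 2) ^ 4 / (r : ℝ) ^ 2 := by
  unfold bump
  have h1 : (max 0 (s ^ 2 - ((f.1 : ℝ) / r + x) ^ 2 - ((f.2 : ℝ) / r + y) ^ 2)) ^ 4 ≤
      (s ^ 2) ^ 4 := by
    refine pow_le_pow_left₀ (le_max_left _ _) (max_le (sq_nonneg s) ?_) 4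
    nlinarith [sq_nonneg ((f.1 : ℝ) / r + x), sq_nonneg ((f.2 : ℝ) / r + y)]
  calc κ / (r : ℝ) ^ 2 * (max 0 (s ^ 2 - ((f.1 : ℝ) / r + x) ^ 2 - ((f.2 : ℝ) / r + y) ^ 2)) ^ 4
      ≤ κ / (r : ℝ) ^ 2 * (s ^ 2) ^ 4 := mul_le_mul_of_nonneg_left h1 (by positivity)
    _ = _ := by ring

lemma bump_supp {r : ℕ} {κ x y s : ℝ} (hs : 0 < s) {f : Z2} (h : bump r κ x y s f ≠ 0) :
    |(f.1 : ℝ) / r + x| < s ∧ |(f.2 : ℝ) / r + y| < s := by
  have h1 : 0 < s ^ 2 - ((f.1 : ℝ) / r + x) ^ 2 - ((f.2 : ℝ) / r + y) ^ 2 := by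
    by_contra hn
    refine h ?_
    unfold bump
    rw [max_eq_left (not_lt.1 hn)]
    simp
  constructor
  · refine abs_lt_of_sq_lt_sq ?_ hs.le
    nlinarith [sq_nonneg ((f.2 : ℝ) / r + y)]
  · refine abs_lt_of_sq_lt_sq ?_ hs.le
    nlinarith [sq_nonneg ((f.1 : ℝ) / r + x)]

lemma bump_ge {r : ℕ} {κ x y s : ℝ} (hκ : 0 ≤ κ) {f : Z2}
    (h : ((f.1 : ℝ) / r + x) ^ 2 + ((f.2 : ℝ) / r + y) ^ 2 ≤ s ^ 2 / 2) :
    κ * (s ^ 2 / 2) ^ 4 / (r : ℝ) ^ 2 ≤ bump r κ x y s f := by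
  unfold bump
  have h1 : (s ^ 2 / 2) ^ 4 ≤
      (max 0 (s ^ 2 - ((f.1 : ℝ) / r + x) ^ 2 - ((f.2 : ℝ) / r + y) ^ 2)) ^ 4 := by
    refine pow_le_pow_left₀ (by positivity) (le_trans ?_ (le_max_right _ _)) 4
    linarith
  calc _ = κ / (r : ℝ) ^ 2 * (s ^ 2 / 2) ^ 4 := by ring
    _ ≤ _ := mul_le_mul_of_nonneg_left h1 (by positivity)

lemma slit_not_mem {R r : ℕ} {Q : Finset Z2} {i : ℤ} (h : i < 0 ∨ (r : ℤ) ≤ i) :
    (i, (-1 : ℤ)) ∉ SB R r \ Q := by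
  intro h1
  have h2 := (Finset.mem_sdiff.1 h1).1
  unfold SB at h2
  exact (Finset.mem_filter.1 h2).2 ⟨rfl, h⟩

lemma card_SK_le {K0 r : ℕ} (hK : 1 ≤ K0) (hr : 1 ≤ r) :
    ((SK (K0 * r)).card : ℝ) ≤ 18 * (K0 : ℝ) ^ 2 * (r : ℝ) ^ 2 := by
  rw [card_SK]
  have h1 : (1 : ℝ) ≤ (K0 : ℝ) * r := by
    exact_mod_cast Nat.one_le_iff_ne_zero.2 (by positivity)
  push_cast
  nlinarith

/-- the support and the columns of the two bumps -/
lemma bump_cols {r : ℕ} {κ x y s : ℝ} (hs : 0 < s) (hsx : s < x) (hr : 1 ≤ r) {f : Z2}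
    (h : bump r κ x y s f ≠ 0 ∨ bump r κ x y s (mir r f) ≠ 0) : f.1 < 0 ∨ (r : ℤ) ≤ f.1 := by
  have hr0 : (0 : ℝ) < r := by exact_mod_cast hr
  have key : ∀ i : ℤ, |(i : ℝ) / r + x| < s → i < 0 := by
    intro i hi
    have h1 := (abs_lt.1 hi).2
    have h2 : (i : ℝ) / r < 0 := by linarith
    have h3 : (i : ℝ) < 0 := by
      by_contra hn
      exact absurd h2 (not_lt.2 (div_nonneg (not_lt.1 hn) hr0.le))
    exact_mod_cast h3
  rcases h with h | h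
  · left
    exact key _ (bump_supp hs h).1
  · right
    have := key _ (bump_supp hs h).1
    unfold mir at this
    simp only at this
    omega

lemma bump_rows {r : ℕ} {κ x y s : ℝ} (hs : 0 < s) (hr : 1 ≤ r) (hr2 : 2 ≤ (y - s) * r)
    {f : Z2} (h : bump r κ x y s f ≠ 0) :
    -((y + s) * r) ≤ (f.2 : ℝ) ∧ f.2 ≤ -2 := by
  have hr0 : (0 : ℝ) < r := by exact_mod_cast hr
  have h1 := abs_lt.1 (bump_supp hs h).2
  have e : (f.2 : ℝ) = (f.2 : ℝ) / r * r := by field_simp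
  have h2 : (f.2 : ℝ) / r < -(y - s) := by linarith [h1.2]
  have h3 : -(y + s) < (f.2 : ℝ) / r := by linarith [h1.1]
  have h4 : (f.2 : ℝ) < -(y - s) * r := by
    rw [e]
    exact mul_lt_mul_of_pos_right h2 hr0
  constructor
  · rw [e]
    nlinarith
  · have : (f.2 : ℝ) ≤ -2 := by linarith
    exact_mod_cast this

/-- support of the vertical field -/
lemma vf_supp {M K : ℕ} {ρ : Z2 → ℝ} {C1 C2 : ℝ}
    (hcol : ∀ f, ρ f ≠ 0 → |(f.1 : ℝ)| ≤ C1) (hrow : ∀ f, ρ f ≠ 0 → -C2 ≤ (f.2 : ℝ))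
    (h1 : C1 ≤ K) (h2 : C2 ≤ K) {e : Bnd} (he : e ∉ SK K) : vf M ρ e = 0 := by
  by_contra hn
  refine he ?_
  rw [mem_SK]
  obtain ⟨⟨i, j⟩, c⟩ := e
  have h3 : c = false ∧ j ≤ -1 := by
    by_contra h3
    exact hn (if_neg h3)
  have h4 : vs M ρ i j ≠ 0 := by
    intro h4
    refine hn ?_
    unfold vf
    rw [if_pos h3]
    simp only
    rw [h4, neg_zero]
  obtain ⟨k, hk, hk'⟩ := Finset.exists_ne_zero_of_sum_ne_zero h4
  have h5 := (hcol _ hk').trans h1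
  have h6 := hrow _ hk'
  simp only at h5 h6
  refine ⟨by exact_mod_cast h5, ?_⟩
  rw [Finset.mem_range] at hk
  have h7 : (-(M : ℤ) + (k : ℤ)) < j := by omega
  have h8 : ((-(M : ℤ) + (k : ℤ) : ℤ) : ℝ) < (j : ℝ) := by exact_mod_cast h7
  have h9 : (j : ℝ) ≤ -1 := by exact_mod_cast h3.2
  have h10 : |(j : ℝ)| ≤ K := by
    rw [abs_of_nonpos (by linarith)]
    linarith
  exact_mod_cast h10

/-- the columns of the two bumps -/
lemma bump_cols' {r : ℕ} {κ x y s : ℝ} (hs : 0 < s) (hsx : s < x) (hr : 1 ≤ r) {f : Z2}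
    (h : bump r κ x y s f ≠ 0 ∨ bump r κ x y s (mir r f) ≠ 0) :
    |(f.1 : ℝ)| ≤ (x + s + 1) * r := by
  have hr0 : (1 : ℝ) ≤ r := by exact_mod_cast hr
  have key : ∀ (i' : ℤ), |(i' : ℝ) / r + x| < s → |(i' : ℝ)| ≤ (x + s) * r := by
    intro i' hi'
    have h6 := abs_lt.1 hi'
    have e' : (i' : ℝ) = (i' : ℝ) / r * r := by field_simp
    rw [e', abs_mul, abs_of_pos (by linarith : (0 : ℝ) < r)]
    exact mul_le_mul_of_nonneg_right (abs_le.2 ⟨by linarith, by linarith⟩) (by linarith)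
  rcases h with h | h
  · have h5 := key _ (bump_supp hs h).1
    linarith
  · have h5 := key _ (bump_supp hs h).1
    unfold mir at h5
    simp only at h5
    push_cast at h5
    have h6 := abs_le.1 h5
    have h7 : 0 ≤ (x + s) * r := by
      have : 0 < x + s := by linarith
      positivity
    rw [abs_le]
    constructor
    · linarith [h6.2]
    · linarith [h6.1]

/-- **the exponential moment of the two bumps is bounded** -/
theorem upper_mid (hU : StmtU) {b κ x y s : ℝ} (hb : 0 < b) (hκ : 0 < κ) (hs : 0 < s)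
    (hsy : s < y) (hsx : s < x) : ∃ (C : ℝ) (n1 : ℕ), 0 < C ∧ ∀ (A r : ℕ), n1 ≤ r →
      ∀ Q : Finset Z2,
      Zρ b (SB (A * r) r \ Q) (fun f => bump r κ x y s f + bump r κ x y s (mir r f)) ≤
        C * Z b (SB (A * r) r \ Q) := by
  obtain ⟨l, η, C, hη, hC, h1⟩ := hU b 1 hb one_pos
  obtain ⟨M0, hM0⟩ := exists_nat_ge (y + s + 1)
  obtain ⟨K0, hK0⟩ := exists_nat_ge (y + s + x + 3)
  have hM1 : (1 : ℝ) ≤ M0 := by linarith
  have hK1 : (1 : ℝ) ≤ K0 := by linarith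
  set c0 : ℝ := 2 * (κ * (s ^ 2) ^ 4) with hc0
  have hc0p : 0 < c0 := by positivity
  obtain ⟨n1, hn1⟩ := exists_nat_ge (max 1 (max (2 / (y - s)) (M0 * c0 / η)))
  set T : ℝ := 18 * (K0 : ℝ) ^ 2 * (M0 * c0) ^ 2 with hT
  set T' : ℝ := (2 * (l : ℝ) + 1) ^ 2 * (4 * T) with hT'
  refine ⟨Real.exp ((|helicity b| + 1) / 2 * T + C * T'), n1, Real.exp_pos _,
    fun A r hr Q => ?_⟩
  have hrr : (max 1 (max (2 / (y - s)) (M0 * c0 / η)) : ℝ) ≤ r :=
    hn1.trans (by exact_mod_cast hr)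
  have hr1 : (1 : ℝ) ≤ r := (le_max_left _ _).trans hrr
  have hr0 : (0 : ℝ) < r := by linarith
  have hr1' : 1 ≤ r := by exact_mod_cast hr1
  have hr2 : 2 ≤ (y - s) * r := by
    have h2 : 2 / (y - s) ≤ r := (le_max_left _ _).trans ((le_max_right _ _).trans hrr)
    rw [div_le_iff₀ (by linarith)] at h2
    linarith
  have hr3 : M0 * c0 / r ≤ η := by
    have h2 : M0 * c0 / η ≤ r := (le_max_right _ _).trans ((le_max_right _ _).trans hrr)
    rw [div_le_iff₀ hη] at h2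
    rw [div_le_iff₀ hr0]
    linarith
  set U := SB (A * r) r \ Q with hUdef
  set ρ : Z2 → ℝ := fun f => bump r κ x y s f + bump r κ x y s (mir r f) with hρ
  have hρle : ∀ f, |ρ f| ≤ c0 / (r : ℝ) ^ 2 := by
    intro f
    have a1 := bump_le (r := r) (x := x) (y := y) (s := s) hκ.le f
    have a2 := bump_le (r := r) (x := x) (y := y) (s := s) hκ.le (mir r f)
    have a3 := bump_nonneg (r := r) (x := x) (y := y) (s := s) hκ.le f
    have a4 := bump_nonneg (r := r) (x := x) (y := y) (s := s) hκ.le (mir r f)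
    rw [abs_of_nonneg (add_nonneg a3 a4), hc0]
    calc _ ≤ κ * (s ^ 2) ^ 4 / (r : ℝ) ^ 2 + κ * (s ^ 2) ^ 4 / (r : ℝ) ^ 2 := add_le_add a1 a2
      _ = _ := by ring
  have hne : ∀ f, ρ f ≠ 0 → bump r κ x y s f ≠ 0 ∨ bump r κ x y s (mir r f) ≠ 0 := by
    intro f hf
    by_contra hn
    push Not at hn
    exact hf (by rw [hρ]; simp only; rw [hn.1, hn.2, add_zero])
  have hrow0 : ∀ f, ρ f ≠ 0 → -((y + s) * r) ≤ (f.2 : ℝ) ∧ f.2 ≤ -2 := by
    intro f hf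
    rcases hne f hf with h | h
    · exact bump_rows hs hr1' hr2 h
    · have := bump_rows hs hr1' hr2 h
      exact this
  have hrow : ∀ f, ρ f ≠ 0 → -((M0 * r : ℕ) : ℤ) ≤ f.2 ∧ f.2 ≤ -2 := by
    intro f hf
    obtain ⟨a1, a2⟩ := hrow0 f hf
    refine ⟨?_, a2⟩
    have : -((M0 * r : ℕ) : ℝ) ≤ (f.2 : ℝ) := by
      push_cast
      nlinarith
    exact_mod_cast this
  set B := vf (M0 * r) ρ with hB
  have hdiv : IsDiv U B ρ := by
    refine vf_div hrow fun i j hij => ?_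
    exact slit_not_mem (bump_cols (f := (i, j)) hs hsx hr1' (hne _ hij))
  rw [← ZB_eq b hdiv]
  have hBle : ∀ e, |B e| ≤ M0 * c0 / r := by
    intro e
    refine (vf_le hρle e).trans (le_of_eq ?_)
    push_cast
    field_simp
  -- support in the box
  have hsupp : ∀ e, e ∉ SK (K0 * r) → B e = 0 := by
    intro e he
    refine vf_supp (C1 := (x + s + 1) * r) (C2 := (y + s) * r)
      (fun f hf => bump_cols' hs hsx hr1' (hne f hf)) (fun f hf => (hrow0 f hf).1) ?_ ?_ he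
    · push_cast
      nlinarith
    · push_cast
      nlinarith
  have h2 := h1 U (SK (K0 * r)) 0 B hsupp fun e => (hBle e).trans hr3
  refine h2.trans (mul_le_mul_of_nonneg_right (Real.exp_le_exp.2 ?_) (Z_pos hb.le U).le)
  have hcard := card_SK_le (K0 := K0) (r := r) (by exact_mod_cast hK1) hr1'
  have h3 : ∑ e ∈ SK (K0 * r), B e ^ 2 ≤ T := by
    refine (sum_sq_le hBle).trans ?_
    calc ((SK (K0 * r)).card : ℝ) * (M0 * c0 / r) ^ 2
        ≤ (18 * (K0 : ℝ) ^ 2 * (r : ℝ) ^ 2) * (M0 * c0 / r) ^ 2 :=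
          mul_le_mul_of_nonneg_right hcard (sq_nonneg _)
      _ = T := by
        rw [hT]
        field_simp
  have h30 : 0 ≤ ∑ e ∈ SK (K0 * r), B e ^ 2 := Finset.sum_nonneg fun _ _ => sq_nonneg _
  have h4 : osc l (SK (K0 * r)) B ≤ T' := by
    refine (osc_le (c := 2 * (M0 * c0 / r)) fun e _ u _ => ?_).trans ?_
    · have a1 := abs_sub (B (sh u e)) (B e)
      linarith [hBle (sh u e), hBle e]
    · calc ((SK (K0 * r)).card : ℝ) * ((2 * l + 1) ^ 2 * (2 * (M0 * c0 / r)) ^ 2)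
          ≤ (18 * (K0 : ℝ) ^ 2 * (r : ℝ) ^ 2) * ((2 * l + 1) ^ 2 * (2 * (M0 * c0 / r)) ^ 2) :=
            mul_le_mul_of_nonneg_right hcard (by positivity)
        _ = T' := by
          rw [hT', hT]
          field_simp
          ring
  have h5 : (helicity b + 1) / 2 * ∑ e ∈ SK (K0 * r), B e ^ 2 ≤ (|helicity b| + 1) / 2 * T := by
    have a1 := le_abs_self (helicity b)
    have a3 : 0 ≤ |helicity b| := abs_nonneg _
    exact mul_le_mul (by linarith) h3 h30 (by linarith)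
  have h6 := mul_le_mul_of_nonneg_left h4 hC.le
  exact add_le_add h5 h6

end Vale.Agent.P159.T1.H315
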