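import Vale.Agent.P159.T1.H315.MidA

/-!
# The charges of row D.mid

* `lap_bump` : the charge of the lattice test function is at most a multiple of the left bump;
* `r2` : a test charge below the right bump, with its size, regularity and pairing with the test
  function.
-/

open Filter Topology

namespace Vale.Agent.P159.T1.H315

open Vale.Agent.P159.T1.D (Z2 Bnd bs bt rt lf sides bd Ht dh dr gs wt pr ch Z Zρ ZB Vr IsDiv sh osc
  SB mir bump StmtU StmtUV StmtV)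

/-- the corner column -/
noncomputable def uc (x' : ℝ) (r : ℕ) : ℤ := ⌊-(x' * r)⌋ + 1

lemma uc_gt (x' : ℝ) (r : ℕ) : -(x' * r) < uc x' r := by
  unfold uc
  push_cast
  exact Int.lt_floor_add_one _

lemma uc_le (x' : ℝ) (r : ℕ) : (uc x' r : ℝ) ≤ -(x' * r) + 1 := by
  unfold uc
  push_cast
  linarith [Int.floor_le (-(x' * (r : ℝ)))]

lemma dv_dr_gg {x0 y w L : ℝ} {r : ℕ} (u : ℤ) (f : Z2) :
    dv (dr (gg (tf x0 y w L) r u)) f =
      -((al x0 w L (((f.1 : ℝ) - u) / r + 1 / r) + al x0 w L (((f.1 : ℝ) - u) / r - 1 / r) -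
        2 * al x0 w L (((f.1 : ℝ) - u) / r)) * be y w ((-2 - (f.2 : ℝ)) / r) +
        al x0 w L (((f.1 : ℝ) - u) / r) * (be y w ((-2 - (f.2 : ℝ)) / r + 1 / r) +
          be y w ((-2 - (f.2 : ℝ)) / r - 1 / r) - 2 * be y w ((-2 - (f.2 : ℝ)) / r))) := by
  unfold dv
  rw [dr_gg_false, dr_gg_false, dr_gg_true, dr_gg_true]
  unfold tf
  simp only
  push_cast
  have e1 : ((f.1 : ℝ) + 1 - u) / r = ((f.1 : ℝ) - u) / r + 1 / r := by ring
  have e2 : ((f.1 : ℝ) + 1 - u - 1) / r = ((f.1 : ℝ) - u) / r := by ring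
  have e3 : ((f.1 : ℝ) - u - 1) / r = ((f.1 : ℝ) - u) / r - 1 / r := by ring
  have e4 : (-2 - (f.2 : ℝ) + 1) / r = (-2 - (f.2 : ℝ)) / r + 1 / r := by ring
  have e5 : (-2 - ((f.2 : ℝ) + 1)) / r = (-2 - (f.2 : ℝ)) / r - 1 / r := by ring
  have e6 : (-2 - ((f.2 : ℝ) + 1) + 1) / r = (-2 - (f.2 : ℝ)) / r := by ring
  rw [e1, e2, e3, e4, e5, e6]
  ring

/-- **the charge of the test function is at most a multiple of the left bump** -/
theorem lap_bump {κ x y s x' L : ℝ} (hκ : 0 < κ) (hs : 0 < s) : ∃ (C : ℝ) (n1 : ℕ), 0 ≤ C ∧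
    ∀ r : ℕ, n1 ≤ r → ∀ f : Z2,
      dv (dr (gg (tf (x' - x) y (s / 4) L) r (uc x' r))) f ≤ C * bump r κ x y s f := by
  obtain ⟨C, hC, h1⟩ := lap_tf (x0 := x' - x) (y := y) (L := L) (w := s / 4) (by positivity)
  obtain ⟨n1, hn1⟩ := exists_nat_ge (max 1 (48 / s))
  refine ⟨C / (κ * (s ^ 2 / 2) ^ 4), n1, by positivity, fun r hr f => ?_⟩
  have hrr : (max 1 (48 / s) : ℝ) ≤ r := hn1.trans (by exact_mod_cast hr)
  have hr1 : (1 : ℝ) ≤ r := (le_max_left _ _).trans hrr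
  have hr0 : (0 : ℝ) < r := by linarith
  have hh : 1 / (r : ℝ) ≤ s / 48 := by
    have h2 : 48 / s ≤ r := (le_max_right _ _).trans hrr
    rw [div_le_iff₀ hs] at h2
    rw [div_le_iff₀ hr0]
    linarith
  have hh0 : 0 < 1 / (r : ℝ) := by positivity
  rw [dv_dr_gg]
  refine (h1 (1 / r) hh0.le (by linarith) _ _).trans ?_
  split_ifs with hc
  · have h2 := uc_gt x' r
    have h3 := uc_le x' r
    have h4 : ((f.1 : ℝ) / r + x) ^ 2 + ((f.2 : ℝ) / r + y) ^ 2 ≤ s ^ 2 / 2 := by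
      have a1 := abs_le.1 hc.1
      have a2 := abs_le.1 hc.2
      have e1 : (f.1 : ℝ) / r + x = (((f.1 : ℝ) - uc x' r) / r - (x' - x)) +
          ((uc x' r : ℝ) + x' * r) / r := by
        field_simp
        ring
      have e2 : (f.2 : ℝ) / r + y = -((-2 - (f.2 : ℝ)) / r - y) - 2 * (1 / r) := by
        ring
      have b1 : 0 ≤ ((uc x' r : ℝ) + x' * r) / r := div_nonneg (by linarith) hr0.le
      have b2 : ((uc x' r : ℝ) + x' * r) / r ≤ 1 / r :=
        div_le_div_of_nonneg_right (by linarith) hr0.le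
      have c1 : |(f.1 : ℝ) / r + x| ≤ s / 4 + 3 * (s / 48) := by
        rw [e1, abs_le]
        constructor
        · linarith [a1.1]
        · linarith [a1.2]
      have c2 : |(f.2 : ℝ) / r + y| ≤ s / 4 + 3 * (s / 48) := by
        rw [e2, abs_le]
        constructor
        · linarith [a2.2]
        · linarith [a2.1]
      have d1 := pow_le_pow_left₀ (abs_nonneg _) c1 2
      have d2 := pow_le_pow_left₀ (abs_nonneg _) c2 2
      rw [sq_abs] at d1 d2
      nlinarith [sq_nonneg s]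
    have h5 := bump_ge (r := r) hκ.le h4
    have hpos : 0 < κ * (s ^ 2 / 2) ^ 4 := by positivity
    calc C * (1 / (r : ℝ)) ^ 2 = C / (κ * (s ^ 2 / 2) ^ 4) *
          (κ * (s ^ 2 / 2) ^ 4 / (r : ℝ) ^ 2) := by
          field_simp
      _ ≤ _ := mul_le_mul_of_nonneg_left h5 (by positivity)
  · have := bump_nonneg (r := r) (x := x) (y := y) (s := s) hκ.le f
    positivity

/-! ### the test charge -/

open Classical in
/-- test charge below the right bump -/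
noncomputable def r2 (r : ℕ) (x y w : ℝ) (f : Z2) : ℝ :=
  1 / (r : ℝ) ^ 2 * max 0 (w - |(((mir r f).1 : ℤ) : ℝ) / r + x|) *
    (if |(f.2 : ℝ) / r + y| ≤ w / 2 then 1 else 0)

variable {r : ℕ} {x y w : ℝ}

lemma r2_nonneg (f : Z2) : 0 ≤ r2 r x y w f := by
  unfold r2
  refine mul_nonneg (mul_nonneg (by positivity) (le_max_left _ _)) ?_
  split_ifs <;> norm_num

lemma r2_le (hw : 0 < w) (f : Z2) : |r2 r x y w f| ≤ w / (r : ℝ) ^ 2 := by
  rw [abs_of_nonneg (r2_nonneg f)]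
  unfold r2
  have h1 : max 0 (w - |(((mir r f).1 : ℤ) : ℝ) / r + x|) ≤ w :=
    max_le hw.le (by linarith [abs_nonneg ((((mir r f).1 : ℤ) : ℝ) / r + x)])
  have h2 : (if |(f.2 : ℝ) / r + y| ≤ w / 2 then (1 : ℝ) else 0) ≤ 1 := by
    split_ifs <;> norm_num
  have h3 : (0 : ℝ) ≤ if |(f.2 : ℝ) / r + y| ≤ w / 2 then 1 else 0 := by
    split_ifs <;> norm_num
  calc _ ≤ 1 / (r : ℝ) ^ 2 * w * 1 := by
        refine mul_le_mul (mul_le_mul_of_nonneg_left h1 (by positivity)) h2 h3 (by positivity)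
    _ = _ := by ring

lemma r2_supp {f : Z2} (h : r2 r x y w f ≠ 0) :
    |(((mir r f).1 : ℤ) : ℝ) / r + x| ≤ w ∧ |(f.2 : ℝ) / r + y| ≤ w / 2 := by
  constructor
  · by_contra hn
    push Not at hn
    refine h ?_
    unfold r2
    rw [max_eq_left (by linarith)]
    ring
  · by_contra hn
    refine h ?_
    unfold r2
    rw [if_neg hn]
    ring

lemma r2_lip (hr : 1 ≤ r) (f : Z2) (u : ℤ) :
    |r2 r x y w (f.1 + u, f.2) - r2 r x y w f| ≤ |(u : ℝ)| / (r : ℝ) ^ 3 := by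
  have hr0 : (0 : ℝ) < r := by exact_mod_cast hr
  unfold r2
  simp only [mir]
  rw [← sub_mul, ← mul_sub, abs_mul, abs_mul, abs_of_pos (by positivity : 0 < 1 / (r : ℝ) ^ 2)]
  have h2 : |(if |(f.2 : ℝ) / r + y| ≤ w / 2 then (1 : ℝ) else 0)| ≤ 1 := by
    split_ifs <;> norm_num
  have h1 : |max 0 (w - |(((r : ℤ) - 1 - (f.1 + u) : ℤ) : ℝ) / r + x|) -
      max 0 (w - |(((r : ℤ) - 1 - f.1 : ℤ) : ℝ) / r + x|)| ≤ |(u : ℝ)| / r := by
    have key : ∀ a c : ℝ, |max 0 a - max 0 c| ≤ |a - c| := fun a c => by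
      rw [max_comm 0 a, max_comm 0 c]
      exact abs_max_sub_max_le_abs a c 0
    refine (key _ _).trans ?_
    have e : ∀ a c : ℝ, w - a - (w - c) = c - a := fun a c => by ring
    rw [e]
    refine (abs_abs_sub_abs_le_abs_sub _ _).trans (le_of_eq ?_)
    push_cast
    rw [show ((r : ℝ) - 1 - (f.1 : ℝ)) / r + x - (((r : ℝ) - 1 - ((f.1 : ℝ) + u)) / r + x) =
      (u : ℝ) / r by ring, abs_div, abs_of_pos hr0]
  calc _ ≤ 1 / (r : ℝ) ^ 2 * (|(u : ℝ)| / r) * 1 := by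
        refine mul_le_mul (mul_le_mul_of_nonneg_left h1 (by positivity)) h2 (abs_nonneg _)
          (by positivity)
    _ = _ := by
      field_simp

/-- the test charge is at most a multiple of the right bump -/
lemma r2_le_bump {κ s : ℝ} (hκ : 0 < κ) (hs : 0 < s) (f : Z2) :
    r2 r x y (s / 4) f ≤ (s / 4) / (κ * (s ^ 2 / 2) ^ 4) * bump r κ x y s (mir r f) := by
  by_cases h : r2 r x y (s / 4) f = 0
  · rw [h]
    have := bump_nonneg (r := r) (x := x) (y := y) (s := s) hκ.le (mir r f)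
    positivity
  · obtain ⟨h1, h2⟩ := r2_supp h
    have h4 : ((((mir r f).1 : ℤ) : ℝ) / r + x) ^ 2 + ((((mir r f).2 : ℤ) : ℝ) / r + y) ^ 2 ≤
        s ^ 2 / 2 := by
      have d1 := pow_le_pow_left₀ (abs_nonneg _) h1 2
      have d2 := pow_le_pow_left₀ (abs_nonneg _) h2 2
      rw [sq_abs] at d1 d2
      have e : ((mir r f).2 : ℤ) = f.2 := rfl
      rw [e]
      nlinarith [sq_nonneg s]
    have h5 := bump_ge (r := r) (κ := κ) hκ.le h4
    have h6 := r2_le (r := r) (x := x) (y := y) (w := s / 4) (by positivity) f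
    have hpos : 0 < κ * (s ^ 2 / 2) ^ 4 := by positivity
    calc r2 r x y (s / 4) f ≤ (s / 4) / (r : ℝ) ^ 2 := (le_abs_self _).trans h6
      _ = (s / 4) / (κ * (s ^ 2 / 2) ^ 4) * (κ * (s ^ 2 / 2) ^ 4 / (r : ℝ) ^ 2) := by
        field_simp
      _ ≤ _ := mul_le_mul_of_nonneg_left h5 (by positivity)

/-- number of integers in an interval -/
lemma card_Icc_ge {a b : ℝ} :
    b - a - 1 ≤ ((Finset.Icc ⌈a⌉ ⌊b⌋).card : ℝ) := by
  rw [Int.card_Icc]
  have h1 : b < ⌊b⌋ + 1 := Int.lt_floor_add_one b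
  have h2 : (⌈a⌉ : ℝ) < a + 1 := Int.ceil_lt_add_one a
  have h3 : ((⌊b⌋ + 1 - ⌈a⌉ : ℤ) : ℝ) ≤ (((⌊b⌋ + 1 - ⌈a⌉).toNat : ℤ) : ℝ) := by
    exact_mod_cast Int.self_le_toNat _
  push_cast at h3
  have h4 : (((⌊b⌋ + 1 - ⌈a⌉).toNat : ℤ) : ℝ) = ((⌊b⌋ + 1 - ⌈a⌉).toNat : ℝ) := by norm_cast
  linarith

/-- **pairing of the test charge with the test function** -/
theorem pair_ge {x y s x' : ℝ} (hs : 0 < s) (hx : s < x) : ∃ (c : ℝ) (n1 : ℕ), 0 < c ∧
    ∀ r : ℕ, n1 ≤ r → ∀ U : Finset Z2,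
      (∀ f : Z2, |(((mir r f).1 : ℤ) : ℝ) / r + x| ≤ s → |(f.2 : ℝ) / r + y| ≤ s → f ∈ U) →
      c ≤ ∑ f ∈ U, r2 r x y (s / 4) f *
        gg (tf (x' - x) y (s / 4) (x' + 1 + x + s)) r (uc x' r) f := by
  set w := s / 4 with hw
  have hw0 : 0 < w := by positivity
  set cg : ℝ := pc (Real.exp (2 / w * (s / 2)) - 1) * (7 / 16) ^ 3 with hcg
  have hcg0 : 0 < cg := by
    have h1 : 1 < Real.exp (2 / w * (s / 2)) := Real.one_lt_exp_iff.2 (by positivity)
    have h2 : 0 < Real.exp (2 / w * (s / 2)) - 1 := by linarith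
    rw [hcg, pc_of_nonneg h2.le]
    positivity
  obtain ⟨n1, hn1⟩ := exists_nat_ge (max 2 (32 / s))
  refine ⟨(w / 2) ^ 2 * ((w / 2) * cg), n1, by positivity, fun r hr U hU => ?_⟩
  have hrr : (max 2 (32 / s) : ℝ) ≤ r := hn1.trans (by exact_mod_cast hr)
  have hr2 : (2 : ℝ) ≤ r := (le_max_left _ _).trans hrr
  have hr0 : (0 : ℝ) < r := by linarith
  have hh : 2 / (r : ℝ) ≤ w / 4 := by
    have h2 : 32 / s ≤ r := (le_max_right _ _).trans hrr
    rw [div_le_iff₀ hs] at h2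
    rw [div_le_iff₀ hr0, hw]
    linarith
  have hh1 : 2 / (r : ℝ) ≤ 1 := by
    rw [div_le_iff₀ hr0]
    linarith
  set T : Finset Z2 := Finset.Icc ⌈(r : ℝ) - 1 + x * r - w / 2 * r⌉ ⌊(r : ℝ) - 1 + x * r + w / 2 * r⌋ ×ˢ
    Finset.Icc ⌈-(y * r) - w / 2 * r⌉ ⌊-(y * r) + w / 2 * r⌋ with hT
  have hTf : ∀ f ∈ T, |(((mir r f).1 : ℤ) : ℝ) / r + x| ≤ w / 2 ∧ |(f.2 : ℝ) / r + y| ≤ w / 2 := by
    intro f hf
    rw [hT, Finset.mem_product, Finset.mem_Icc, Finset.mem_Icc] at hf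
    obtain ⟨⟨a1, a2⟩, a3, a4⟩ := hf
    rw [Int.ceil_le] at a1 a3
    rw [Int.le_floor] at a2 a4
    unfold mir
    simp only
    push_cast
    constructor
    · have e : ((r : ℝ) - 1 - f.1) / r + x = ((r : ℝ) - 1 - f.1 + x * r) / r := by
        field_simp
      rw [e, abs_div, abs_of_pos hr0, div_le_iff₀ hr0, abs_le]
      constructor <;> linarith
    · have e : (f.2 : ℝ) / r + y = ((f.2 : ℝ) + y * r) / r := by
        field_simp
      rw [e, abs_div, abs_of_pos hr0, div_le_iff₀ hr0, abs_le]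
      constructor <;> linarith
  have hTU : T ⊆ U := by
    intro f hf
    obtain ⟨h1, h2⟩ := hTf f hf
    exact hU f (by linarith) (by linarith)
  have hterm : ∀ f ∈ T, (w / 2) / (r : ℝ) ^ 2 * cg ≤ r2 r x y w f *
      gg (tf (x' - x) y w (x' + 1 + x + s)) r (uc x' r) f := by
    intro f hf
    obtain ⟨h1, h2⟩ := hTf f hf
    refine mul_le_mul ?_ ?_ hcg0.le (r2_nonneg f)
    · unfold r2
      rw [if_pos h2, mul_one]
      have h3 : w / 2 ≤ max 0 (w - |(((mir r f).1 : ℤ) : ℝ) / r + x|) :=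
        le_trans (by linarith) (le_max_right _ _)
      calc w / 2 / (r : ℝ) ^ 2 = 1 / (r : ℝ) ^ 2 * (w / 2) := by ring
        _ ≤ _ := mul_le_mul_of_nonneg_left h3 (by positivity)
    · unfold gg
      have h3 := uc_gt x' r
      have h4 := uc_le x' r
      have b0 := abs_le.1 h1
      have b3 := abs_le.1 h2
      have e1 : ((f.1 : ℝ) - uc x' r) / r =
          1 + x - (((((mir r f).1 : ℤ) : ℝ)) / r + x) - 1 / r + x' -
            ((uc x' r : ℝ) + x' * r) / r := by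
        unfold mir
        simp only
        push_cast
        field_simp
        ring
      have b1 : 0 ≤ ((uc x' r : ℝ) + x' * r) / r := div_nonneg (by linarith) hr0.le
      have b2 : ((uc x' r : ℝ) + x' * r) / r ≤ 1 / r :=
        div_le_div_of_nonneg_right (by linarith) hr0.le
      have b4 : 1 / (r : ℝ) = 2 / r / 2 := by ring
      have b5 : 0 < 2 / (r : ℝ) := by positivity
      refine tf_ge hw0 (d := s / 2) (by positivity) ?_ ?_ ?_
      · show x' - x + w ≤ ((f.1 : ℝ) - uc x' r) / r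
        rw [e1]
        linarith
      · show ((f.1 : ℝ) - uc x' r) / r ≤ _
        rw [e1]
        linarith
      · show |(-2 - (f.2 : ℝ)) / r - y| ≤ _
        have e2 : (-2 - (f.2 : ℝ)) / r - y = -((f.2 : ℝ) / r + y) - 2 / r := by ring
        rw [e2, abs_le]
        constructor
        · linarith
        · linarith
  have hcard : ((w / 2) * r) ^ 2 ≤ (T.card : ℝ) := by
    rw [hT, Finset.card_product]
    push_cast
    have hwr : 1 ≤ w / 2 * r := by
      rw [div_le_iff₀ hr0] at hh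
      linarith
    have c1 := card_Icc_ge (a := (r : ℝ) - 1 + x * r - w / 2 * r)
      (b := (r : ℝ) - 1 + x * r + w / 2 * r)
    have c2 := card_Icc_ge (a := -(y * r) - w / 2 * r)
      (b := -(y * r) + w / 2 * r)
    have d1 : w / 2 * r ≤ ((Finset.Icc ⌈(r : ℝ) - 1 + x * r - w / 2 * r⌉
        ⌊(r : ℝ) - 1 + x * r + w / 2 * r⌋).card : ℝ) := by linarith
    have d2 : w / 2 * r ≤ ((Finset.Icc ⌈-(y * r) - w / 2 * r⌉
        ⌊-(y * r) + w / 2 * r⌋).card : ℝ) := by linarith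
    rw [pow_two]
    exact mul_le_mul d1 d2 (by linarith) (by linarith)
  calc (w / 2) ^ 2 * ((w / 2) * cg) = ((w / 2) * r) ^ 2 * ((w / 2) / (r : ℝ) ^ 2 * cg) := by
        field_simp
    _ ≤ (T.card : ℝ) * ((w / 2) / (r : ℝ) ^ 2 * cg) :=
        mul_le_mul_of_nonneg_right hcard (by positivity)
    _ = ∑ f ∈ T, (w / 2) / (r : ℝ) ^ 2 * cg := by rw [Finset.sum_const, nsmul_eq_mul]
    _ ≤ ∑ f ∈ T, r2 r x y w f * gg (tf (x' - x) y w (x' + 1 + x + s)) r (uc x' r) f :=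
        Finset.sum_le_sum hterm
    _ ≤ _ := Finset.sum_le_sum_of_subset_of_nonneg hTU fun f _ _ =>
        mul_nonneg (r2_nonneg f) (tf_nonneg _)

end Vale.Agent.P159.T1.H315
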