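import Vale.Agent.P159.T1.H315.MidB

/-!
# Row D.mid: domains, supports, oscillations
-/

open Filter Topology

namespace Vale.Agent.P159.T1.H315

open Vale.Agent.P159.T1.D (Z2 Bnd bs bt rt lf sides bd Ht dh dr gs wt pr ch Z Zρ ZB Vr IsDiv sh osc
  SB mir bump StmtU StmtUV StmtV iso)

/-! ### the defect form -/

lemma dv_comb (B1 B2 : Bnd → ℝ) (t : ℝ) :
    dv (fun e => B1 e - t * B2 e) = fun f => dv B1 f - t * dv B2 f := by
  funext f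
  unfold dv
  ring

/-- covariances from the defect form -/
theorem cov_defect {b Y C : ℝ} {l : ℕ} (hb : 0 ≤ b) (hC : 0 ≤ C) {U : Finset Z2} {S : Finset Bnd}
    (hUV : ∀ B : Bnd → ℝ, (∀ e, e ∉ S → B e = 0) →
      Vr b U B ≤ Y * ∑ e ∈ S, B e ^ 2 + C * osc l S B) {B1 B2 : Bnd → ℝ}
    (h1 : ∀ e, e ∉ S → B1 e = 0) (h2 : ∀ e, e ∉ S → B2 e = 0) (t : ℝ) :
    Vr b U B1 - Y * ∑ e ∈ S, B1 e ^ 2 + 2 * t * Y * ∑ e ∈ S, B1 e * B2 e -
      t ^ 2 * Y * ∑ e ∈ S, B2 e ^ 2 - 2 * C * osc l S B1 - 2 * t ^ 2 * C * osc l S B2 ≤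
      2 * t * Cv b U (dv B1) (dv B2) := by
  have h := hUV (fun e => B1 e - t * B2 e) fun e he => by rw [h1 e he, h2 e he]; ring
  rw [Vr_eq, dv_comb] at h
  have e1 : Cv b U (fun f => dv B1 f - t * dv B2 f) (fun f => dv B1 f - t * dv B2 f) =
      Cv b U (dv B1) (dv B1) - 2 * t * Cv b U (dv B1) (dv B2) +
        t ^ 2 * Cv b U (dv B2) (dv B2) := by
    rw [Cv_sub hb _ (dv B1) fun f => t * dv B2 f, Cv_smul, Cv_comm b U _ (dv B1),
      Cv_comm b U _ (dv B2), Cv_sub hb _ (dv B1) fun f => t * dv B2 f,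
      Cv_sub hb _ (dv B1) fun f => t * dv B2 f, Cv_smul, Cv_smul, Cv_comm b U (dv B2) (dv B1)]
    ring
  have e2 : ∑ e ∈ S, (B1 e - t * B2 e) ^ 2 = ∑ e ∈ S, B1 e ^ 2 - 2 * t * ∑ e ∈ S, B1 e * B2 e +
      t ^ 2 * ∑ e ∈ S, B2 e ^ 2 := by
    rw [Finset.mul_sum, Finset.mul_sum, ← Finset.sum_sub_distrib, ← Finset.sum_add_distrib]
    exact Finset.sum_congr rfl fun e _ => by ring
  have e3 : osc l S (fun e => B1 e - t * B2 e) ≤ 2 * osc l S B1 + 2 * t ^ 2 * osc l S B2 := by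
    unfold osc
    rw [Finset.mul_sum, Finset.mul_sum, ← Finset.sum_add_distrib]
    refine Finset.sum_le_sum fun e _ => ?_
    rw [Finset.mul_sum, Finset.mul_sum, ← Finset.sum_add_distrib]
    refine Finset.sum_le_sum fun u _ => ?_
    nlinarith [sq_nonneg ((B1 (sh u e) - B1 e) + t * (B2 (sh u e) - B2 e))]
  rw [e1, e2] at h
  have e4 := mul_le_mul_of_nonneg_left e3 hC
  have e5 : 0 ≤ t ^ 2 * Cv b U (dv B2) (dv B2) := mul_nonneg (sq_nonneg _) (Cv_self_nonneg hb _)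
  rw [Vr_eq]
  nlinarith

/-! ### domains -/

lemma mem_U {A r : ℕ} {x' : ℝ} {Q : Finset Z2} (hA : x' ≤ A)
    (hQ : ∀ f ∈ Q, x' * (r : ℝ) ≤ -(f.1 : ℝ)) {f : Z2} (h1 : -(x' * r) < (f.1 : ℝ))
    (h2 : (f.1 : ℝ) < r + A * r) (h3 : f.2 ≤ -2) (h4 : -((A : ℝ) * r) ≤ (f.2 : ℝ)) :
    f ∈ SB (A * r) r \ Q := by
  have hr0 : (0 : ℝ) ≤ r := Nat.cast_nonneg r
  rw [Finset.mem_sdiff]
  refine ⟨?_, fun hq => ?_⟩
  · unfold SB
    rw [Finset.mem_filter, Finset.mem_product, Finset.mem_Ico, Finset.mem_Ico]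
    have a1 : -(((A * r : ℕ) : ℤ) : ℝ) ≤ (f.1 : ℝ) := by
      push_cast
      nlinarith
    have a2 : (f.1 : ℝ) < (((r : ℤ) + ((A * r : ℕ) : ℤ) : ℤ) : ℝ) := by
      push_cast
      exact h2
    have a3 : -(((A * r : ℕ) : ℤ) : ℝ) ≤ (f.2 : ℝ) := by
      push_cast
      exact h4
    refine ⟨⟨⟨by exact_mod_cast a1, by exact_mod_cast a2⟩, by exact_mod_cast a3, ?_⟩, ?_⟩
    · have : (0 : ℤ) ≤ ((A * r : ℕ) : ℤ) := Int.natCast_nonneg _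
      omega
    · rintro ⟨h, _⟩
      omega
  · have := hQ f hq
    linarith

/-- the test function vanishes outside the domain -/
lemma gg_supp {x0 y w L x' : ℝ} {r : ℕ} (hw : 0 < w) (hr : 1 ≤ r) {f : Z2}
    (h : gg (tf x0 y w L) r (uc x' r) f ≠ 0) :
    -(x' * r) + (x0 - w) * r < (f.1 : ℝ) ∧ (f.1 : ℝ) ≤ (L - x') * r + 1 ∧
      (f.2 : ℝ) ≤ -2 - (y - w) * r ∧ -2 - (y + w) * r ≤ (f.2 : ℝ) := by
  have hr0 : (0 : ℝ) < r := by exact_mod_cast hr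
  obtain ⟨⟨h1, h2⟩, h3, h4⟩ := tf_supp hw h
  simp only at h1 h2 h3 h4
  rw [le_div_iff₀ hr0] at h1 h3
  rw [div_le_iff₀ hr0] at h2 h4
  have h5 := uc_gt x' r
  have h6 := uc_le x' r
  refine ⟨?_, ?_, ?_, ?_⟩ <;> linarith

/-! ### the test charge -/

lemma r2_rows {x y s : ℝ} {r : ℕ} (hs : 0 < s) (hr : 1 ≤ r) (hr2 : 2 ≤ (y - s) * r)
    {f : Z2} (h : r2 r x y (s / 4) f ≠ 0) :
    -((y + s) * r) ≤ (f.2 : ℝ) ∧ f.2 ≤ -2 := by
  have hr0 : (0 : ℝ) < r := by exact_mod_cast hr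
  have h1 := abs_le.1 (r2_supp h).2
  have e : (f.2 : ℝ) = (f.2 : ℝ) / r * r := by field_simp
  have h2 : (f.2 : ℝ) / r ≤ -(y - s) := by linarith [h1.2]
  have h3 : -(y + s) ≤ (f.2 : ℝ) / r := by linarith [h1.1]
  have h4 := mul_le_mul_of_nonneg_right h2 hr0.le
  have h5 := mul_le_mul_of_nonneg_right h3 hr0.le
  rw [← e] at h4 h5
  constructor
  · linarith
  · have : (f.2 : ℝ) ≤ -2 := by linarith
    exact_mod_cast this

lemma r2_cols {x y s : ℝ} {r : ℕ} (hs : 0 < s) (hsx : s < x) (hr : 1 ≤ r)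
    {f : Z2} (h : r2 r x y (s / 4) f ≠ 0) :
    (r : ℤ) ≤ f.1 ∧ |(f.1 : ℝ)| ≤ (x + s + 1) * r := by
  have hr0 : (0 : ℝ) < r := by exact_mod_cast hr
  have hr1 : (1 : ℝ) ≤ r := by exact_mod_cast hr
  have h1 := abs_le.1 (r2_supp h).1
  unfold mir at h1
  simp only at h1
  push_cast at h1
  have e : ((r : ℝ) - 1 - f.1) = ((r : ℝ) - 1 - f.1) / r * r := by field_simp
  have h2 : ((r : ℝ) - 1 - f.1) / r < 0 := by linarith [h1.2]
  have h3 : ((r : ℝ) - 1 - f.1) < 0 := by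
    rw [e]
    exact mul_neg_of_neg_of_pos h2 hr0
  have h4 : ((r : ℤ) : ℝ) < (f.1 : ℝ) + 1 := by
    push_cast
    linarith
  have h5 : -(x + s / 4) ≤ ((r : ℝ) - 1 - f.1) / r := by linarith [h1.1]
  have h6 := mul_le_mul_of_nonneg_right h5 hr0.le
  rw [← e] at h6
  constructor
  · have : (r : ℤ) < f.1 + 1 := by exact_mod_cast h4
    omega
  · have h7 : (0 : ℝ) ≤ f.1 := by linarith
    rw [abs_of_nonneg h7]
    nlinarith

lemma dr_gg_supp {x0 y w L x' : ℝ} {r K0 : ℕ} (hw : 0 < w) (hr : 1 ≤ r) (hx' : 0 ≤ x')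
    (hx0 : w ≤ x0) (hy : w ≤ y) (hK : x' + |L - x'| + y + w + 4 ≤ K0) {e : Bnd}
    (he : e ∉ SK (K0 * r)) : dr (gg (tf x0 y w L) r (uc x' r)) e = 0 := by
  have hr1 : (1 : ℝ) ≤ r := by exact_mod_cast hr
  by_contra hn
  refine he ?_
  have key : ∀ f : Z2, gg (tf x0 y w L) r (uc x' r) f ≠ 0 →
      |(f.1 : ℝ)| + 1 ≤ ((K0 * r : ℕ) : ℝ) ∧ |(f.2 : ℝ)| + 1 ≤ ((K0 * r : ℕ) : ℝ) := by
    intro f hf
    obtain ⟨h1, h2, h3, h4⟩ := gg_supp hw hr hf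
    have a1 : 0 ≤ (x0 - w) * r := mul_nonneg (by linarith) (by linarith)
    have a2 : 0 ≤ (y - w) * r := mul_nonneg (by linarith) (by linarith)
    have a3 : (L - x') * r ≤ |L - x'| * r :=
      mul_le_mul_of_nonneg_right (le_abs_self _) (by linarith)
    have a4 : 0 ≤ |L - x'| * r := mul_nonneg (abs_nonneg _) (by linarith)
    have a5 : 0 ≤ x' * r := mul_nonneg hx' (by linarith)
    have a6 : 0 ≤ (y + w) * r := mul_nonneg (by linarith) (by linarith)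
    have a7 := mul_le_mul_of_nonneg_right hK (by linarith : (0 : ℝ) ≤ r)
    push_cast
    constructor
    · have : |(f.1 : ℝ)| ≤ x' * r + |L - x'| * r + 1 := abs_le.2 ⟨by linarith, by linarith⟩
      nlinarith
    · have : |(f.2 : ℝ)| ≤ (y + w) * r + 2 := abs_le.2 ⟨by linarith, by linarith⟩
      nlinarith
  have h1 : gg (tf x0 y w L) r (uc x' r) (lf e) ≠ 0 ∨ gg (tf x0 y w L) r (uc x' r) (rt e) ≠ 0 := by
    by_contra h2
    push Not at h2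
    refine hn ?_
    unfold dr
    rw [h2.1, h2.2, sub_zero]
  rw [mem_SK]
  obtain ⟨⟨i, j⟩, c⟩ := e
  have fin : ∀ f : Z2, (|i - f.1| ≤ 1 ∧ |j - f.2| ≤ 1) →
      (|(f.1 : ℝ)| + 1 ≤ ((K0 * r : ℕ) : ℝ) ∧ |(f.2 : ℝ)| + 1 ≤ ((K0 * r : ℕ) : ℝ)) →
      |i| ≤ ((K0 * r : ℕ) : ℤ) ∧ |j| ≤ ((K0 * r : ℕ) : ℤ) := by
    rintro ⟨p, q⟩ ⟨h2, h3⟩ ⟨h4, h5⟩
    simp only at h2 h3 h4 h5
    have h4' : |p| + 1 ≤ ((K0 * r : ℕ) : ℤ) := by exact_mod_cast h4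
    have h5' : |q| + 1 ≤ ((K0 * r : ℕ) : ℤ) := by exact_mod_cast h5
    have b1 : |i| ≤ |p| + |i - p| := by
      have := abs_add_le p (i - p)
      rwa [add_sub_cancel] at this
    have b2 : |j| ≤ |q| + |j - q| := by
      have := abs_add_le q (j - q)
      rwa [add_sub_cancel] at this
    exact ⟨by linarith, by linarith⟩
  rcases h1 with h1 | h1
  · refine fin _ ?_ (key _ h1)
    cases c <;> simp [lf]
  · refine fin _ ?_ (key _ h1)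
    cases c <;> simp [rt]

end Vale.Agent.P159.T1.H315
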