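import Mathlib

/-!
# One dimensional profiles (row D.mid)

* `contDiff_pc` : `x ↦ (max 0 x) ^ 3` is `C²`;
* `be_conv` : the second difference of `(1 - τ²)_+^3` is at least `-12 δ²` times the function;
* `ga_conv` : the second difference of `(exp (λ d) - 1)_+^3` is at least `3 (λ h)²` times the
  function;
* `second_diff` : second differences of `C²` functions with compact support.
-/

open Filter Topology

namespace Vale.Agent.P159.T1.H315

/-- the cubic part -/
noncomputable def pc (x : ℝ) : ℝ := (max 0 x) ^ 3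

lemma pc_nonneg (x : ℝ) : 0 ≤ pc x := pow_nonneg (le_max_left _ _) _

lemma pc_of_nonpos {x : ℝ} (h : x ≤ 0) : pc x = 0 := by
  unfold pc
  rw [max_eq_left h]
  norm_num

lemma pc_of_nonneg {x : ℝ} (h : 0 ≤ x) : pc x = x ^ 3 := by
  unfold pc
  rw [max_eq_right h]

lemma cube_le_pc (x : ℝ) : x ^ 3 ≤ pc x := by
  rcases le_total 0 x with h | h
  · rw [pc_of_nonneg h]
  · rw [pc_of_nonpos h]
    nlinarith [sq_nonneg x, mul_nonneg (sq_nonneg x) (neg_nonneg.2 h)]

lemma pc_mono {x y : ℝ} (h : x ≤ y) : pc x ≤ pc y :=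
  pow_le_pow_left₀ (le_max_left _ _) (max_le_max le_rfl h) 3

/-- tangent inequality -/
lemma pc_tangent (a u : ℝ) : pc u + 3 * (max 0 u) ^ 2 * (a - u) ≤ pc a := by
  rcases le_total 0 u with h | h
  · rw [pc_of_nonneg h, max_eq_right h]
    rcases le_total 0 a with h2 | h2
    · rw [pc_of_nonneg h2]
      nlinarith [mul_nonneg (add_nonneg h2 (mul_nonneg zero_le_two h)) (sq_nonneg (a - u))]
    · rw [pc_of_nonpos h2]
      nlinarith [pow_nonneg h 3, mul_nonneg (sq_nonneg u) (neg_nonneg.2 h2)]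
  · rw [pc_of_nonpos h, max_eq_left h]
    have := pc_nonneg a
    nlinarith

lemma hasDerivAt_pos_pow (n : ℕ) (x : ℝ) :
    HasDerivAt (fun x : ℝ => (max 0 x) ^ (n + 2)) (((n : ℝ) + 2) * (max 0 x) ^ (n + 1)) x := by
  rcases lt_trichotomy x 0 with h | h | h
  · have h1 : HasDerivAt (fun _ : ℝ => (0 : ℝ)) 0 x := hasDerivAt_const x 0
    have e : (fun x : ℝ => (max 0 x) ^ (n + 2)) =ᶠ[𝓝 x] fun _ => (0 : ℝ) := by
      filter_upwards [eventually_lt_nhds h] with y hy
      rw [max_eq_left hy.le]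
      simp
    rw [max_eq_left h.le, zero_pow (by omega), mul_zero]
    exact h1.congr_of_eventuallyEq e
  · subst h
    rw [max_self, zero_pow (by omega), mul_zero, hasDerivAt_iff_isLittleO]
    simp only [max_self, smul_zero, sub_zero]
    rw [zero_pow (by omega)]
    simp only [sub_zero]
    have h1 : (fun y : ℝ => (max 0 y) ^ (n + 2)) =O[𝓝 0] fun y : ℝ => y ^ (n + 2) := by
      refine Asymptotics.IsBigO.of_bound 1 (Eventually.of_forall fun y => ?_)
      rw [one_mul, Real.norm_eq_abs, Real.norm_eq_abs, abs_pow, abs_pow]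
      refine pow_le_pow_left₀ (abs_nonneg _) ?_ _
      rw [abs_of_nonneg (le_max_left _ _)]
      exact max_le (abs_nonneg _) (le_abs_self _)
    refine h1.trans_isLittleO ?_
    have h2 := Asymptotics.isLittleO_pow_id (𝕜 := ℝ) (n := n + 2) (by omega)
    exact h2
  · have h1 : HasDerivAt (fun x : ℝ => x ^ (n + 2)) (((n + 2 : ℕ) : ℝ) * x ^ (n + 2 - 1)) x :=
      hasDerivAt_pow _ x
    have e : (fun x : ℝ => (max 0 x) ^ (n + 2)) =ᶠ[𝓝 x] fun x => x ^ (n + 2) := by
      filter_upwards [eventually_gt_nhds h] with y hy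
      rw [max_eq_right hy.le]
    rw [max_eq_right h.le]
    refine (h1.congr_of_eventuallyEq e).congr_deriv ?_
    push_cast
    rfl

lemma contDiff_sq : ContDiff ℝ 1 fun x : ℝ => (max 0 x) ^ 2 := by
  rw [contDiff_one_iff_deriv]
  refine ⟨fun x => (hasDerivAt_pos_pow 0 x).differentiableAt, ?_⟩
  have : deriv (fun x : ℝ => (max 0 x) ^ 2) = fun x => (((0 : ℕ) : ℝ) + 2) * (max 0 x) ^ (0 + 1) := by
    funext x
    exact (hasDerivAt_pos_pow 0 x).deriv
  rw [this]
  fun_prop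

lemma contDiff_pc : ContDiff ℝ 2 pc := by
  have h : ContDiff ℝ ((1 : ℕ∞) + 1) pc := by
    rw [contDiff_succ_iff_deriv]
    refine ⟨fun x => (hasDerivAt_pos_pow 1 x).differentiableAt, fun h => absurd h (by simp), ?_⟩
    have : deriv pc = fun x => (((1 : ℕ) : ℝ) + 2) * (max 0 x) ^ (1 + 1) := by
      funext x
      exact (hasDerivAt_pos_pow 1 x).deriv
    rw [this]
    exact contDiff_const.mul contDiff_sq
  convert h using 1
  norm_num

/-- second differences of the bell -/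
theorem be_conv {τ δ : ℝ} (h0 : 0 ≤ δ) (h1 : δ ≤ 1 / 8) :
    -(12 * δ ^ 2) * pc (1 - τ ^ 2) ≤
      pc (1 - (τ + δ) ^ 2) + pc (1 - (τ - δ) ^ 2) - 2 * pc (1 - τ ^ 2) := by
  wlog hτ : 0 ≤ τ generalizing τ with H
  · have := H (τ := -τ) (by linarith)
    have e1 : (-τ + δ) ^ 2 = (τ - δ) ^ 2 := by ring
    have e2 : (-τ - δ) ^ 2 = (τ + δ) ^ 2 := by ring
    rw [e1, e2, neg_sq] at this
    linarith
  rcases le_or_gt (1 - τ ^ 2) 0 with h2 | h2
  · rw [pc_of_nonpos h2]
    have a1 := pc_nonneg (1 - (τ + δ) ^ 2)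
    have a2 := pc_nonneg (1 - (τ - δ) ^ 2)
    linarith
  rw [pc_of_nonneg h2.le]
  set u := 1 - τ ^ 2 with hu
  have hq1 : δ ^ 2 ≤ 1 / 64 := by nlinarith
  rcases le_or_gt (5 * δ ^ 2) u with h3 | h3
  · have a1 := cube_le_pc (1 - (τ + δ) ^ 2)
    have a2 := cube_le_pc (1 - (τ - δ) ^ 2)
    have e : (1 - (τ + δ) ^ 2) ^ 3 + (1 - (τ - δ) ^ 2) ^ 3 = 2 * (u - δ ^ 2) ^ 3 +
        24 * δ ^ 2 * (1 - u) * (u - δ ^ 2) := by
      rw [hu]
      ring
    have hu1 : u ≤ 1 := by nlinarith [sq_nonneg τ]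
    have key : 0 ≤ -6 * u ^ 2 + 6 * u * δ ^ 2 - 2 * (δ ^ 2) ^ 2 +
        24 * (1 - u) * (u - δ ^ 2) + 12 * u ^ 3 := by
      have b1 : 0 ≤ u * ((1 - u) * (3 - 2 * u)) :=
        mul_nonneg h2.le (mul_nonneg (by linarith) (by linarith))
      nlinarith [mul_nonneg h2.le (sq_nonneg δ), sq_nonneg δ]
    have key2 := mul_nonneg (sq_nonneg δ) key
    nlinarith
  · have hτ1 : (9 / 10 : ℝ) ≤ τ := by
      by_contra hn
      push Not at hn
      nlinarith
    have a1 := pc_nonneg (1 - (τ + δ) ^ 2)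
    have hb : 13 / 8 * δ ≤ 1 - (τ - δ) ^ 2 := by
      nlinarith
    have a2 : (13 / 8 * δ) ^ 3 ≤ pc (1 - (τ - δ) ^ 2) :=
      (pow_le_pow_left₀ (by positivity) hb 3).trans (cube_le_pc _)
    have hu2 : u ≤ 5 / 8 * δ := by nlinarith
    have a3 : u ^ 3 ≤ (5 / 8 * δ) ^ 3 := pow_le_pow_left₀ h2.le hu2 3
    have a4 : 0 ≤ δ ^ 3 := pow_nonneg h0 3
    have a5 : 0 ≤ 12 * δ ^ 2 * u ^ 3 := by positivity
    nlinarith

lemma sq_le_cosh (x : ℝ) : x ^ 2 ≤ Real.exp x + Real.exp (-x) - 2 := by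
  have h1 : Real.exp x + Real.exp (-x) - 2 = 4 * Real.sinh (x / 2) ^ 2 := by
    rw [Real.sinh_eq]
    have e1 : Real.exp x = Real.exp (x / 2) * Real.exp (x / 2) := by
      rw [← Real.exp_add]
      ring_nf
    have e2 : Real.exp (-x) = Real.exp (-(x / 2)) * Real.exp (-(x / 2)) := by
      rw [← Real.exp_add]
      ring_nf
    have e3 : Real.exp (x / 2) * Real.exp (-(x / 2)) = 1 := by
      rw [← Real.exp_add]
      simp
    rw [e1, e2]
    nlinarith
  rw [h1]
  have h2 : |x / 2| ≤ |Real.sinh (x / 2)| := by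
    rw [Real.abs_sinh]
    exact Real.self_le_sinh_iff.2 (abs_nonneg _)
  have h3 : (x / 2) ^ 2 ≤ Real.sinh (x / 2) ^ 2 := sq_le_sq.2 h2
  nlinarith

/-- second differences of the decaying profile -/
theorem ga_conv {lam d h : ℝ} :
    3 * (lam * h) ^ 2 * pc (Real.exp (lam * d) - 1) ≤
      pc (Real.exp (lam * (d + h)) - 1) + pc (Real.exp (lam * (d - h)) - 1) -
        2 * pc (Real.exp (lam * d) - 1) := by
  set u := Real.exp (lam * d) - 1 with hu
  have a1 := pc_tangent (Real.exp (lam * (d + h)) - 1) u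
  have a2 := pc_tangent (Real.exp (lam * (d - h)) - 1) u
  have e1 : Real.exp (lam * (d + h)) = (u + 1) * Real.exp (lam * h) := by
    rw [hu, mul_add, Real.exp_add]
    ring
  have e2 : Real.exp (lam * (d - h)) = (u + 1) * Real.exp (-(lam * h)) := by
    rw [hu, mul_sub, sub_eq_add_neg, Real.exp_add]
    ring
  have h1 := sq_le_cosh (lam * h)
  have hu1 : 0 < u + 1 := by
    rw [hu, sub_add_cancel]
    exact Real.exp_pos _
  have h2 : (lam * h) ^ 2 * (u + 1) ≤
      (Real.exp (lam * (d + h)) - 1 - u) + (Real.exp (lam * (d - h)) - 1 - u) := by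
    rw [e1, e2]
    nlinarith
  have h3 : 3 * (max 0 u) ^ 2 * ((lam * h) ^ 2 * (u + 1)) ≤ 3 * (max 0 u) ^ 2 *
      ((Real.exp (lam * (d + h)) - 1 - u) + (Real.exp (lam * (d - h)) - 1 - u)) :=
    mul_le_mul_of_nonneg_left h2 (by positivity)
  have h4 : 3 * (lam * h) ^ 2 * pc u ≤ 3 * (max 0 u) ^ 2 * ((lam * h) ^ 2 * (u + 1)) := by
    rcases le_total 0 u with hh | hh
    · rw [pc_of_nonneg hh, max_eq_right hh]
      nlinarith [mul_nonneg (sq_nonneg (lam * h)) (sq_nonneg u), sq_nonneg u]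
    · rw [pc_of_nonpos hh, max_eq_left hh]
      simp
  linarith

/-- second differences of `C²` functions with compact support -/
theorem second_diff {f : ℝ → ℝ} (hf : ContDiff ℝ 2 f) (hc : HasCompactSupport f) :
    ∃ C : ℝ, 0 ≤ C ∧ ∀ x h : ℝ, |f (x + h) + f (x - h) - 2 * f x| ≤ C * h ^ 2 := by
  have hd : Differentiable ℝ f := hf.differentiable (by norm_num)
  have h1 : ContDiff ℝ 1 (deriv f) := by
    have : ContDiff ℝ ((1 : ℕ∞) + 1) f := by
      convert hf using 1
      norm_num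
    exact (contDiff_succ_iff_deriv.1 this).2.2
  have hcd : HasCompactSupport (deriv f) := hc.deriv
  obtain ⟨K, hK⟩ := h1.lipschitzWith_of_hasCompactSupport hcd (by norm_num)
  refine ⟨2 * K, by positivity, fun x h => ?_⟩
  -- `g y = f (x + y) + f (x - y) - 2 f x`
  have hg : ∀ y : ℝ, HasDerivAt (fun y => f (x + y) + f (x - y) - 2 * f x)
      (deriv f (x + y) - deriv f (x - y)) y := by
    intro y
    have a1 : HasDerivAt (fun y => f (x + y)) (deriv f (x + y)) y := by
      have := (hd (x + y)).hasDerivAt.comp_const_add x y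
      exact this
    have a2 : HasDerivAt (fun y => f (x - y)) (-deriv f (x - y)) y := by
      have := (hd (x - y)).hasDerivAt.comp_const_sub x y
      exact this
    exact ((a1.add a2).sub_const (2 * f x)).congr_deriv (by ring)
  have hb : ∀ y ∈ Set.uIcc 0 h, ‖deriv f (x + y) - deriv f (x - y)‖ ≤ 2 * K * |h| := by
    intro y hy
    have h2 := hK.dist_le_mul (x + y) (x - y)
    rw [Real.dist_eq, Real.dist_eq] at h2
    have h3 : |y| ≤ |h| := by
      rcases le_total 0 h with hh | hh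
      · rw [Set.uIcc_of_le hh] at hy
        rw [abs_of_nonneg hy.1, abs_of_nonneg hh]
        exact hy.2
      · rw [Set.uIcc_of_ge hh] at hy
        rw [abs_of_nonpos hy.2, abs_of_nonpos hh]
        linarith [hy.1]
    have h4 : |x + y - (x - y)| = 2 * |y| := by
      rw [show x + y - (x - y) = 2 * y by ring, abs_mul, abs_two]
    rw [Real.norm_eq_abs]
    calc _ ≤ (K : ℝ) * (2 * |y|) := by rw [← h4]; exact h2
      _ ≤ (K : ℝ) * (2 * |h|) := by gcongr
      _ = _ := by ring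
  have h5 := (convex_uIcc (0 : ℝ) h).norm_image_sub_le_of_norm_hasDerivWithin_le
    (fun y _ => (hg y).hasDerivWithinAt) hb (Set.left_mem_uIcc) (Set.right_mem_uIcc)
  simp only [add_zero, sub_zero, Real.norm_eq_abs] at h5
  have e1 : f x + f x - 2 * f x = 0 := by ring
  rw [e1, sub_zero] at h5
  calc _ ≤ 2 * (K : ℝ) * |h| * |h| := h5
    _ = _ := by rw [mul_assoc, abs_mul_abs_self]; ring

end Vale.Agent.P159.T1.H315
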